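import Vale.Agent.P358.LogEnt

/-!
# P358: comparison of entropies from comparison of determinants
-/

namespace Vale.Agent.P358

theorem cmp_eta {α β : Type*} [Fintype α] [Fintype β] (x : α → ℝ) (y : β → ℝ)
    (hx : ∀ i, 0 ≤ x i) (hy : ∀ j, 0 ≤ y j) (hs : ∑ i, x i = ∑ j, y j)
    (h : ∀ l : ℝ, 0 < l → ∏ j, (1 + l * y j) ≤ ∏ i, (1 + l * x i)) :
    ∑ j, Real.negMulLog (y j) ≤ ∑ i, Real.negMulLog (x i) := by
  classical
  have key := ent_of_logs (Finset.univ : Finset (α ⊕ β))
    (Sum.elim (fun _ => (1 : ℝ)) (fun _ => (-1 : ℝ))) (Sum.elim x y)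
    (by rintro (i | j) _ <;> simp [hx, hy])
    (by rw [Fintype.sum_sum_type]; simp [hs])
    (by
      intro l hl
      rw [Fintype.sum_sum_type]
      simp only [Sum.elim_inl, Sum.elim_inr, one_mul, neg_mul, Finset.sum_neg_distrib]
      have p1 : ∀ i, 0 < 1 + l * x i := fun i => by have := hx i; positivity
      have p2 : ∀ j, 0 < 1 + l * y j := fun j => by have := hy j; positivity
      rw [← Real.log_prod (fun i _ => (p1 i).ne'), ← Real.log_prod (fun j _ => (p2 j).ne')]
      have := Real.log_le_log (Finset.prod_pos fun j _ => p2 j) (h l hl)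
      linarith)
  rw [Fintype.sum_sum_type] at key
  simp only [Sum.elim_inl, Sum.elim_inr, one_mul, neg_mul, Finset.sum_neg_distrib] at key
  linarith

end Vale.Agent.P358
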