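import Vale.Agent.P358.Defs

/-!
# P358: basic facts on the entropy of a Hermitian matrix
-/

namespace Vale.Agent.P358

open Matrix
open scoped ComplexOrder

variable {ι κ : Type*} [Fintype ι] [DecidableEq ι] [Fintype κ] [DecidableEq κ]

theorem ent_eq_eig {M : Matrix ι ι ℂ} (hM : M.IsHermitian) :
    ent M = ∑ i, Real.negMulLog (hM.eigenvalues i) := by
  unfold ent
  rw [dif_pos hM]

theorem ent_of_charpoly {M : Matrix ι ι ℂ} (hM : M.IsHermitian) (f : ι → ℝ)
    (h : M.charpoly = ∏ i, (Polynomial.X - Polynomial.C ((f i : ℝ) : ℂ))) :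
    ent M = ∑ i, Real.negMulLog (f i) := by
  have h1 : M.charpoly.roots = Multiset.map (fun i => ((f i : ℝ) : ℂ)) Finset.univ.val := by
    rw [h, Polynomial.roots_prod]
    · simp
    · simp [Finset.prod_ne_zero_iff, Polynomial.X_sub_C_ne_zero]
  have h2 := hM.roots_charpoly_eq_eigenvalues
  rw [h1] at h2
  have h3 := congrArg (fun s : Multiset ℂ => (s.map (fun z => Real.negMulLog z.re)).sum) h2
  simp only [Multiset.map_map, Function.comp_def] at h3
  rw [ent_eq_eig hM]
  have e1 : ∑ i, Real.negMulLog (f i) =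
      (Multiset.map (fun x => Real.negMulLog ((f x : ℂ)).re) Finset.univ.val).sum := by
    simp only [Complex.ofReal_re]
    rfl
  have e2 : ∑ i, Real.negMulLog (hM.eigenvalues i) =
      (Multiset.map (fun x => Real.negMulLog ((hM.eigenvalues x : ℂ)).re) Finset.univ.val).sum := by
    simp only [Complex.ofReal_re]
    rfl
  rw [e1, e2, h3]
  rfl

theorem ent_congr {M N : Matrix ι ι ℂ} (hM : M.IsHermitian) (hN : N.IsHermitian)
    (h : M.charpoly = N.charpoly) : ent M = ent N := by
  rw [ent_of_charpoly hM hN.eigenvalues (h.trans hN.charpoly_eq), ent_eq_eig hN]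

omit [Fintype ι] in
theorem diag_herm (f : ι → ℝ) : (diagonal fun i => ((f i : ℝ) : ℂ)).IsHermitian := by
  rw [Matrix.IsHermitian, Matrix.diagonal_conjTranspose]
  congr 1
  funext i
  simp

theorem ent_diagonal (f : ι → ℝ) :
    ent (diagonal fun i => ((f i : ℝ) : ℂ)) = ∑ i, Real.negMulLog (f i) :=
  ent_of_charpoly (diag_herm f) f (charpoly_diagonal _)

theorem ent_unitary {M : Matrix ι ι ℂ} (hM : M.IsHermitian) (U : Matrix ι ι ℂ)
    (hU : Uᴴ * U = 1) : ent (U * M * Uᴴ) = ent M := by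
  refine ent_congr (isHermitian_mul_mul_conjTranspose U hM) hM ?_
  rw [charpoly_mul_comm, ← mul_assoc, hU, one_mul]

theorem ent_submatrix (e : κ ≃ ι) (M : Matrix ι ι ℂ) : ent (M.submatrix e e) = ent M := by
  by_cases hM : M.IsHermitian
  · have hM' : (M.submatrix e e).IsHermitian := hM.submatrix e
    rw [ent_of_charpoly hM' (fun k => hM.eigenvalues (e k)) ?_, ent_eq_eig hM]
    · exact Equiv.sum_comp e (fun i => Real.negMulLog (hM.eigenvalues i))
    · have h1 : (M.submatrix e e).charpoly = M.charpoly := by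
        have := charpoly_reindex e.symm M
        rwa [reindex_apply, Equiv.symm_symm] at this
      rw [h1, hM.charpoly_eq]
      exact (Equiv.prod_comp e (fun i => (Polynomial.X -
        Polynomial.C ((hM.eigenvalues i : ℝ) : ℂ)))).symm
  · have hM' : ¬ (M.submatrix e e).IsHermitian := by
      intro h
      apply hM
      have := h.submatrix e.symm
      rwa [submatrix_submatrix, Equiv.self_comp_symm, submatrix_id_id] at this
    unfold ent
    rw [dif_neg hM, dif_neg hM']

theorem ent_mul_conj_comm (X : Matrix ι ι ℂ) : ent (X * Xᴴ) = ent (Xᴴ * X) :=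
  ent_congr (isHermitian_mul_conjTranspose_self X) (isHermitian_conjTranspose_mul_self X)
    (charpoly_mul_comm _ _)

/-- spectral decomposition in matrix form -/
theorem exists_diag {M : Matrix ι ι ℂ} (hM : M.IsHermitian) : ∃ U : Matrix ι ι ℂ,
    Uᴴ * U = 1 ∧ U * Uᴴ = 1 ∧ M = U * (diagonal fun i => ((hM.eigenvalues i : ℝ) : ℂ)) * Uᴴ := by
  refine ⟨hM.eigenvectorUnitary, ?_, ?_, ?_⟩
  · rw [← star_eq_conjTranspose]
    exact (Matrix.mem_unitaryGroup_iff' (A := (hM.eigenvectorUnitary : Matrix ι ι ℂ))).1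
      hM.eigenvectorUnitary.2
  · rw [← star_eq_conjTranspose]
    exact (Matrix.mem_unitaryGroup_iff (A := (hM.eigenvectorUnitary : Matrix ι ι ℂ))).1
      hM.eigenvectorUnitary.2
  · have := hM.spectral_theorem
    rw [Unitary.conjStarAlgAut_apply] at this
    exact this

theorem ent_smul {M : Matrix ι ι ℂ} (hM : M.IsHermitian) (c : ℝ) :
    ent ((c : ℂ) • M) = c * ent M + Real.negMulLog c * M.trace.re := by
  obtain ⟨U, hU, _, hMU⟩ := exists_diag hM
  have hc : ((c : ℂ) • M).IsHermitian := by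
    rw [Matrix.IsHermitian, conjTranspose_smul, hM.eq]
    congr 1
    simp
  have h1 : ent ((c : ℂ) • M) = ∑ i, Real.negMulLog (c * hM.eigenvalues i) := by
    refine ent_of_charpoly hc _ ?_
    have e : (c : ℂ) • M =
        U * (diagonal fun i => ((c * hM.eigenvalues i : ℝ) : ℂ)) * Uᴴ := by
      conv_lhs => rw [hMU]
      rw [← smul_mul_assoc, ← mul_smul_comm, ← diagonal_smul]
      congr 3
      funext i
      simp
    rw [e, charpoly_mul_comm, ← mul_assoc, hU, one_mul, charpoly_diagonal]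
  have h2 : M.trace.re = ∑ i, hM.eigenvalues i := by
    rw [hM.trace_eq_sum_eigenvalues]
    simp
  rw [h1, ent_eq_eig hM, h2, Finset.mul_sum, Finset.mul_sum, ← Finset.sum_add_distrib]
  refine Finset.sum_congr rfl fun i _ => ?_
  rw [Real.negMulLog_mul]
  ring

theorem ent_two (M : Matrix (Fin 2) (Fin 2) ℂ) (hM : M.IsHermitian) (a b : ℝ)
    (ht : M.trace = ((a + b : ℝ) : ℂ)) (hd : M.det = ((a * b : ℝ) : ℂ)) :
    ent M = Real.negMulLog a + Real.negMulLog b := by
  rw [ent_of_charpoly hM ![a, b]]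
  · simp
  · rw [charpoly_fin_two, ht, hd, Fin.prod_univ_two]
    simp only [Matrix.cons_val_zero, Matrix.cons_val_one]
    push_cast
    rw [Polynomial.C_add, Polynomial.C_mul]
    ring

theorem eig_sum {M : Matrix ι ι ℂ} (hM : M.IsHermitian) :
    ∑ i, hM.eigenvalues i = M.trace.re := by
  rw [hM.trace_eq_sum_eigenvalues]
  simp

theorem ent_nonneg {M : Matrix ι ι ℂ} (hM : IsState M) : 0 ≤ ent M := by
  rw [ent_eq_eig hM.1.isHermitian]
  have h0 : ∀ i, 0 ≤ hM.1.isHermitian.eigenvalues i := hM.1.eigenvalues_nonneg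
  have h1 : ∑ i, hM.1.isHermitian.eigenvalues i = 1 := by
    rw [eig_sum, hM.2, Complex.one_re]
  refine Finset.sum_nonneg fun i _ => Real.negMulLog_nonneg (h0 i) ?_
  rw [← h1]
  exact Finset.single_le_sum (fun j _ => h0 j) (Finset.mem_univ i)

theorem negMulLog_le_one {x : ℝ} (hx : 0 ≤ x) : Real.negMulLog x ≤ 1 := by
  rcases hx.eq_or_lt with h | h
  · rw [← h, Real.negMulLog_zero]; norm_num
  · have h1 := Real.one_sub_inv_le_log_of_pos h
    have h2 := mul_le_mul_of_nonneg_left h1 hx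
    have h3 : x * (1 - x⁻¹) = x - 1 := by field_simp
    rw [h3] at h2
    rw [Real.negMulLog]
    linarith

theorem ent_le_card {M : Matrix ι ι ℂ} (hM : IsState M) : ent M ≤ Fintype.card ι := by
  rw [ent_eq_eig hM.1.isHermitian]
  have h0 : ∀ i, 0 ≤ hM.1.isHermitian.eigenvalues i := hM.1.eigenvalues_nonneg
  calc ∑ i, Real.negMulLog (hM.1.isHermitian.eigenvalues i) ≤ ∑ _i : ι, (1 : ℝ) :=
        Finset.sum_le_sum fun i _ => negMulLog_le_one (h0 i)
    _ = Fintype.card ι := by simp

theorem det_one_add {M : Matrix ι ι ℂ} (hM : M.IsHermitian) (l : ℝ) :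
    (1 + (l : ℂ) • M).det = ((∏ i, (1 + l * hM.eigenvalues i) : ℝ) : ℂ) := by
  obtain ⟨U, hU, hU', hMU⟩ := exists_diag hM
  have e : 1 + (l : ℂ) • M =
      U * (diagonal fun i => ((1 + l * hM.eigenvalues i : ℝ) : ℂ)) * Uᴴ := by
    have e1 : (diagonal fun i => ((1 + l * hM.eigenvalues i : ℝ) : ℂ)) =
        1 + (l : ℂ) • (diagonal fun i => ((hM.eigenvalues i : ℝ) : ℂ)) := by
      ext i j
      by_cases hij : i = j
      · subst hij; simp
      · simp [hij]
    rw [e1, mul_add, add_mul, mul_one, hU', mul_smul_comm, smul_mul_assoc, ← hMU]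
  rw [e, det_mul_right_comm, hU', one_mul, det_diagonal]
  push_cast
  rfl

end Vale.Agent.P358
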