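import Vale.Agent.P358.Defs

namespace Vale.Agent.P358

lemma mu_disc {u v w : ℝ} (hu : 0 ≤ u) (hv : 0 ≤ v) (hw : 0 ≤ w) :
    0 ≤ (u + v + w) ^ 2 - 4 * (v * w) := by
  nlinarith [sq_nonneg (v - w), mul_nonneg hu hv, mul_nonneg hu hw, sq_nonneg u]

lemma mup_add_mum (u v w : ℝ) : mup u v w + mum u v w = u + v + w := by
  unfold mup mum; ring

lemma mup_mul_mum {u v w : ℝ} (hu : 0 ≤ u) (hv : 0 ≤ v) (hw : 0 ≤ w) :
    mup u v w * mum u v w = v * w := by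
  unfold mup mum
  have h := Real.mul_self_sqrt (mu_disc hu hv hw)
  nlinarith [h]

lemma mup_nonneg {u v w : ℝ} (hu : 0 ≤ u) (hv : 0 ≤ v) (hw : 0 ≤ w) : 0 ≤ mup u v w := by
  unfold mup
  have := Real.sqrt_nonneg ((u + v + w) ^ 2 - 4 * (v * w))
  linarith

lemma mum_nonneg {u v w : ℝ} (hu : 0 ≤ u) (hv : 0 ≤ v) (hw : 0 ≤ w) : 0 ≤ mum u v w := by
  unfold mum
  have h : Real.sqrt ((u + v + w) ^ 2 - 4 * (v * w)) ≤ u + v + w := by
    apply Real.sqrt_le_iff.mpr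
    refine ⟨by linarith, ?_⟩
    nlinarith [mul_nonneg hv hw]
  linarith

end Vale.Agent.P358
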