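import Vale.Agent.P358.LogEnt
import Vale.Agent.P358.Mu

/-!
# P358, module Sc: subadditivity of the scalar function
-/

namespace Vale.Agent.P358

open Finset

namespace Sc

/-- tangent inequality for `(s, t) ↦ log (1 + l / (s t))` -/
theorem tangent {l s t s0 t0 : ℝ} (hl : 0 < l) (hs : 0 < s) (ht : 0 < t) (hs0 : 0 < s0)
    (ht0 : 0 < t0) :
    Real.log (1 + l / (s0 * t0)) - l / (s0 * t0 + l) * ((s - s0) / s0 + (t - t0) / t0)
      ≤ Real.log (1 + l / (s * t)) := by
  have hm : 0 < s * t := by positivity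
  have hm0 : 0 < s0 * t0 := by positivity
  set κ : ℝ := l / (s0 * t0 + l) with hκ
  have hκ0 : 0 < κ := by positivity
  have hκ1 : κ ≤ 1 := by
    rw [hκ, div_le_one (by positivity)]
    linarith
  -- weighted arithmetic-geometric mean inequality
  have h1 : κ * Real.log (s0 * t0 / (s * t)) ≤ Real.log ((1 - κ) * 1 + κ * (s0 * t0 / (s * t))) := by
    have hc := strictConcaveOn_log_Ioi.concaveOn.2 (Set.mem_Ioi.2 (zero_lt_one' ℝ))
      (Set.mem_Ioi.2 (show 0 < s0 * t0 / (s * t) by positivity))
      (show 0 ≤ 1 - κ by linarith) hκ0.le (by ring)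
    simp only [smul_eq_mul, Real.log_one, mul_zero, zero_add] at hc
    exact hc
  have h2 : (1 + l / (s0 * t0)) * ((1 - κ) * 1 + κ * (s0 * t0 / (s * t))) = 1 + l / (s * t) := by
    rw [hκ]
    field_simp
    ring
  have h3 : 0 < (1 - κ) * 1 + κ * (s0 * t0 / (s * t)) := by
    have : 0 < κ * (s0 * t0 / (s * t)) := by positivity
    linarith
  have h4 : Real.log (1 + l / (s * t)) = Real.log (1 + l / (s0 * t0))
      + Real.log ((1 - κ) * 1 + κ * (s0 * t0 / (s * t))) := by
    rw [← h2, Real.log_mul (by positivity) h3.ne']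
  have h5 : Real.log (s0 * t0 / (s * t)) = -(Real.log (s / s0) + Real.log (t / t0)) := by
    rw [Real.log_div hm0.ne' hm.ne', Real.log_mul hs0.ne' ht0.ne', Real.log_mul hs.ne' ht.ne',
      Real.log_div hs.ne' hs0.ne', Real.log_div ht.ne' ht0.ne']
    ring
  have h6 : Real.log (s / s0) ≤ (s - s0) / s0 := by
    have := Real.log_le_sub_one_of_pos (show 0 < s / s0 by positivity)
    have e : (s - s0) / s0 = s / s0 - 1 := by field_simp
    linarith
  have h7 : Real.log (t / t0) ≤ (t - t0) / t0 := by
    have := Real.log_le_sub_one_of_pos (show 0 < t / t0 by positivity)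
    have e : (t - t0) / t0 = t / t0 - 1 := by field_simp
    linarith
  rw [h4]
  have h8 : κ * (Real.log (s / s0) + Real.log (t / t0))
      ≤ κ * ((s - s0) / s0 + (t - t0) / t0) :=
    mul_le_mul_of_nonneg_left (by linarith) hκ0.le
  rw [h5] at h1
  linarith

/-- Jensen inequality for `(s, t) ↦ log (1 + l / (s t))` -/
theorem jensen {κ : Type*} [Fintype κ] (p s t : κ → ℝ) (hp : ∀ k, 0 ≤ p k) (hp1 : ∑ k, p k = 1)
    (hs : ∀ k, 0 < s k) (ht : ∀ k, 0 < t k) {l s0 t0 : ℝ} (hl : 0 < l) (hs0 : 0 < s0)
    (ht0 : 0 < t0) (h1 : ∑ k, p k * s k ≤ s0) (h2 : ∑ k, p k * t k ≤ t0) :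
    Real.log (1 + l / (s0 * t0)) ≤ ∑ k, p k * Real.log (1 + l / (s k * t k)) := by
  set c : ℝ := l / (s0 * t0 + l) with hc
  have hc0 : 0 < c := by positivity
  have h3 : ∑ k, p k * (Real.log (1 + l / (s0 * t0)) - c * ((s k - s0) / s0 + (t k - t0) / t0))
      ≤ ∑ k, p k * Real.log (1 + l / (s k * t k)) :=
    Finset.sum_le_sum (fun k _ => mul_le_mul_of_nonneg_left
      (tangent hl (hs k) (ht k) hs0 ht0) (hp k))
  have h4 : ∑ k, p k * (Real.log (1 + l / (s0 * t0)) - c * ((s k - s0) / s0 + (t k - t0) / t0))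
      = (∑ k, p k) * Real.log (1 + l / (s0 * t0))
        - c * (((∑ k, p k * s k) - (∑ k, p k) * s0) / s0
          + ((∑ k, p k * t k) - (∑ k, p k) * t0) / t0) := by
    rw [Finset.sum_mul, Finset.sum_mul, Finset.sum_mul, ← Finset.sum_sub_distrib,
      ← Finset.sum_sub_distrib, Finset.sum_div, Finset.sum_div, ← Finset.sum_add_distrib,
      Finset.mul_sum, ← Finset.sum_sub_distrib]
    refine Finset.sum_congr rfl (fun k _ => ?_)
    ring
  rw [hp1, one_mul, one_mul, one_mul] at h4
  have h5 : ((∑ k, p k * s k) - s0) / s0 ≤ 0 :=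
    div_nonpos_of_nonpos_of_nonneg (by linarith) hs0.le
  have h6 : ((∑ k, p k * t k) - t0) / t0 ≤ 0 :=
    div_nonpos_of_nonpos_of_nonneg (by linarith) ht0.le
  have h7 : c * (((∑ k, p k * s k) - s0) / s0 + ((∑ k, p k * t k) - t0) / t0) ≤ 0 :=
    mul_nonpos_of_nonneg_of_nonpos hc0.le (by linarith)
  linarith

theorem Fsc_zero {v w : ℝ} : Fsc 0 v w = 0 := by
  unfold Fsc mup mum
  have e : (0 + v + w) ^ 2 - 4 * (v * w) = (v - w) ^ 2 := by ring
  rw [e, Real.sqrt_sq_eq_abs]
  rcases le_total v w with h | h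
  · rw [abs_of_nonpos (by linarith)]
    have e1 : (0 + v + w + -(v - w)) / 2 = w := by ring
    have e2 : (0 + v + w - -(v - w)) / 2 = v := by ring
    rw [e1, e2, Real.negMulLog_zero]
    ring
  · rw [abs_of_nonneg (by linarith)]
    have e1 : (0 + v + w + (v - w)) / 2 = v := by ring
    have e2 : (0 + v + w - (v - w)) / 2 = w := by ring
    rw [e1, e2, Real.negMulLog_zero]
    ring

/-- the four numbers attached to a triple -/
noncomputable def X (u v w : ℝ) : Fin 4 → ℝ := ![mup u v w, mum u v w, v, w]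

/-- their signs -/
def sg : Fin 4 → ℝ := ![1, 1, -1, -1]

theorem X_sum (u v w : ℝ) : ∑ j, sg j * X u v w j = u := by
  have h := mup_add_mum u v w
  simp [Fin.sum_univ_four, X, sg]
  linarith

theorem X_nonneg {u v w : ℝ} (hu : 0 ≤ u) (hv : 0 ≤ v) (hw : 0 ≤ w) (j : Fin 4) :
    0 ≤ X u v w j := by
  fin_cases j
  · exact mup_nonneg hu hv hw
  · exact mum_nonneg hu hv hw
  · exact hv
  · exact hw

theorem scale_eta {c x : ℝ} (hc : 0 < c) (hx : 0 ≤ x) :
    c * Real.negMulLog (x / c) = Real.negMulLog x + x * Real.log c := by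
  rcases hx.eq_or_lt with h | h
  · rw [← h]
    simp
  · unfold Real.negMulLog
    rw [Real.log_div h.ne' hc.ne']
    field_simp
    ring

theorem X_eta {u v w : ℝ} (hu : 0 < u) (hv : 0 ≤ v) (hw : 0 ≤ w) :
    u * ∑ j, sg j * Real.negMulLog (X u v w j / u) = Fsc u v w := by
  have h1 : u * ∑ j, sg j * Real.negMulLog (X u v w j / u)
      = ∑ j, sg j * Real.negMulLog (X u v w j) + (∑ j, sg j * X u v w j) * Real.log u := by
    rw [Finset.mul_sum, Finset.sum_mul, ← Finset.sum_add_distrib]
    refine Finset.sum_congr rfl (fun j _ => ?_)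
    have := scale_eta hu (X_nonneg hu.le hv hw j)
    calc u * (sg j * Real.negMulLog (X u v w j / u))
        = sg j * (u * Real.negMulLog (X u v w j / u)) := by ring
      _ = _ := by rw [this]; ring
  rw [h1, X_sum]
  have h2 : ∑ j, sg j * Real.negMulLog (X u v w j)
      = Real.negMulLog (mup u v w) + Real.negMulLog (mum u v w) - Real.negMulLog v
        - Real.negMulLog w := by
    simp [Fin.sum_univ_four, X, sg]
    ring
  rw [h2]
  unfold Fsc
  have h3 : Real.negMulLog u = -(u * Real.log u) := by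
    unfold Real.negMulLog
    ring
  rw [h3]
  ring

theorem X_log {u v w l : ℝ} (hu : 0 < u) (hv : 0 ≤ v) (hw : 0 ≤ w) (hl : 0 < l) :
    ∑ j, sg j * Real.log (1 + l * (X u v w j / u))
      = Real.log (1 + l / ((1 + l * (v / u)) * (1 + l * (w / u)))) := by
  have hs : 0 < 1 + l * (v / u) := by positivity
  have ht : 0 < 1 + l * (w / u) := by positivity
  have hp : 0 < 1 + l * (mup u v w / u) := by
    have := mup_nonneg hu.le hv hw
    positivity
  have hm : 0 < 1 + l * (mum u v w / u) := by
    have := mum_nonneg hu.le hv hw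
    positivity
  have e : (1 + l * (mup u v w / u)) * (1 + l * (mum u v w / u))
      = (1 + l * (v / u)) * (1 + l * (w / u)) + l := by
    have h1 := mup_add_mum u v w
    have h2 := mup_mul_mum hu.le hv hw
    have e1 : (1 + l * (mup u v w / u)) * (1 + l * (mum u v w / u))
        = 1 + l * ((mup u v w + mum u v w) / u) + l ^ 2 * ((mup u v w * mum u v w) / u ^ 2) := by
      field_simp
      ring
    rw [e1, h1, h2]
    field_simp
    ring
  have h1 : ∑ j, sg j * Real.log (1 + l * (X u v w j / u))
      = Real.log (1 + l * (mup u v w / u)) + Real.log (1 + l * (mum u v w / u))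
        - Real.log (1 + l * (v / u)) - Real.log (1 + l * (w / u)) := by
    simp [Fin.sum_univ_four, X, sg]
    ring
  rw [h1, ← Real.log_mul hp.ne' hm.ne', e]
  have h2 : 1 + l / ((1 + l * (v / u)) * (1 + l * (w / u)))
      = ((1 + l * (v / u)) * (1 + l * (w / u)) + l)
        / ((1 + l * (v / u)) * (1 + l * (w / u))) := by
    field_simp
  rw [h2, Real.log_div (by positivity) (by positivity), Real.log_mul hs.ne' ht.ne']
  ring

end Sc

open Sc in
theorem Fsc_subadd {κ : Type*} [Fintype κ] (u v w : κ → ℝ) (hu : ∀ k, 0 ≤ u k)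
    (hv : ∀ k, 0 ≤ v k) (hw : ∀ k, 0 ≤ w k) :
    Fsc (∑ k, u k) (∑ k, v k) (∑ k, w k) ≤ ∑ k, Fsc (u k) (v k) (w k) := by
  classical
  obtain ⟨U, hU⟩ : ∃ U : ℝ, U = ∑ k, u k := ⟨_, rfl⟩
  obtain ⟨V, hV⟩ : ∃ V : ℝ, V = ∑ k, v k := ⟨_, rfl⟩
  obtain ⟨W, hW⟩ : ∃ W : ℝ, W = ∑ k, w k := ⟨_, rfl⟩
  rw [← hU, ← hV, ← hW]
  have hU0 : 0 ≤ U := by rw [hU]; exact Finset.sum_nonneg (fun k _ => hu k)
  have hV0 : 0 ≤ V := by rw [hV]; exact Finset.sum_nonneg (fun k _ => hv k)
  have hW0 : 0 ≤ W := by rw [hW]; exact Finset.sum_nonneg (fun k _ => hw k)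
  rcases hU0.eq_or_lt with h0 | hpos
  · have hz : ∀ k, u k = 0 := by
      intro k
      have := (Finset.sum_eq_zero_iff_of_nonneg (fun k _ => hu k)).1 (hU.symm.trans h0.symm)
      exact this k (Finset.mem_univ k)
    rw [← h0, Fsc_zero]
    refine Finset.sum_nonneg (fun k _ => ?_)
    rw [hz k, Fsc_zero]
  · -- coefficients and points
    set cf : Option κ × Fin 4 → ℝ := fun a =>
      match a.1 with
      | none => -sg a.2
      | some k => (u k / U) * sg a.2 with hcf
    set xs : Option κ × Fin 4 → ℝ := fun a =>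
      match a.1 with
      | none => X U V W a.2 / U
      | some k => X (u k) (v k) (w k) a.2 / u k with hxs
    have expand : ∀ f : ℝ → ℝ, ∑ a : Option κ × Fin 4, cf a * f (xs a)
        = (∑ k, (u k / U) * ∑ j, sg j * f (X (u k) (v k) (w k) j / u k))
          - ∑ j, sg j * f (X U V W j / U) := by
      intro f
      rw [Fintype.sum_prod_type, Fintype.sum_option]
      have e1 : ∑ j, cf (none, j) * f (xs (none, j)) = -∑ j, sg j * f (X U V W j / U) := by
        rw [← Finset.sum_neg_distrib]
        refine Finset.sum_congr rfl (fun j _ => ?_)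
        show -sg j * f (X U V W j / U) = _
        ring
      have e2 : ∀ k, ∑ j, cf (some k, j) * f (xs (some k, j))
          = (u k / U) * ∑ j, sg j * f (X (u k) (v k) (w k) j / u k) := by
        intro k
        rw [Finset.mul_sum]
        refine Finset.sum_congr rfl (fun j _ => ?_)
        show (u k / U) * sg j * f (X (u k) (v k) (w k) j / u k) = _
        ring
      rw [e1, Finset.sum_congr rfl (fun k _ => e2 k)]
      ring
    have hx : ∀ a ∈ (Finset.univ : Finset (Option κ × Fin 4)), 0 ≤ xs a := by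
      rintro ⟨a, j⟩ _
      cases a with
      | none => exact div_nonneg (X_nonneg hpos.le hV0 hW0 j) hpos.le
      | some k => exact div_nonneg (X_nonneg (hu k) (hv k) (hw k) j) (hu k)
    have hp1 : ∑ k, u k / U = 1 := by
      rw [← Finset.sum_div, ← hU, div_self hpos.ne']
    have h0 : ∑ a ∈ (Finset.univ : Finset (Option κ × Fin 4)), cf a * xs a = 0 := by
      rw [expand (fun x => x)]
      have e1 : ∑ j, sg j * (X U V W j / U) = 1 := by
        have : ∑ j, sg j * (X U V W j / U) = (∑ j, sg j * X U V W j) / U := by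
          rw [Finset.sum_div]
          exact Finset.sum_congr rfl (fun j _ => by ring)
        rw [this, X_sum, div_self hpos.ne']
      have e2 : ∀ k, (u k / U) * ∑ j, sg j * (X (u k) (v k) (w k) j / u k) = u k / U := by
        intro k
        rcases (hu k).eq_or_lt with h | h
        · rw [← h]; simp
        · have : ∑ j, sg j * (X (u k) (v k) (w k) j / u k)
              = (∑ j, sg j * X (u k) (v k) (w k) j) / u k := by
            rw [Finset.sum_div]
            exact Finset.sum_congr rfl (fun j _ => by ring)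
          rw [this, X_sum, div_self h.ne', mul_one]
      rw [e1, Finset.sum_congr rfl (fun k _ => e2 k), hp1, sub_self]
    have hlog : ∀ l > 0, 0 ≤ ∑ a ∈ (Finset.univ : Finset (Option κ × Fin 4)),
        cf a * Real.log (1 + l * xs a) := by
      intro l hl
      rw [expand (fun x => Real.log (1 + l * x)), X_log hpos hV0 hW0 hl, sub_nonneg]
      have e2 : ∀ k, (u k / U) * ∑ j, sg j * Real.log (1 + l * (X (u k) (v k) (w k) j / u k))
          = (u k / U) * Real.log (1 + l / ((1 + l * (v k / u k)) * (1 + l * (w k / u k)))) := by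
        intro k
        rcases (hu k).eq_or_lt with h | h
        · rw [← h]; simp
        · rw [X_log h (hv k) (hw k) hl]
      rw [Finset.sum_congr rfl (fun k _ => e2 k)]
      have hbar : ∀ (y : κ → ℝ) (Y : ℝ), (∀ k, 0 ≤ y k) → Y = ∑ k, y k →
          ∑ k, (u k / U) * (1 + l * (y k / u k)) ≤ 1 + l * (Y / U) := by
        intro y Y hy hY
        have e3 : 1 + l * (Y / U) = ∑ k, (u k / U + l * (y k / U)) := by
          rw [Finset.sum_add_distrib, hp1, hY, ← Finset.mul_sum, ← Finset.sum_div]
        rw [e3]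
        refine Finset.sum_le_sum (fun k _ => ?_)
        rcases (hu k).eq_or_lt with h | h
        · rw [← h]
          have : 0 ≤ l * (y k / U) := by have := hy k; positivity
          simpa using this
        · have : (u k / U) * (1 + l * (y k / u k)) = u k / U + l * (y k / U) := by
            field_simp
          rw [this]
      refine jensen (fun k => u k / U) (fun k => 1 + l * (v k / u k))
        (fun k => 1 + l * (w k / u k)) (fun k => div_nonneg (hu k) hpos.le) hp1 ?_ ?_ hl ?_ ?_
        (hbar v V hv hV) (hbar w W hw hW)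
      · intro k
        have := div_nonneg (hv k) (hu k)
        positivity
      · intro k
        have := div_nonneg (hw k) (hu k)
        positivity
      · positivity
      · positivity
    have key := ent_of_logs (Finset.univ : Finset (Option κ × Fin 4)) cf xs hx h0 hlog
    rw [expand Real.negMulLog, sub_nonneg] at key
    have e1 : ∑ j, sg j * Real.negMulLog (X U V W j / U) = Fsc U V W / U := by
      rw [eq_div_iff hpos.ne', mul_comm]
      exact X_eta hpos hV0 hW0
    have e2 : ∀ k, (u k / U) * ∑ j, sg j * Real.negMulLog (X (u k) (v k) (w k) j / u k)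
        = Fsc (u k) (v k) (w k) / U := by
      intro k
      rcases (hu k).eq_or_lt with h | h
      · rw [← h, Fsc_zero]; simp
      · rw [← X_eta h (hv k) (hw k)]
        ring
    rw [e1, Finset.sum_congr rfl (fun k _ => e2 k), ← Finset.sum_div] at key
    exact (div_le_div_iff_of_pos_right hpos).1 key

end Vale.Agent.P358
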