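import Vale.Agent.P358.Defs

/-!
# P358, module Svd: the singular value decomposition of a square matrix
-/

namespace Vale.Agent.P358

open Matrix
open scoped ComplexOrder

variable {ι : Type*} [Fintype ι] [DecidableEq ι]

theorem exists_svd (A : Matrix ι ι ℂ) : ∃ (P Q : Matrix ι ι ℂ) (a : ι → ℝ),
    Pᴴ * P = 1 ∧ P * Pᴴ = 1 ∧ Qᴴ * Q = 1 ∧ Q * Qᴴ = 1 ∧
      A = P * (diagonal fun k => (a k : ℂ)) * Q ∧ ∀ k, 0 ≤ a k := by
  have hH : (Aᴴ * A).IsHermitian := isHermitian_conjTranspose_mul_self A
  have hP : (Aᴴ * A).PosSemidef := posSemidef_conjTranspose_mul_self A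
  set V : Matrix ι ι ℂ := (hH.eigenvectorUnitary : Matrix ι ι ℂ) with hV
  have hV1 : Vᴴ * V = 1 := Unitary.coe_star_mul_self hH.eigenvectorUnitary
  have hV2 : V * Vᴴ = 1 := Unitary.coe_mul_star_self hH.eigenvectorUnitary
  set lam : ι → ℝ := hH.eigenvalues with hlam
  have hlam0 : ∀ i, 0 ≤ lam i := fun i => hP.eigenvalues_nonneg i
  have hsp : Aᴴ * A = V * (diagonal fun i => ((lam i : ℝ) : ℂ)) * Vᴴ := by
    have h3 := hH.spectral_theorem
    rw [Unitary.conjStarAlgAut_apply] at h3
    exact h3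
  set W : Matrix ι ι ℂ := A * V with hW
  have hWW : Wᴴ * W = diagonal fun i => ((lam i : ℝ) : ℂ) := by
    rw [hW, conjTranspose_mul]
    calc Vᴴ * Aᴴ * (A * V) = Vᴴ * (Aᴴ * A) * V := by simp only [mul_assoc]
      _ = Vᴴ * (V * (diagonal fun i => ((lam i : ℝ) : ℂ)) * Vᴴ) * V := by rw [hsp]
      _ = (Vᴴ * V) * (diagonal fun i => ((lam i : ℝ) : ℂ)) * (Vᴴ * V) := by
          simp only [mul_assoc]
      _ = diagonal fun i => ((lam i : ℝ) : ℂ) := by rw [hV1, one_mul, mul_one]
  have hWe : ∀ i j, ∑ k, star (W k i) * W k j = if i = j then ((lam i : ℝ) : ℂ) else 0 := by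
    intro i j
    have h := congrFun (congrFun hWW i) j
    rw [Matrix.mul_apply, diagonal_apply] at h
    rw [← h]
    rfl
  set a : ι → ℝ := fun i => Real.sqrt (lam i) with ha
  have ha2 : ∀ i, (a i : ℂ) * (a i : ℂ) = ((lam i : ℝ) : ℂ) := by
    intro i
    rw [← Complex.ofReal_mul, Real.mul_self_sqrt (hlam0 i)]
  set v : ι → EuclideanSpace ℂ ι := fun i => WithLp.toLp 2 fun k => W k i / (a i : ℂ) with hv
  set s : Set ι := {i | a i ≠ 0} with hs
  have hon : Orthonormal ℂ (s.domRestrict v) := by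
    rw [orthonormal_iff_ite]
    rintro ⟨i, hi⟩ ⟨j, hj⟩
    have hi' : (a i : ℂ) ≠ 0 := by exact_mod_cast hi
    have hj' : (a j : ℂ) ≠ 0 := by exact_mod_cast hj
    have h1 : inner ℂ (v i) (v j) = (∑ k, star (W k i) * W k j) / ((a i : ℂ) * (a j : ℂ)) := by
      rw [PiLp.inner_apply, Finset.sum_div]
      refine Finset.sum_congr rfl fun k _ => ?_
      rw [RCLike.inner_apply]
      simp only [hv, starRingEnd_apply, star_div₀]
      have h2 : star (a i : ℂ) = (a i : ℂ) := Complex.conj_ofReal _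
      rw [h2]
      field_simp
    show inner ℂ (v i) (v j) = _
    rw [h1, hWe]
    by_cases hij : i = j
    · subst hij
      rw [if_pos rfl, if_pos rfl, ← ha2 i]
      exact div_self (mul_ne_zero hi' hi')
    · rw [if_neg hij, if_neg (fun h => hij (congrArg Subtype.val h)), zero_div]
  obtain ⟨b, hb⟩ := hon.exists_orthonormalBasis_extension_of_card_eq
    (finrank_euclideanSpace (𝕜 := ℂ) (ι := ι))
  set P : Matrix ι ι ℂ := fun k i => b i k with hPdef
  have hPP : Pᴴ * P = 1 := by
    ext i j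
    rw [Matrix.mul_apply, Matrix.one_apply]
    have h1 := (orthonormal_iff_ite.1 b.orthonormal) i j
    rw [← h1, PiLp.inner_apply]
    refine Finset.sum_congr rfl fun k _ => ?_
    rw [RCLike.inner_apply, conjTranspose_apply, starRingEnd_apply, mul_comm]
  have hPP2 : P * Pᴴ = 1 := mul_eq_one_comm.1 hPP
  refine ⟨P, Vᴴ, a, hPP, hPP2, ?_, ?_, ?_, fun k => Real.sqrt_nonneg _⟩
  · rw [conjTranspose_conjTranspose]
    exact hV2
  · rw [conjTranspose_conjTranspose]
    exact hV1
  · have hcol : W = P * (diagonal fun k => (a k : ℂ)) := by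
      ext k i
      rw [mul_diagonal]
      by_cases hi : a i = 0
      · have h0 : lam i = 0 := by
          have := Real.mul_self_sqrt (hlam0 i)
          rw [← this]
          have h5 : Real.sqrt (lam i) = 0 := hi
          rw [h5, mul_zero]
        have h1 := hWe i i
        rw [if_pos rfl, h0] at h1
        have h2 : ∑ k, ‖W k i‖ ^ 2 = 0 := by
          have h3 : ∀ k, star (W k i) * W k i = ((‖W k i‖ ^ 2 : ℝ) : ℂ) := by
            intro k
            rw [mul_comm]
            have := Complex.mul_conj (W k i)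
            rw [Complex.normSq_eq_norm_sq] at this
            exact this
          rw [Finset.sum_congr rfl fun k _ => h3 k, ← Complex.ofReal_sum] at h1
          exact_mod_cast h1
        have h4 := (Finset.sum_eq_zero_iff_of_nonneg (fun k _ => sq_nonneg ‖W k i‖)).1 h2 k
          (Finset.mem_univ k)
        have h6 : W k i = 0 := norm_eq_zero.1 (pow_eq_zero_iff (two_ne_zero)|>.1 h4)
        rw [h6, hi, Complex.ofReal_zero, mul_zero]
      · have h1 : b i = v i := hb i hi
        have hi' : (a i : ℂ) ≠ 0 := by exact_mod_cast hi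
        have h2 : P k i = W k i / (a i : ℂ) := by
          show b i k = _
          rw [h1]
        rw [h2, div_mul_cancel₀ _ hi']
    rw [← hcol, hW, mul_assoc, hV2, mul_one]

end Vale.Agent.P358
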