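import Vale.Agent.P358.Pin
import Vale.Agent.P358.Cmp
import Vale.Agent.P358.Sc
import Vale.Agent.P358.Svd
import Vale.Agent.P358.Ent
import Vale.Agent.P358.Mu

/-!
P358 module Blk: the entropy inequality (E3) for `T = fromBlocks A B C 0`.
-/

namespace Vale.Agent.P358

open Matrix
open scoped ComplexOrder

namespace Blk

variable {ι : Type*} [Fintype ι] [DecidableEq ι]

lemma posDef_one_add {Y : Matrix ι ι ℂ} (hY : Y.PosSemidef) {l : ℝ} (hl : 0 < l) :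
    (1 + (l : ℂ) • Y).PosDef := by
  have h : ((l : ℂ) • Y).PosSemidef := by
    have h0 : (0 : ℂ) ≤ (l : ℂ) := by exact_mod_cast hl.le
    exact hY.smul h0
  exact Matrix.PosDef.one.add_posSemidef h

/-- The push-through identity. -/
lemma push (C : Matrix ι ι ℂ) {l : ℝ} (hl : 0 < l) :
    1 - (l : ℂ) • (Cᴴ * (1 + (l : ℂ) • (C * Cᴴ))⁻¹ * C) = (1 + (l : ℂ) • (Cᴴ * C))⁻¹ := by
  have hW := posDef_one_add (Matrix.posSemidef_self_mul_conjTranspose C) hl
  have hV := posDef_one_add (Matrix.posSemidef_conjTranspose_mul_self C) hl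
  have hWu : IsUnit (1 + (l : ℂ) • (C * Cᴴ)).det := (Matrix.isUnit_iff_isUnit_det _).mp hW.isUnit
  have hVu : IsUnit (1 + (l : ℂ) • (Cᴴ * C)).det := (Matrix.isUnit_iff_isUnit_det _).mp hV.isUnit
  symm
  apply Matrix.inv_eq_right_inv
  have e1 : (1 + (l : ℂ) • (Cᴴ * C)) * Cᴴ = Cᴴ * (1 + (l : ℂ) • (C * Cᴴ)) := by
    rw [Matrix.add_mul, Matrix.mul_add, Matrix.one_mul, Matrix.mul_one, Matrix.smul_mul,
      Matrix.mul_smul, Matrix.mul_assoc]
  have e2 : (1 + (l : ℂ) • (Cᴴ * C)) * (Cᴴ * (1 + (l : ℂ) • (C * Cᴴ))⁻¹ * C) = Cᴴ * C := by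
    rw [← Matrix.mul_assoc, ← Matrix.mul_assoc, e1, Matrix.mul_assoc Cᴴ,
      Matrix.mul_nonsing_inv _ hWu, Matrix.mul_one]
  rw [Matrix.mul_sub, Matrix.mul_one, Matrix.mul_smul, e2]
  abel

lemma det_conj {P X : Matrix ι ι ℂ} (h : Pᴴ * P = 1) : (Pᴴ * X * P).det = X.det := by
  rw [Matrix.det_mul, Matrix.det_mul]
  have : (Pᴴ).det * P.det = 1 := by rw [← Matrix.det_mul, h, Matrix.det_one]
  linear_combination X.det * this

/-- The block determinant formula. -/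
lemma det_T (A B C : Matrix ι ι ℂ) {l : ℝ} (hl : 0 < l) :
    (1 + (l : ℂ) • (fromBlocks A B C 0 * (fromBlocks A B C 0)ᴴ)).det =
      (1 + (l : ℂ) • (Cᴴ * C)).det *
        (1 + (l : ℂ) • (B * Bᴴ) + (l : ℂ) • (A * (1 + (l : ℂ) • (Cᴴ * C))⁻¹ * Aᴴ)).det := by
  have hW := posDef_one_add (Matrix.posSemidef_self_mul_conjTranspose C) hl
  have hWu : IsUnit (1 + (l : ℂ) • (C * Cᴴ)) := hW.isUnit
  letI : Invertible (1 + (l : ℂ) • (C * Cᴴ)) := hWu.invertible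
  have e0 : 1 + (l : ℂ) • (fromBlocks A B C 0 * (fromBlocks A B C 0)ᴴ) =
      fromBlocks (1 + (l : ℂ) • (A * Aᴴ + B * Bᴴ)) ((l : ℂ) • (A * Cᴴ)) ((l : ℂ) • (C * Aᴴ))
        (1 + (l : ℂ) • (C * Cᴴ)) := by
    rw [Matrix.fromBlocks_conjTranspose, Matrix.fromBlocks_multiply, Matrix.fromBlocks_smul,
      ← Matrix.fromBlocks_one, Matrix.fromBlocks_add]
    simp
  rw [e0, Matrix.det_fromBlocks₂₂, Matrix.invOf_eq_nonsing_inv]
  have e1 : (1 + (l : ℂ) • (C * Cᴴ)).det = (1 + (l : ℂ) • (Cᴴ * C)).det := by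
    rw [← Matrix.smul_mul, Matrix.det_one_add_mul_comm, Matrix.mul_smul]
  rw [e1]
  congr 2
  rw [← push C hl]
  simp only [Matrix.mul_sub, Matrix.sub_mul, Matrix.smul_mul, Matrix.mul_smul, Matrix.mul_one,
    smul_sub, smul_add, Matrix.mul_assoc]
  abel

/-- The same determinant in the singular basis of `A`. -/
lemma det_T' (A B C P Q : Matrix ι ι ℂ) (a : ι → ℝ) (hP : Pᴴ * P = 1) (hP' : P * Pᴴ = 1)
    (hQ : Qᴴ * Q = 1) (hQ' : Q * Qᴴ = 1) (hA : A = P * (diagonal fun k => (a k : ℂ)) * Q)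
    {l : ℝ} (hl : 0 < l) :
    (1 + (l : ℂ) • (fromBlocks A B C 0 * (fromBlocks A B C 0)ᴴ)).det =
      (fromBlocks (Pᴴ * (1 + (l : ℂ) • (B * Bᴴ)) * P)
        (diagonal fun k => ((Real.sqrt l * a k : ℝ) : ℂ))
        (-(diagonal fun k => ((Real.sqrt l * a k : ℝ) : ℂ)))
        (Q * (1 + (l : ℂ) • (Cᴴ * C)) * Qᴴ)).det := by
  have hV := posDef_one_add (Matrix.posSemidef_conjTranspose_mul_self C) hl
  have hVu : IsUnit (1 + (l : ℂ) • (Cᴴ * C)).det := (Matrix.isUnit_iff_isUnit_det _).mp hV.isUnit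
  have hinv : (Q * (1 + (l : ℂ) • (Cᴴ * C)) * Qᴴ) * (Q * (1 + (l : ℂ) • (Cᴴ * C))⁻¹ * Qᴴ) = 1 := by
    calc (Q * (1 + (l : ℂ) • (Cᴴ * C)) * Qᴴ) * (Q * (1 + (l : ℂ) • (Cᴴ * C))⁻¹ * Qᴴ)
        = Q * ((1 + (l : ℂ) • (Cᴴ * C)) * (Qᴴ * Q) * (1 + (l : ℂ) • (Cᴴ * C))⁻¹) * Qᴴ := by
          simp only [Matrix.mul_assoc]
      _ = 1 := by
          rw [hQ, Matrix.mul_one, Matrix.mul_nonsing_inv _ hVu, Matrix.mul_one, hQ']
  letI : Invertible (Q * (1 + (l : ℂ) • (Cᴴ * C)) * Qᴴ) :=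
    invertibleOfRightInverse _ _ hinv
  rw [Matrix.det_fromBlocks₂₂, det_T A B C hl]
  have hi : ⅟(Q * (1 + (l : ℂ) • (Cᴴ * C)) * Qᴴ) = Q * (1 + (l : ℂ) • (Cᴴ * C))⁻¹ * Qᴴ :=
    invOf_eq_right_inv hinv
  rw [hi]
  have hQ2 : (Qᴴ)ᴴ * Qᴴ = 1 := by rw [Matrix.conjTranspose_conjTranspose]; exact hQ'
  have e1 : (Q * (1 + (l : ℂ) • (Cᴴ * C)) * Qᴴ).det = (1 + (l : ℂ) • (Cᴴ * C)).det := by
    have := det_conj (P := Qᴴ) (X := 1 + (l : ℂ) • (Cᴴ * C)) hQ2
    rwa [Matrix.conjTranspose_conjTranspose] at this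
  rw [e1]
  congr 1
  rw [← det_conj hP]
  congr 1
  have hD : (diagonal fun k => ((Real.sqrt l * a k : ℝ) : ℂ)) =
      (Real.sqrt l : ℂ) • (diagonal fun k => (a k : ℂ)) := by
    rw [← Matrix.diagonal_smul]
    congr 1
    ext k
    simp
  have hAH : Aᴴ = Qᴴ * (diagonal fun k => (a k : ℂ)) * Pᴴ := by
    rw [hA, Matrix.conjTranspose_mul, Matrix.conjTranspose_mul, Matrix.diagonal_conjTranspose]
    have : (star fun k => (a k : ℂ)) = fun k => (a k : ℂ) := by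
      ext k; simp
    rw [this, Matrix.mul_assoc]
  have hl2 : (Real.sqrt l : ℂ) * (Real.sqrt l : ℂ) = (l : ℂ) := by
    rw [← Complex.ofReal_mul, Real.mul_self_sqrt hl.le]
  rw [hD, hAH]
  nth_rewrite 1 [hA]
  have e3 : (Pᴴ * ((1 + (l : ℂ) • (B * Bᴴ)) + (l : ℂ) • (P * (diagonal fun k => (a k : ℂ)) * Q *
      (1 + (l : ℂ) • (Cᴴ * C))⁻¹ * (Qᴴ * (diagonal fun k => (a k : ℂ)) * Pᴴ))) * P) =
      Pᴴ * (1 + (l : ℂ) • (B * Bᴴ)) * P + (l : ℂ) • ((Pᴴ * P) *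
        ((diagonal fun k => (a k : ℂ)) * (Q * (1 + (l : ℂ) • (Cᴴ * C))⁻¹ * Qᴴ) *
        (diagonal fun k => (a k : ℂ))) * (Pᴴ * P)) := by
    rw [Matrix.mul_add, Matrix.add_mul]
    simp only [Matrix.mul_smul, Matrix.smul_mul, Matrix.mul_assoc]
  rw [e3, hP, Matrix.one_mul, Matrix.mul_one]
  simp only [Matrix.mul_neg, sub_neg_eq_add, Matrix.smul_mul, Matrix.mul_smul, smul_smul, hl2]

lemma conj_diag_re (P Y : Matrix ι ι ℂ) (hP : Pᴴ * P = 1) (l : ℝ) (k : ι) :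
    ((Pᴴ * (1 + (l : ℂ) • Y) * P) k k).re = 1 + l * ((Pᴴ * Y * P) k k).re := by
  have : Pᴴ * (1 + (l : ℂ) • Y) * P = 1 + (l : ℂ) • (Pᴴ * Y * P) := by
    rw [Matrix.mul_add, Matrix.add_mul, Matrix.mul_one, hP, Matrix.mul_smul, Matrix.smul_mul]
  rw [this]
  simp

lemma posDef_conj {P X : Matrix ι ι ℂ} (hP : Pᴴ * P = 1) (hX : X.PosDef) :
    (Pᴴ * X * P).PosDef := by
  have hPu : IsUnit P := by
    rw [Matrix.isUnit_iff_isUnit_det]
    apply isUnit_iff_exists_inv.mpr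
    refine ⟨(Pᴴ).det, ?_⟩
    rw [mul_comm, ← Matrix.det_mul, hP, Matrix.det_one]
  exact hX.conjTranspose_mul_mul_same (Matrix.mulVec_injective_iff_isUnit.mpr hPu)

lemma diag_nonneg {P Y : Matrix ι ι ℂ} (hY : Y.PosSemidef) (k : ι) :
    0 ≤ ((Pᴴ * Y * P) k k).re := by
  have h := (hY.conjTranspose_mul_mul_same P).diag_nonneg (i := k)
  exact (Complex.nonneg_iff.mp h).1

lemma sum_diag {P Y : Matrix ι ι ℂ} (hP : P * Pᴴ = 1) :
    ∑ k, ((Pᴴ * Y * P) k k).re = Y.trace.re := by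
  have : (Pᴴ * Y * P).trace = Y.trace := by
    rw [Matrix.trace_mul_comm, ← Matrix.mul_assoc, hP, Matrix.one_mul]
  rw [← this, Matrix.trace, Complex.re_sum]
  rfl

lemma trace_blocks (A B C D : Matrix ι ι ℂ) :
    (fromBlocks A B C D).trace = A.trace + D.trace := by
  simp [Matrix.trace, Fintype.sum_sum_type]

lemma sum_eig {M : Matrix ι ι ℂ} (hM : M.IsHermitian) :
    ∑ i, hM.eigenvalues i = M.trace.re := by
  rw [hM.trace_eq_sum_eigenvalues]
  simp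

end Blk

open Blk in
theorem E3 {ι : Type*} [Fintype ι] [DecidableEq ι] (A B C : Matrix ι ι ℂ) :
    ent (A * Aᴴ) + ent (B * Bᴴ) + ent (C * Cᴴ)
      + Fsc (A * Aᴴ).trace.re (B * Bᴴ).trace.re (C * Cᴴ).trace.re ≤
    ent (fromBlocks A B C 0 * (fromBlocks A B C 0)ᴴ) := by
  obtain ⟨P, Q, a, hP, hP', hQ, hQ', hA, ha⟩ := exists_svd A
  have hY := Matrix.posSemidef_self_mul_conjTranspose B
  have hZ := Matrix.posSemidef_conjTranspose_mul_self C
  have hT := Matrix.posSemidef_self_mul_conjTranspose (fromBlocks A B C 0)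
  have hQ2 : (Qᴴ)ᴴ * Qᴴ = 1 := by rw [Matrix.conjTranspose_conjTranspose]; exact hQ'
  have hQ3 : Qᴴ * (Qᴴ)ᴴ = 1 := by rw [Matrix.conjTranspose_conjTranspose]; exact hQ
  obtain ⟨y, hy⟩ : ∃ y : ι → ℝ, ∀ k, y k = ((Pᴴ * (B * Bᴴ) * P) k k).re := ⟨_, fun k => rfl⟩
  obtain ⟨z, hz⟩ : ∃ z : ι → ℝ, ∀ k, z k = (((Qᴴ)ᴴ * (Cᴴ * C) * Qᴴ) k k).re :=
    ⟨_, fun k => rfl⟩
  have hy0 : ∀ k, 0 ≤ y k := fun k => by rw [hy]; exact diag_nonneg hY k
  have hz0 : ∀ k, 0 ≤ z k := fun k => by rw [hz]; exact diag_nonneg hZ k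
  have ha0 : ∀ k, 0 ≤ a k ^ 2 := fun k => sq_nonneg _
  -- the trace of `A Aᴴ` and its entropy
  have hAA : A * Aᴴ = P * (diagonal fun k => ((a k ^ 2 : ℝ) : ℂ)) * Pᴴ := by
    have hD : (diagonal fun k => (a k : ℂ) : Matrix ι ι ℂ)ᴴ = diagonal fun k => (a k : ℂ) := by
      rw [Matrix.diagonal_conjTranspose]
      congr 1
      ext k; simp
    calc A * Aᴴ = P * (diagonal fun k => (a k : ℂ)) * Q *
          (Qᴴ * ((diagonal fun k => (a k : ℂ) : Matrix ι ι ℂ)ᴴ * Pᴴ)) := by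
          rw [hA, Matrix.conjTranspose_mul, Matrix.conjTranspose_mul]
      _ = P * ((diagonal fun k => (a k : ℂ)) * (Q * Qᴴ) * (diagonal fun k => (a k : ℂ))) * Pᴴ := by
          rw [hD]; simp only [Matrix.mul_assoc]
      _ = _ := by
          rw [hQ', Matrix.mul_one, Matrix.diagonal_mul_diagonal]
          congr 3
          ext k
          push_cast
          ring
  have hdH : (diagonal fun k => ((a k ^ 2 : ℝ) : ℂ) : Matrix ι ι ℂ).IsHermitian := by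
    rw [Matrix.IsHermitian, Matrix.diagonal_conjTranspose]
    congr 1
    ext k; simp
  have entA : ent (A * Aᴴ) = ∑ k, Real.negMulLog (a k ^ 2) := by
    rw [hAA, ent_unitary hdH P hP, ent_diagonal]
  have trA : (A * Aᴴ).trace.re = ∑ k, a k ^ 2 := by
    rw [hAA, Matrix.trace_mul_comm, ← Matrix.mul_assoc, hP, Matrix.one_mul, Matrix.trace_diagonal,
      Complex.re_sum]
    apply Finset.sum_congr rfl
    intro k _
    exact Complex.ofReal_re _
  have trY : ∑ k, y k = (B * Bᴴ).trace.re := by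
    simp only [hy]; exact sum_diag hP'
  have trZ : ∑ k, z k = (Cᴴ * C).trace.re := by
    simp only [hz]; exact sum_diag hQ3
  have trZ' : (Cᴴ * C).trace.re = (C * Cᴴ).trace.re := by rw [Matrix.trace_mul_comm]
  -- the comparison
  have hsc := Fsc_subadd (fun k => a k ^ 2) y z ha0 hy0 hz0
  have hcmp := cmp_eta
    (x := (Sum.elim hT.isHermitian.eigenvalues (Sum.elim y z) : (ι ⊕ ι) ⊕ (ι ⊕ ι) → ℝ))
    (y := (Sum.elim (Sum.elim hY.isHermitian.eigenvalues hZ.isHermitian.eigenvalues)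
      (Sum.elim (fun k => mup (a k ^ 2) (y k) (z k)) (fun k => mum (a k ^ 2) (y k) (z k))) :
        (ι ⊕ ι) ⊕ (ι ⊕ ι) → ℝ))
    (by
      rintro (i | i | i)
      · exact hT.eigenvalues_nonneg i
      · exact hy0 i
      · exact hz0 i)
    (by
      rintro ((i | i) | (i | i))
      · exact hY.eigenvalues_nonneg i
      · exact hZ.eigenvalues_nonneg i
      · exact mup_nonneg (ha0 i) (hy0 i) (hz0 i)
      · exact mum_nonneg (ha0 i) (hy0 i) (hz0 i))
    (by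
      simp only [Fintype.sum_sum_type, Sum.elim_inl, Sum.elim_inr]
      have h1 : ∑ k, mup (a k ^ 2) (y k) (z k) + ∑ k, mum (a k ^ 2) (y k) (z k) =
          ∑ k, a k ^ 2 + ∑ k, y k + ∑ k, z k := by
        rw [← Finset.sum_add_distrib, ← Finset.sum_add_distrib, ← Finset.sum_add_distrib]
        apply Finset.sum_congr rfl
        intro k _
        rw [mup_add_mum]
      have h2 := sum_eig hT.isHermitian
      rw [Fintype.sum_sum_type] at h2
      have h3 : (fromBlocks A B C 0 * (fromBlocks A B C 0)ᴴ).trace.re =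
          (A * Aᴴ).trace.re + (B * Bᴴ).trace.re + (C * Cᴴ).trace.re := by
        rw [Matrix.fromBlocks_conjTranspose, Matrix.fromBlocks_multiply, trace_blocks]
        simp
      rw [h1, sum_eig hY.isHermitian, sum_eig hZ.isHermitian, h2, h3, trA, trY, trZ, trZ']
      ring)
    (by
      intro l hl
      simp only [Fintype.prod_sum_type, Sum.elim_inl, Sum.elim_inr]
      have hU : (Pᴴ * (1 + (l : ℂ) • (B * Bᴴ)) * P).PosDef := posDef_conj hP (posDef_one_add hY hl)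
      have hV : (Q * (1 + (l : ℂ) • (Cᴴ * C)) * Qᴴ).PosDef := by
        have := posDef_conj hQ2 (posDef_one_add hZ hl)
        rwa [Matrix.conjTranspose_conjTranspose] at this
      have hpin := pin _ _ hU hV (fun k => Real.sqrt l * a k)
      rw [← det_T' A B C P Q a hP hP' hQ hQ' hA hl] at hpin
      have dV : (Q * (1 + (l : ℂ) • (Cᴴ * C)) * Qᴴ).det = (1 + (l : ℂ) • (Cᴴ * C)).det := by
        have := det_conj (P := Qᴴ) (X := 1 + (l : ℂ) • (Cᴴ * C)) hQ2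
        rwa [Matrix.conjTranspose_conjTranspose] at this
      rw [det_conj hP, dV, det_one_add hY.isHermitian, det_one_add hZ.isHermitian,
        det_one_add hT.isHermitian] at hpin
      have dU : ∀ k, ((Pᴴ * (1 + (l : ℂ) • (B * Bᴴ)) * P) k k).re = 1 + l * y k := by
        intro k
        rw [conj_diag_re _ _ hP, hy]
      have dV' : ∀ k, ((Q * (1 + (l : ℂ) • (Cᴴ * C)) * Qᴴ) k k).re = 1 + l * z k := by
        intro k
        have := conj_diag_re (Qᴴ) (Cᴴ * C) hQ2 l k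
        rw [← hz, Matrix.conjTranspose_conjTranspose] at this
        exact this
      simp only [dU, dV'] at hpin
      have hmu : ∀ k, (1 + l * y k) * (1 + l * z k) + (Real.sqrt l * a k) ^ 2 =
          (1 + l * mup (a k ^ 2) (y k) (z k)) * (1 + l * mum (a k ^ 2) (y k) (z k)) := by
        intro k
        have h1 := mup_add_mum (a k ^ 2) (y k) (z k)
        have h2 := mup_mul_mum (ha0 k) (hy0 k) (hz0 k)
        have h3 : (Real.sqrt l * a k) ^ 2 = l * a k ^ 2 := by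
          rw [mul_pow, Real.sq_sqrt hl.le]
        rw [h3]
        linear_combination (-l) * h1 - l ^ 2 * h2
      simp only [hmu] at hpin
      rw [← Complex.ofReal_mul, Complex.ofReal_re, Complex.ofReal_re, Fintype.prod_sum_type,
        Finset.prod_mul_distrib, Finset.prod_mul_distrib] at hpin
      exact hpin)
  simp only [Fintype.sum_sum_type, Sum.elim_inl, Sum.elim_inr] at hcmp
  have eT : ent (fromBlocks A B C 0 * (fromBlocks A B C 0)ᴴ) =
      ∑ i, Real.negMulLog (hT.isHermitian.eigenvalues (Sum.inl i)) +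
        ∑ i, Real.negMulLog (hT.isHermitian.eigenvalues (Sum.inr i)) := by
    rw [ent_eq_eig hT.isHermitian, Fintype.sum_sum_type]
  rw [eT, entA, ent_mul_conj_comm C, ent_eq_eig hY.isHermitian, ent_eq_eig hZ.isHermitian,
    trA, ← trY, ← trZ', ← trZ]
  have hF : ∑ k, Fsc (a k ^ 2) (y k) (z k) =
      ∑ k, Real.negMulLog (mup (a k ^ 2) (y k) (z k)) +
      ∑ k, Real.negMulLog (mum (a k ^ 2) (y k) (z k)) - ∑ k, Real.negMulLog (a k ^ 2)
        - ∑ k, Real.negMulLog (y k) - ∑ k, Real.negMulLog (z k) := by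
    simp only [Fsc, Finset.sum_sub_distrib, Finset.sum_add_distrib]
  rw [hF] at hsc
  linarith

end Vale.Agent.P358
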