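import Mathlib

/-!
P358: definitions. Entropies are in bits in the statement (`vnS`), in nats internally (`ent`).
-/

namespace Vale.Agent.P358

open Matrix
open scoped ComplexOrder

/-- von Neumann entropy of a Hermitian matrix, natural logarithm: the sum of `-x log x` over the
eigenvalues. -/
noncomputable def ent {ι : Type*} [Fintype ι] [DecidableEq ι] (M : Matrix ι ι ℂ) : ℝ :=
  open Classical in
  if h : M.IsHermitian then ∑ i, Real.negMulLog (h.eigenvalues i) else 0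

/-- von Neumann entropy in bits. -/
noncomputable def vnS {ι : Type*} [Fintype ι] [DecidableEq ι] (M : Matrix ι ι ℂ) : ℝ :=
  ent M / Real.log 2

/-- Density matrices. -/
def IsState {ι : Type*} [Fintype ι] (ρ : Matrix ι ι ℂ) : Prop :=
  ρ.PosSemidef ∧ ρ.trace = 1

/-- The generalized amplitude-damping channel on all `2 × 2` matrices (linear extension). -/
noncomputable def gadc (γ ν : ℝ) (ρ : Matrix (Fin 2) (Fin 2) ℂ) : Matrix (Fin 2) (Fin 2) ℂ :=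
  !![ρ 0 0 + ρ 1 1 - ((1 - γ : ℝ) * ρ 1 1 + (γ * ν : ℝ) * (ρ 0 0 + ρ 1 1)),
     (Real.sqrt (1 - γ) : ℝ) * ρ 0 1;
     (Real.sqrt (1 - γ) : ℝ) * ρ 1 0,
     (1 - γ : ℝ) * ρ 1 1 + (γ * ν : ℝ) * (ρ 0 0 + ρ 1 1)]

/-- The `n`-fold tensor power of the channel, on matrices indexed by bit strings of length `n`:
the linear map that sends the tensor product of matrix units to the tensor product of their
images. -/
noncomputable def gpow (γ ν : ℝ) (n : ℕ) (ρ : Matrix (Fin n → Fin 2) (Fin n → Fin 2) ℂ) :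
    Matrix (Fin n → Fin 2) (Fin n → Fin 2) ℂ :=
  fun x x' => ∑ y : Fin n → Fin 2, ∑ y' : Fin n → Fin 2,
    (∏ i, gadc γ ν (Matrix.single (y i) (y' i) 1) (x i) (x' i)) * ρ y y'

/-- The values (in bits) of the Holevo quantity of the channel `Φ` over all finite ensembles of
states. -/
def holevoSet {ι κ : Type*} [Fintype ι] [Fintype κ] [DecidableEq κ]
    (Φ : Matrix ι ι ℂ → Matrix κ κ ℂ) : Set ℝ :=
  {r | ∃ (α : Type) (_ : Fintype α) (q : α → ℝ) (ρ : α → Matrix ι ι ℂ),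
    (∀ a, 0 ≤ q a) ∧ ∑ a, q a = 1 ∧ (∀ a, IsState (ρ a)) ∧
      r = vnS (∑ a, (q a : ℂ) • Φ (ρ a)) - ∑ a, q a * vnS (Φ (ρ a))}

/-- The Holevo capacity in bits. -/
noncomputable def chi {ι κ : Type*} [Fintype ι] [Fintype κ] [DecidableEq κ]
    (Φ : Matrix ι ι ℂ → Matrix κ κ ℂ) : ℝ :=
  sSup (holevoSet Φ)

/-- The unassisted classical capacity in bits: the supremum over `n ≥ 1` of the Holevo capacity of
the `n`-fold tensor power, divided by `n`. -/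
noncomputable def capacity (γ ν : ℝ) : ℝ :=
  sSup {r | ∃ n : ℕ, 1 ≤ n ∧ r = chi (gpow γ ν n) / n}

/-! ### Internal definitions -/

/-- Holevo values in nats. -/
def hol {ι κ : Type*} [Fintype ι] [Fintype κ] [DecidableEq κ]
    (Φ : Matrix ι ι ℂ → Matrix κ κ ℂ) : Set ℝ :=
  {r | ∃ (α : Type) (_ : Fintype α) (q : α → ℝ) (ρ : α → Matrix ι ι ℂ),
    (∀ a, 0 ≤ q a) ∧ ∑ a, q a = 1 ∧ (∀ a, IsState (ρ a)) ∧
      r = ent (∑ a, (q a : ℂ) • Φ (ρ a)) - ∑ a, q a * ent (Φ (ρ a))}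

/-- The channel with Kraus operators `K e`. -/
noncomputable def kr {ι κ ε : Type*} [Fintype ι] [Fintype ε] (K : ε → Matrix κ ι ℂ)
    (ρ : Matrix ι ι ℂ) : Matrix κ κ ℂ :=
  ∑ e, K e * ρ * (K e)ᴴ

/-- Amplitude damping (with `ν = 0`) tensor `Φ`, on block matrices. -/
noncomputable def dchan {ι : Type*} (γ : ℝ) (Φ : Matrix ι ι ℂ → Matrix ι ι ℂ)
    (R : Matrix (ι ⊕ ι) (ι ⊕ ι) ℂ) : Matrix (ι ⊕ ι) (ι ⊕ ι) ℂ :=
  fromBlocks (Φ R.toBlocks₁₁ + (γ : ℂ) • Φ R.toBlocks₂₂)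
    ((Real.sqrt (1 - γ) : ℂ) • Φ R.toBlocks₁₂)
    ((Real.sqrt (1 - γ) : ℂ) • Φ R.toBlocks₂₁)
    (((1 - γ : ℝ) : ℂ) • Φ R.toBlocks₂₂)

/-- The matrix with columns `K e *ᵥ f`. -/
def colm {ι κ ε : Type*} [Fintype ι] (K : ε → Matrix κ ι ℂ) (f : ι → ℂ) : Matrix κ ε ℂ :=
  fun a e => (K e *ᵥ f) a

/-- `|f⟩⟨g|`. -/
def outer {ι : Type*} (f g : ι → ℂ) : Matrix ι ι ℂ := fun i j => f i * star (g j)

/-- Tensor product of a `2 × 2` matrix with a matrix, as a block matrix. -/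
def tens {ι : Type*} (ρ : Matrix (Fin 2) (Fin 2) ℂ) (σ : Matrix ι ι ℂ) :
    Matrix (ι ⊕ ι) (ι ⊕ ι) ℂ :=
  fromBlocks (ρ 0 0 • σ) (ρ 0 1 • σ) (ρ 1 0 • σ) (ρ 1 1 • σ)

/-- The larger root of `X ^ 2 - (u + v + w) X + v w`. -/
noncomputable def mup (u v w : ℝ) : ℝ := (u + v + w + Real.sqrt ((u + v + w) ^ 2 - 4 * (v * w))) / 2

/-- The smaller root of `X ^ 2 - (u + v + w) X + v w`. -/
noncomputable def mum (u v w : ℝ) : ℝ := (u + v + w - Real.sqrt ((u + v + w) ^ 2 - 4 * (v * w))) / 2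

/-- The scalar function of the argument. -/
noncomputable def Fsc (u v w : ℝ) : ℝ :=
  Real.negMulLog (mup u v w) + Real.negMulLog (mum u v w)
    - Real.negMulLog u - Real.negMulLog v - Real.negMulLog w

end Vale.Agent.P358
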