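import Vale.Agent.P358.Defs

/-!
P358, general `ν`: definitions.
-/

namespace Vale.Agent.P358

open Matrix
open scoped ComplexOrder

/-- The generalized amplitude-damping channel tensor `Φ`, on block matrices. -/
noncomputable def dchanG {ι : Type*} (γ ν : ℝ) (Φ : Matrix ι ι ℂ → Matrix ι ι ℂ)
    (R : Matrix (ι ⊕ ι) (ι ⊕ ι) ℂ) : Matrix (ι ⊕ ι) (ι ⊕ ι) ℂ :=
  fromBlocks
    (((1 - γ * ν : ℝ) : ℂ) • Φ R.toBlocks₁₁ + ((γ * (1 - ν) : ℝ) : ℂ) • Φ R.toBlocks₂₂)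
    ((Real.sqrt (1 - γ) : ℂ) • Φ R.toBlocks₁₂)
    ((Real.sqrt (1 - γ) : ℂ) • Φ R.toBlocks₂₁)
    (((γ * ν : ℝ) : ℂ) • Φ R.toBlocks₁₁ + ((1 - γ * (1 - ν) : ℝ) : ℂ) • Φ R.toBlocks₂₂)

/-- Entropy of a spectrum `{x, 1 - x}` as a function of the product `s = x (1 - x)`. -/
noncomputable def eta2 (s : ℝ) : ℝ :=
  Real.negMulLog ((1 + Real.sqrt (1 - 4 * s)) / 2) +
    Real.negMulLog ((1 - Real.sqrt (1 - 4 * s)) / 2)

/-- The determinant of the output of the channel on the pure state `(√(1-q), √q)`. -/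
noncomputable def del (γ ν q : ℝ) : ℝ :=
  (1 - γ * ν) * (γ * ν) * (1 - q) ^ 2 + (1 - γ * (1 - ν)) * (γ * (1 - ν)) * q ^ 2
    + 2 * (γ * (1 - ν)) * (γ * ν) * ((1 - q) * q)

/-- Lower left coefficient of the two-operator channel (`s = ± 1`), `|tt|^2 = 1 - γ (1 - ν)`. -/
noncomputable def tt (γ ν s : ℝ) : ℂ :=
  ((Real.sqrt (1 - γ) : ℝ) - (s * Real.sqrt ((γ * (1 - ν)) * (γ * ν)) : ℝ) * Complex.I) /
    (Real.sqrt (1 - γ * ν) : ℝ)

/-- Lower right coefficient, `|ww|^2 = γ ν`. -/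
noncomputable def ww (γ ν s : ℝ) : ℂ := (s * Real.sqrt (γ * ν) : ℝ) * Complex.I

/-- The `2 × 2` array of the two-operator channel at the amplitudes `x, y`. -/
noncomputable def arr (γ ν s : ℝ) (x y : ℂ) : Matrix (Fin 2) (Fin 2) ℂ :=
  !![(Real.sqrt (1 - γ * ν) : ℝ) * x, (Real.sqrt (γ * (1 - ν)) : ℝ) * y;
     tt γ ν s * y, ww γ ν s * x]

/-- The block matrix of the two-operator channel tensor `kr K` on the pure input `(f, g)`. -/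
noncomputable def Tm {ι ε : Type*} [Fintype ι] (γ ν s : ℝ) (K : ε → Matrix ι ι ℂ) (f g : ι → ℂ) :
    Matrix (ι ⊕ ι) (ε ⊕ ε) ℂ :=
  fromBlocks (((Real.sqrt (1 - γ * ν) : ℝ) : ℂ) • colm K f)
    (((Real.sqrt (γ * (1 - ν)) : ℝ) : ℂ) • colm K g)
    (tt γ ν s • colm K g) (ww γ ν s • colm K f)

end Vale.Agent.P358
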