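import Vale.Agent.P358.Blk

/-!
# P358: (E3) for rectangular blocks
-/

namespace Vale.Agent.P358

open Matrix
open scoped ComplexOrder

variable {ι ε : Type*} [Fintype ι] [DecidableEq ι] [Fintype ε] [DecidableEq ε]

/-- padding by zero does not change the entropy -/
theorem ent_pad {M : Matrix ι ι ℂ} (hM : M.IsHermitian) :
    ent (fromBlocks M (0 : Matrix ι ε ℂ) (0 : Matrix ε ι ℂ) (0 : Matrix ε ε ℂ)) = ent M := by
  have hH : (fromBlocks M (0 : Matrix ι ε ℂ) (0 : Matrix ε ι ℂ) (0 : Matrix ε ε ℂ)).IsHermitian := by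
    rw [Matrix.IsHermitian, fromBlocks_conjTranspose, hM.eq, conjTranspose_zero,
      conjTranspose_zero, conjTranspose_zero]
  rw [ent_of_charpoly hH (Sum.elim hM.eigenvalues (fun _ => 0)), ent_eq_eig hM,
    Fintype.sum_sum_type]
  · simp
  · rw [charpoly_fromBlocks_zero₁₂, hM.charpoly_eq, charpoly_zero, Fintype.prod_sum_type]
    simp

/-- the padded block -/
def padb (A : Matrix ι ε ℂ) : Matrix (ι ⊕ ε) (ι ⊕ ε) ℂ := fromBlocks 0 A 0 0

omit [DecidableEq ι] [DecidableEq ε] in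
theorem padb_mul (A B : Matrix ι ε ℂ) :
    padb A * (padb B)ᴴ = fromBlocks (A * Bᴴ) 0 0 0 := by
  unfold padb
  rw [fromBlocks_conjTranspose, fromBlocks_multiply]
  simp

omit [DecidableEq ι] [DecidableEq ε] in
theorem padb_trace (M : Matrix ι ι ℂ) :
    (fromBlocks M (0 : Matrix ι ε ℂ) (0 : Matrix ε ι ℂ) (0 : Matrix ε ε ℂ)).trace = M.trace := by
  rw [trace, Fintype.sum_sum_type]
  simp [trace]

/-- (E3) for rectangular blocks -/
theorem E3r (A B C : Matrix ι ε ℂ) :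
    ent (A * Aᴴ) + ent (B * Bᴴ) + ent (C * Cᴴ)
      + Fsc (A * Aᴴ).trace.re (B * Bᴴ).trace.re (C * Cᴴ).trace.re ≤
    ent (fromBlocks A B C 0 * (fromBlocks A B C 0)ᴴ) := by
  have h := E3 (padb A) (padb B) (padb C)
  have hA : ent (padb A * (padb A)ᴴ) = ent (A * Aᴴ) := by
    rw [padb_mul, ent_pad (isHermitian_mul_conjTranspose_self A)]
  have hB : ent (padb B * (padb B)ᴴ) = ent (B * Bᴴ) := by
    rw [padb_mul, ent_pad (isHermitian_mul_conjTranspose_self B)]
  have hC : ent (padb C * (padb C)ᴴ) = ent (C * Cᴴ) := by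
    rw [padb_mul, ent_pad (isHermitian_mul_conjTranspose_self C)]
  rw [hA, hB, hC, padb_mul, padb_mul, padb_mul, padb_trace, padb_trace, padb_trace] at h
  refine h.trans (le_of_eq ?_)
  rw [← ent_submatrix (Equiv.sumSumSumComm ι ι ε ε)]
  have hT : (fromBlocks (padb A) (padb B) (padb C) 0 *
      (fromBlocks (padb A) (padb B) (padb C) 0)ᴴ).submatrix (Equiv.sumSumSumComm ι ι ε ε)
        (Equiv.sumSumSumComm ι ι ε ε) =
      fromBlocks (fromBlocks A B C 0 * (fromBlocks A B C 0)ᴴ) 0 0 0 := by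
    have e1 : fromBlocks (padb A) (padb B) (padb C) 0 *
        (fromBlocks (padb A) (padb B) (padb C) 0)ᴴ =
        fromBlocks (fromBlocks (A * Aᴴ + B * Bᴴ) 0 0 0) (fromBlocks (A * Cᴴ) 0 0 0)
          (fromBlocks (C * Aᴴ) 0 0 0) (fromBlocks (C * Cᴴ) 0 0 0) := by
      rw [fromBlocks_conjTranspose, fromBlocks_multiply, padb_mul, padb_mul, padb_mul, padb_mul,
        padb_mul, fromBlocks_add]
      simp
    have e2 : fromBlocks A B C 0 * (fromBlocks A B C 0)ᴴ =
        fromBlocks (A * Aᴴ + B * Bᴴ) (A * Cᴴ) (C * Aᴴ) (C * Cᴴ) := by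
      rw [fromBlocks_conjTranspose, fromBlocks_multiply]
      simp
    rw [e1, e2]
    ext ((i | i) | (i | i)) ((j | j) | (j | j)) <;> rfl
  rw [hT, ent_pad (isHermitian_mul_conjTranspose_self _)]

end Vale.Agent.P358
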