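import Vale.Agent.P358.Defs

/-! P358: concavity and subadditivity of the entropy through diagonals. -/

namespace Vale.Agent.P358

open Matrix
open scoped ComplexOrder

variable {ι κ : Type*} [Fintype ι] [DecidableEq ι] [Fintype κ] [DecidableEq κ]

private theorem ent_eqA {M : Matrix ι ι ℂ} (hM : M.IsHermitian) :
    ent M = ∑ i, Real.negMulLog (hM.eigenvalues i) := by
  unfold ent
  rw [dif_pos hM]

private theorem spec {M : Matrix ι ι ℂ} (hM : M.IsHermitian) :
    ∃ V : Matrix ι ι ℂ, Vᴴ * V = 1 ∧ V * Vᴴ = 1 ∧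
      Vᴴ * M * V = diagonal (fun i => ((hM.eigenvalues i : ℝ) : ℂ)) ∧
      M = V * diagonal (fun i => ((hM.eigenvalues i : ℝ) : ℂ)) * Vᴴ := by
  refine ⟨(hM.eigenvectorUnitary : Matrix ι ι ℂ), ?_, ?_, ?_, ?_⟩
  · exact Unitary.coe_star_mul_self _
  · exact Unitary.coe_mul_star_self _
  · have h := hM.conjStarAlgAut_star_eigenvectorUnitary
    rw [Unitary.conjStarAlgAut_apply] at h
    simpa [Matrix.star_eq_conjTranspose, Function.comp_def] using h
  · have h := hM.spectral_theorem
    rw [Unitary.conjStarAlgAut_apply] at h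
    simpa [Matrix.star_eq_conjTranspose, Function.comp_def] using h

private theorem diag_formula (W : Matrix ι ι ℂ) (f : ι → ℝ) (i : ι) :
    ((W * diagonal (fun j => ((f j : ℝ) : ℂ)) * Wᴴ) i i).re = ∑ j, Complex.normSq (W i j) * f j := by
  rw [mul_apply]
  simp only [mul_diagonal, conjTranspose_apply]
  rw [Complex.re_sum]
  refine Finset.sum_congr rfl fun j _ => ?_
  have : W i j * (f j : ℂ) * star (W i j) = ((Complex.normSq (W i j) * f j : ℝ) : ℂ) := by
    rw [Complex.ofReal_mul, Complex.normSq_eq_conj_mul_self]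
    simp only [RCLike.star_def]
    ring
  rw [this, Complex.ofReal_re]

theorem ent_le_diag {M : Matrix ι ι ℂ} (hM : M.PosSemidef) (U : Matrix ι ι ℂ)
    (hU : Uᴴ * U = 1) :
    ent M ≤ ∑ i, Real.negMulLog ((Uᴴ * M * U) i i).re := by
  obtain ⟨V, hV1, hV2, -, hV4⟩ := spec hM.1
  set lam := hM.1.eigenvalues with hlam
  have hl0 : ∀ i, 0 ≤ lam i := hM.eigenvalues_nonneg
  set W : Matrix ι ι ℂ := Uᴴ * V with hW
  have hU2 : U * Uᴴ = 1 := mul_eq_one_comm.mp hU
  have hWs : Wᴴ = Vᴴ * U := by rw [hW, conjTranspose_mul, conjTranspose_conjTranspose]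
  have hW1 : W * Wᴴ = 1 := by
    rw [hWs, hW, Matrix.mul_assoc, ← Matrix.mul_assoc V, hV2, Matrix.one_mul, hU]
  have hW2 : Wᴴ * W = 1 := mul_eq_one_comm.mp hW1
  have hrow : ∀ i, ∑ j, Complex.normSq (W i j) = 1 := by
    intro i
    have h := diag_formula W (fun _ => (1 : ℝ)) i
    simp only [Complex.ofReal_one, mul_one] at h
    rw [← h]
    have : (diagonal (fun _ : ι => (1 : ℂ))) = 1 := diagonal_one
    rw [this, Matrix.mul_one, hW1]
    simp
  have hcol : ∀ j, ∑ i, Complex.normSq (W i j) = 1 := by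
    intro j
    have h := diag_formula Wᴴ (fun _ => (1 : ℝ)) j
    simp only [Complex.ofReal_one, mul_one] at h
    have h2 : ∑ i, Complex.normSq (W i j) = ∑ i, Complex.normSq (Wᴴ j i) := by
      refine Finset.sum_congr rfl fun i _ => ?_
      rw [conjTranspose_apply, RCLike.star_def, Complex.normSq_conj]
    rw [h2, ← h]
    have : (diagonal (fun _ : ι => (1 : ℂ))) = 1 := diagonal_one
    rw [this, Matrix.mul_one, conjTranspose_conjTranspose, hW2]
    simp
  have hd : ∀ i, ((Uᴴ * M * U) i i).re = ∑ j, Complex.normSq (W i j) * lam j := by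
    intro i
    rw [← diag_formula W lam i]
    congr 2
    rw [hV4]
    rw [hWs, hW]
    simp only [Matrix.mul_assoc]
  rw [ent_eqA hM.1]
  calc ∑ j, Real.negMulLog (lam j)
      = ∑ j, (∑ i, Complex.normSq (W i j)) * Real.negMulLog (lam j) := by
        refine Finset.sum_congr rfl fun j _ => ?_
        rw [hcol, one_mul]
    _ = ∑ i, ∑ j, Complex.normSq (W i j) * Real.negMulLog (lam j) := by
        rw [Finset.sum_comm]
        refine Finset.sum_congr rfl fun j _ => ?_
        rw [Finset.sum_mul]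
    _ ≤ ∑ i, Real.negMulLog ((Uᴴ * M * U) i i).re := by
        refine Finset.sum_le_sum fun i _ => ?_
        rw [hd i]
        have := Real.concaveOn_negMulLog.le_map_sum (t := Finset.univ)
          (w := fun j => Complex.normSq (W i j)) (p := lam)
          (fun j _ => Complex.normSq_nonneg _) (hrow i) (fun j _ => hl0 j)
        simpa [smul_eq_mul] using this

omit [DecidableEq ι] in
private theorem psd_diag_nonneg {M : Matrix ι ι ℂ} (hM : M.PosSemidef) (U : Matrix ι ι ℂ) (i : ι) :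
    0 ≤ ((Uᴴ * M * U) i i).re := by
  have h := (hM.conjTranspose_mul_mul_same U).diag_nonneg (i := i)
  exact (Complex.le_def.mp h).1

theorem ent_concave {α : Type*} [Fintype α] (q : α → ℝ) (hq : ∀ a, 0 ≤ q a)
    (hs : ∑ a, q a = 1) (M : α → Matrix ι ι ℂ) (hM : ∀ a, (M a).PosSemidef) :
    ∑ a, q a * ent (M a) ≤ ent (∑ a, (q a : ℂ) • M a) := by
  have hS : (∑ a, (q a : ℂ) • M a).PosSemidef := by
    refine Matrix.posSemidef_sum _ fun a _ => ?_
    exact (hM a).smul (by exact_mod_cast hq a)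
  obtain ⟨V, hV1, hV2, hV3, -⟩ := spec hS.1
  have hdiag : ∀ i, ((Vᴴ * (∑ a, (q a : ℂ) • M a) * V) i i).re
      = ∑ a, q a * ((Vᴴ * M a * V) i i).re := by
    intro i
    rw [Matrix.mul_sum, Matrix.sum_mul, Matrix.sum_apply, Complex.re_sum]
    refine Finset.sum_congr rfl fun a _ => ?_
    rw [Matrix.mul_smul, Matrix.smul_mul, Matrix.smul_apply, smul_eq_mul, Complex.re_ofReal_mul]
  have hent : ent (∑ a, (q a : ℂ) • M a)
      = ∑ i, Real.negMulLog (∑ a, q a * ((Vᴴ * M a * V) i i).re) := by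
    rw [ent_eqA hS.1]
    refine Finset.sum_congr rfl fun i _ => ?_
    rw [← hdiag i, hV3, diagonal_apply_eq, Complex.ofReal_re]
  rw [hent]
  calc ∑ a, q a * ent (M a)
      ≤ ∑ a, q a * ∑ i, Real.negMulLog ((Vᴴ * M a * V) i i).re := by
        refine Finset.sum_le_sum fun a _ => ?_
        exact mul_le_mul_of_nonneg_left (ent_le_diag (hM a) V hV1) (hq a)
    _ = ∑ i, ∑ a, q a * Real.negMulLog ((Vᴴ * M a * V) i i).re := by
        rw [Finset.sum_comm]
        refine Finset.sum_congr rfl fun a _ => ?_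
        rw [Finset.mul_sum]
    _ ≤ _ := by
        refine Finset.sum_le_sum fun i _ => ?_
        have := Real.concaveOn_negMulLog.le_map_sum (t := Finset.univ)
          (w := q) (p := fun a => ((Vᴴ * M a * V) i i).re)
          (fun a _ => hq a) hs (fun a _ => psd_diag_nonneg (hM a) V i)
        simpa [smul_eq_mul] using this

private theorem nml_le {p a b : ℝ} (hp : 0 ≤ p) (ha : p ≤ a) (hb : p ≤ b) :
    Real.negMulLog p ≤ -p * Real.log a - p * Real.log b + (a * b - p) := by
  rcases hp.eq_or_lt with h | h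
  · rw [← h] at ha hb ⊢
    simp only [Real.negMulLog_zero, neg_zero, zero_mul, sub_zero, zero_add]
    positivity
  · have ha' : 0 < a := lt_of_lt_of_le h ha
    have hb' : 0 < b := lt_of_lt_of_le h hb
    have h1 := Real.log_le_sub_one_of_pos (x := a * b / p) (by positivity)
    rw [Real.log_div (by positivity) h.ne', Real.log_mul ha'.ne' hb'.ne'] at h1
    have h2 := mul_le_mul_of_nonneg_left h1 hp
    have h3 : p * (a * b / p - 1) = a * b - p := by field_simp
    rw [h3] at h2
    unfold Real.negMulLog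
    linarith

theorem ent_subadd (R : Matrix (ι ⊕ ι) (ι ⊕ ι) ℂ) (hR : IsState R) :
    ent R ≤ Real.negMulLog R.toBlocks₁₁.trace.re + Real.negMulLog R.toBlocks₂₂.trace.re
      + ent (R.toBlocks₁₁ + R.toBlocks₂₂) := by
  obtain ⟨hP, ht⟩ := hR
  have hP1 : R.toBlocks₁₁.PosSemidef := hP.submatrix Sum.inl
  have hP2 : R.toBlocks₂₂.PosSemidef := hP.submatrix Sum.inr
  have hS : (R.toBlocks₁₁ + R.toBlocks₂₂).PosSemidef := hP1.add hP2
  obtain ⟨V, hV1, hV2, hV3, -⟩ := spec hS.1
  set W : Matrix (ι ⊕ ι) (ι ⊕ ι) ℂ := fromBlocks V 0 0 V with hW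
  have hWW : Wᴴ * W = 1 := by
    rw [hW, fromBlocks_conjTranspose, fromBlocks_multiply]
    simp [hV1]
  have hWR : Wᴴ * R * W = fromBlocks (Vᴴ * R.toBlocks₁₁ * V) (Vᴴ * R.toBlocks₁₂ * V)
      (Vᴴ * R.toBlocks₂₁ * V) (Vᴴ * R.toBlocks₂₂ * V) := by
    conv_lhs => rw [← fromBlocks_toBlocks R]
    rw [hW, fromBlocks_conjTranspose, fromBlocks_multiply, fromBlocks_multiply]
    simp
  set p : ι → ℝ := fun i => ((Vᴴ * R.toBlocks₁₁ * V) i i).re with hp
  set r : ι → ℝ := fun i => ((Vᴴ * R.toBlocks₂₂ * V) i i).re with hr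
  have hp0 : ∀ i, 0 ≤ p i := fun i => psd_diag_nonneg hP1 V i
  have hr0 : ∀ i, 0 ≤ r i := fun i => psd_diag_nonneg hP2 V i
  have htr : ∀ A : Matrix ι ι ℂ, ∑ i, ((Vᴴ * A * V) i i).re = A.trace.re := by
    intro A
    have h1 : (Vᴴ * A * V).trace = A.trace := by
      rw [Matrix.trace_mul_comm, ← Matrix.mul_assoc, hV2, Matrix.one_mul]
    rw [← h1, Matrix.trace, Complex.re_sum]
    rfl
  have hpS : ∑ i, p i = R.toBlocks₁₁.trace.re := htr _
  have hrS : ∑ i, r i = R.toBlocks₂₂.trace.re := htr _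
  have htot : R.toBlocks₁₁.trace.re + R.toBlocks₂₂.trace.re = 1 := by
    have : R.trace = R.toBlocks₁₁.trace + R.toBlocks₂₂.trace := by
      simp only [Matrix.trace, Fintype.sum_sum_type]
      rfl
    rw [← Complex.add_re, ← this, ht, Complex.one_re]
  have hent : ent (R.toBlocks₁₁ + R.toBlocks₂₂) = ∑ i, Real.negMulLog (p i + r i) := by
    rw [ent_eqA hS.1]
    refine Finset.sum_congr rfl fun i _ => ?_
    have : p i + r i = ((Vᴴ * (R.toBlocks₁₁ + R.toBlocks₂₂) * V) i i).re := by
      rw [Matrix.mul_add, Matrix.add_mul, Matrix.add_apply, Complex.add_re]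
    rw [this, hV3, diagonal_apply_eq, Complex.ofReal_re]
  have h1 := ent_le_diag hP W hWW
  rw [hWR, Fintype.sum_sum_type] at h1
  simp only [fromBlocks_apply₁₁, fromBlocks_apply₂₂] at h1
  rw [hent]
  set P := R.toBlocks₁₁.trace.re with hPd
  set Q := R.toBlocks₂₂.trace.re with hQd
  have hpP : ∀ i, p i ≤ P := by
    intro i
    rw [← hpS]
    exact Finset.single_le_sum (f := p) (fun j _ => hp0 j) (Finset.mem_univ i)
  have hrQ : ∀ i, r i ≤ Q := by
    intro i
    rw [← hrS]
    exact Finset.single_le_sum (f := r) (fun j _ => hr0 j) (Finset.mem_univ i)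
  have e1 : ∑ i, Real.negMulLog (p i) ≤
      ∑ i, (-p i * Real.log P - p i * Real.log (p i + r i) + (P * (p i + r i) - p i)) :=
    Finset.sum_le_sum fun i _ => nml_le (hp0 i) (hpP i) (by linarith [hr0 i])
  have e2 : ∑ i, Real.negMulLog (r i) ≤
      ∑ i, (-r i * Real.log Q - r i * Real.log (p i + r i) + (Q * (p i + r i) - r i)) :=
    Finset.sum_le_sum fun i _ => nml_le (hr0 i) (hrQ i) (by linarith [hp0 i])
  have e3 : ∑ i, (-p i * Real.log P - p i * Real.log (p i + r i) + (P * (p i + r i) - p i))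
      + ∑ i, (-r i * Real.log Q - r i * Real.log (p i + r i) + (Q * (p i + r i) - r i))
      = Real.negMulLog P + Real.negMulLog Q + ∑ i, Real.negMulLog (p i + r i) := by
    have h2 : ∑ i, (-p i * Real.log P) = Real.negMulLog P := by
      rw [← Finset.sum_mul, Finset.sum_neg_distrib, hpS]
      rfl
    have h3 : ∑ i, (-r i * Real.log Q) = Real.negMulLog Q := by
      rw [← Finset.sum_mul, Finset.sum_neg_distrib, hrS]
      rfl
    have h4 : ∑ i, (P * (p i + r i) - p i) + ∑ i, (Q * (p i + r i) - r i) = 0 := by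
      rw [Finset.sum_sub_distrib, Finset.sum_sub_distrib, ← Finset.mul_sum, ← Finset.mul_sum,
        Finset.sum_add_distrib, hpS, hrS]
      linear_combination (P + Q) * htot
    have h5 : ∑ i, Real.negMulLog (p i + r i)
        = -∑ i, (p i * Real.log (p i + r i)) - ∑ i, (r i * Real.log (p i + r i)) := by
      rw [← Finset.sum_neg_distrib, ← Finset.sum_sub_distrib]
      refine Finset.sum_congr rfl fun i _ => ?_
      unfold Real.negMulLog
      ring
    have h6 : ∀ (f : ι → ℝ) (c d : ℝ),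
        ∑ i, (-f i * Real.log c - f i * Real.log (p i + r i) + (d * (p i + r i) - f i))
        = ∑ i, (-f i * Real.log c) - ∑ i, (f i * Real.log (p i + r i))
          + ∑ i, (d * (p i + r i) - f i) := by
      intro f c d
      rw [Finset.sum_add_distrib, Finset.sum_sub_distrib]
    rw [h6, h6, h2, h3, h5]
    linarith
  linarith

end Vale.Agent.P358
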