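import Vale.Agent.P358.DefsG

namespace Vale.Agent.P358

theorem eta2_eq_binEntropy (s : ℝ) :
    eta2 s = Real.binEntropy ((1 + Real.sqrt (1 - 4 * s)) / 2) := by
  rw [Real.binEntropy_eq_negMulLog_add_negMulLog_one_sub]
  unfold eta2
  congr 2
  ring

theorem eta2_mono {s t : ℝ} (hs : 0 ≤ s) (hst : s ≤ t) (ht : t ≤ 1 / 4) : eta2 s ≤ eta2 t := by
  rw [eta2_eq_binEntropy, eta2_eq_binEntropy]
  have h1 : Real.sqrt (1 - 4 * t) ≤ Real.sqrt (1 - 4 * s) := Real.sqrt_le_sqrt (by linarith)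
  have h0 : 0 ≤ Real.sqrt (1 - 4 * t) := Real.sqrt_nonneg _
  have h2 : Real.sqrt (1 - 4 * s) ≤ 1 := by
    rw [Real.sqrt_le_one]
    linarith
  have h3 : Real.sqrt (1 - 4 * t) ≤ 1 := h1.trans h2
  refine Real.binEntropy_strictAntiOn.antitoneOn ?_ ?_ ?_
  · constructor <;> linarith
  · constructor <;> linarith
  · linarith

theorem eta2_mu {u v w : ℝ} (hu : 0 ≤ u) (hv : 0 ≤ v) (hw : 0 ≤ w) (h : u + v + w = 1) :
    Real.negMulLog (mup u v w) + Real.negMulLog (mum u v w) = eta2 (v * w) := by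
  unfold mup mum eta2
  rw [h, one_pow]

theorem del_nonneg {γ ν q : ℝ} (h0 : 0 ≤ γ) (h1 : γ ≤ 1) (n0 : 0 ≤ ν) (n1 : ν ≤ 1)
    (q0 : 0 ≤ q) (q1 : q ≤ 1) : 0 ≤ del γ ν q := by
  unfold del
  have a1 : 0 ≤ γ * ν := mul_nonneg h0 n0
  have a2 : 0 ≤ 1 - γ * ν := by nlinarith
  have b1 : 0 ≤ γ * (1 - ν) := mul_nonneg h0 (by linarith)
  have b2 : 0 ≤ 1 - γ * (1 - ν) := by nlinarith
  have c : 0 ≤ (1 - q) * q := mul_nonneg (by linarith) q0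
  positivity

end Vale.Agent.P358
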