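import Vale.Agent.P358.Defs

/-!
# P358, module Kraus: Kraus channels and `dchan`
-/

namespace Vale.Agent.P358

open Matrix
open scoped ComplexOrder

variable {ι κ : Type*} [Fintype ι] [DecidableEq ι] [Fintype κ] [DecidableEq κ]

theorem kr_add {ε : Type*} [Fintype ε] (K : ε → Matrix ι ι ℂ) (ρ σ : Matrix ι ι ℂ) :
    kr K (ρ + σ) = kr K ρ + kr K σ := by
  unfold kr
  rw [← Finset.sum_add_distrib]
  refine Finset.sum_congr rfl fun e _ => ?_
  rw [mul_add, add_mul]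

theorem kr_smul {ε : Type*} [Fintype ε] (K : ε → Matrix ι ι ℂ) (c : ℂ) (ρ : Matrix ι ι ℂ) :
    kr K (c • ρ) = c • kr K ρ := by
  unfold kr
  rw [Finset.smul_sum]
  refine Finset.sum_congr rfl fun e _ => ?_
  rw [Matrix.mul_smul, Matrix.smul_mul]

theorem kr_psd {ε : Type*} [Fintype ε] (K : ε → Matrix ι ι ℂ) {ρ : Matrix ι ι ℂ}
    (h : ρ.PosSemidef) : (kr K ρ).PosSemidef := by
  unfold kr
  exact Matrix.posSemidef_sum _ fun e _ => h.mul_mul_conjTranspose_same (K e)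

theorem kr_trace {ε : Type*} [Fintype ε] (K : ε → Matrix ι ι ℂ)
    (hK : ∑ e, (K e)ᴴ * K e = 1) (ρ : Matrix ι ι ℂ) : (kr K ρ).trace = ρ.trace := by
  unfold kr
  rw [Matrix.trace_sum]
  have h1 : ∀ e ∈ (Finset.univ : Finset ε),
      (K e * ρ * (K e)ᴴ).trace = ((K e)ᴴ * K e * ρ).trace := by
    intro e _
    rw [Matrix.trace_mul_comm, ← mul_assoc]
  rw [Finset.sum_congr rfl h1, ← Matrix.trace_sum, ← Finset.sum_mul, hK, one_mul]

theorem csqrt_mul {x : ℝ} (hx : 0 ≤ x) : (Real.sqrt x : ℂ) * (Real.sqrt x : ℂ) = ((x : ℝ) : ℂ) := by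
  rw [← Complex.ofReal_mul, Real.mul_self_sqrt hx]

theorem sum_fromBlocks {ε : Type*} [Fintype ε] (A B C D : ε → Matrix ι ι ℂ) :
    ∑ e, fromBlocks (A e) (B e) (C e) (D e) =
      fromBlocks (∑ e, A e) (∑ e, B e) (∑ e, C e) (∑ e, D e) := by
  classical
  have h : ∀ s : Finset ε, ∑ e ∈ s, fromBlocks (A e) (B e) (C e) (D e) =
      fromBlocks (∑ e ∈ s, A e) (∑ e ∈ s, B e) (∑ e ∈ s, C e) (∑ e ∈ s, D e) := by
    intro s
    induction s using Finset.induction_on with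
    | empty => simp [Matrix.fromBlocks_zero]
    | insert a s ha ih =>
      simp only [Finset.sum_insert ha]
      rw [ih, Matrix.fromBlocks_add]
  exact h Finset.univ

/-- The Kraus family of `dchan γ (kr K)`. -/
theorem dchan_kr (γ : ℝ) (h0 : 0 ≤ γ) (h1 : γ ≤ 1) (K : ι → Matrix ι ι ℂ)
    (R : Matrix (ι ⊕ ι) (ι ⊕ ι) ℂ) :
    dchan γ (kr K) R = kr (fun e : ι ⊕ ι => Sum.elim
      (fun e => fromBlocks (K e) 0 0 ((Real.sqrt (1 - γ) : ℂ) • K e))
      (fun e => fromBlocks 0 ((Real.sqrt γ : ℂ) • K e) 0 0) e) R := by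
  have hR : R = fromBlocks R.toBlocks₁₁ R.toBlocks₁₂ R.toBlocks₂₁ R.toBlocks₂₂ :=
    (fromBlocks_toBlocks R).symm
  set R11 := R.toBlocks₁₁ with hR11
  set R12 := R.toBlocks₁₂ with hR12
  set R21 := R.toBlocks₂₁ with hR21
  set R22 := R.toBlocks₂₂ with hR22
  have e1 : ∀ e : ι, fromBlocks (K e) 0 0 ((Real.sqrt (1 - γ) : ℂ) • K e) * R *
      (fromBlocks (K e) 0 0 ((Real.sqrt (1 - γ) : ℂ) • K e))ᴴ =
      fromBlocks (K e * R11 * (K e)ᴴ) ((Real.sqrt (1 - γ) : ℂ) • (K e * R12 * (K e)ᴴ))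
        ((Real.sqrt (1 - γ) : ℂ) • (K e * R21 * (K e)ᴴ))
        (((1 - γ : ℝ) : ℂ) • (K e * R22 * (K e)ᴴ)) := by
    intro e
    rw [hR, fromBlocks_conjTranspose, fromBlocks_multiply, fromBlocks_multiply]
    have hs : star (Real.sqrt (1 - γ) : ℂ) = (Real.sqrt (1 - γ) : ℂ) := Complex.conj_ofReal _
    simp only [conjTranspose_smul, conjTranspose_zero, hs, mul_zero, zero_mul, add_zero, zero_add,
      Matrix.smul_mul, Matrix.mul_smul, smul_smul, csqrt_mul (sub_nonneg.2 h1)]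
  have e2 : ∀ e : ι, fromBlocks 0 ((Real.sqrt γ : ℂ) • K e) 0 0 * R *
      (fromBlocks 0 ((Real.sqrt γ : ℂ) • K e) 0 0)ᴴ =
      fromBlocks ((γ : ℂ) • (K e * R22 * (K e)ᴴ)) 0 0 0 := by
    intro e
    rw [hR, fromBlocks_conjTranspose, fromBlocks_multiply, fromBlocks_multiply]
    have hs : star (Real.sqrt γ : ℂ) = (Real.sqrt γ : ℂ) := Complex.conj_ofReal _
    simp only [conjTranspose_smul, conjTranspose_zero, hs, mul_zero, zero_mul, add_zero, zero_add,
      Matrix.smul_mul, Matrix.mul_smul, smul_smul, csqrt_mul h0]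
  unfold dchan
  rw [← hR11, ← hR12, ← hR21, ← hR22]
  unfold kr
  rw [Fintype.sum_sum_type]
  simp only [Sum.elim_inl, Sum.elim_inr]
  rw [Finset.sum_congr rfl fun e _ => e1 e, Finset.sum_congr rfl fun e _ => e2 e,
    sum_fromBlocks, sum_fromBlocks, fromBlocks_add]
  simp only [Finset.sum_const_zero, add_zero, Finset.smul_sum]

theorem outer_apply' (f g : ι → ℂ) (i j : ι) : outer f g i j = f i * star (g j) := rfl

theorem colm_apply' {ε : Type*} (K : ε → Matrix κ ι ℂ) (f : ι → ℂ) (a : κ) (e : ε) :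
    colm K f a e = ∑ i, K e a i * f i := rfl

theorem kr_outer2 {ε : Type*} [Fintype ε] (K : ε → Matrix ι ι ℂ) (f g : ι → ℂ) :
    kr K (outer f g) = colm K f * (colm K g)ᴴ := by
  ext a b
  unfold kr
  rw [Matrix.sum_apply, Matrix.mul_apply]
  refine Finset.sum_congr rfl fun e _ => ?_
  rw [conjTranspose_apply, colm_apply', colm_apply', Matrix.mul_apply, star_sum,
    Finset.sum_mul_sum, Finset.sum_comm]
  refine Finset.sum_congr rfl fun j _ => ?_
  rw [Matrix.mul_apply, Finset.sum_mul]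
  refine Finset.sum_congr rfl fun i _ => ?_
  rw [outer_apply', conjTranspose_apply, star_mul']
  ring

theorem kr_outer {ε : Type*} [Fintype ε] (K : ε → Matrix ι ι ℂ) (f : ι → ℂ) :
    kr K (outer f f) = colm K f * (colm K f)ᴴ := kr_outer2 K f f

/-- The output on a pure state is `T Tᴴ`. -/
theorem dchan_pure (γ : ℝ) (h0 : 0 ≤ γ) (h1 : γ ≤ 1) (K : ι → Matrix ι ι ℂ) (f g : ι → ℂ) :
    dchan γ (kr K) (outer (Sum.elim f g) (Sum.elim f g)) =
      fromBlocks (colm K f) ((Real.sqrt γ : ℂ) • colm K g) ((Real.sqrt (1 - γ) : ℂ) • colm K g) 0 *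
      (fromBlocks (colm K f) ((Real.sqrt γ : ℂ) • colm K g)
        ((Real.sqrt (1 - γ) : ℂ) • colm K g) 0)ᴴ := by
  have b11 : (outer (Sum.elim f g) (Sum.elim f g)).toBlocks₁₁ = outer f f := rfl
  have b12 : (outer (Sum.elim f g) (Sum.elim f g)).toBlocks₁₂ = outer f g := rfl
  have b21 : (outer (Sum.elim f g) (Sum.elim f g)).toBlocks₂₁ = outer g f := rfl
  have b22 : (outer (Sum.elim f g) (Sum.elim f g)).toBlocks₂₂ = outer g g := rfl
  unfold dchan
  rw [b11, b12, b21, b22, kr_outer2, kr_outer2, kr_outer2, kr_outer2, fromBlocks_conjTranspose,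
    fromBlocks_multiply]
  have hs : star (Real.sqrt γ : ℂ) = (Real.sqrt γ : ℂ) := Complex.conj_ofReal _
  have hs1 : star (Real.sqrt (1 - γ) : ℂ) = (Real.sqrt (1 - γ) : ℂ) := Complex.conj_ofReal _
  simp only [conjTranspose_smul, conjTranspose_zero, hs, hs1, mul_zero, zero_mul, add_zero,
    Matrix.smul_mul, Matrix.mul_smul, smul_smul, csqrt_mul h0, csqrt_mul (sub_nonneg.2 h1)]

theorem exists_pure_decomp (ρ : Matrix ι ι ℂ) (h : ρ.PosSemidef) :
    ∃ (p : ι → ℝ) (ψ : ι → ι → ℂ), (∀ i, 0 ≤ p i) ∧ (∀ i, (outer (ψ i) (ψ i)).trace = 1) ∧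
      ρ = ∑ i, (p i : ℂ) • outer (ψ i) (ψ i) := by
  have hH : ρ.IsHermitian := h.1
  refine ⟨hH.eigenvalues, fun i => fun j => (hH.eigenvectorUnitary : Matrix ι ι ℂ) j i,
    fun i => h.eigenvalues_nonneg i, ?_, ?_⟩
  · intro i
    have hU : (hH.eigenvectorUnitary : Matrix ι ι ℂ)ᴴ * (hH.eigenvectorUnitary : Matrix ι ι ℂ) = 1 :=
      Unitary.coe_star_mul_self hH.eigenvectorUnitary
    have h2 := congrFun (congrFun hU i) i
    rw [Matrix.mul_apply, Matrix.one_apply_eq] at h2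
    rw [← h2]
    unfold Matrix.trace
    refine Finset.sum_congr rfl fun j _ => ?_
    rw [conjTranspose_apply, mul_comm]
    rfl
  · have h3 := hH.spectral_theorem
    conv_lhs => rw [h3]
    ext a b
    rw [Matrix.sum_apply]
    simp only [Unitary.conjStarAlgAut_apply, Matrix.mul_apply, Matrix.diagonal_apply,
      Matrix.star_apply, Matrix.smul_apply, smul_eq_mul, outer_apply', mul_ite, mul_zero,
      Finset.sum_ite_eq', Finset.mem_univ, if_true, Function.comp]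
    refine Finset.sum_congr rfl fun i _ => ?_
    simp only [Complex.coe_algebraMap, RCLike.ofReal]
    ring

end Vale.Agent.P358
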