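import Mathlib

/-!
# P358: from logarithms of determinants to entropies

If `∑ c_i log (1 + l x_i) ≥ 0` for all `l > 0` and `∑ c_i x_i = 0` then
`∑ c_i (- x_i log x_i) ≥ 0`.
-/

namespace Vale.Agent.P358

open Finset Filter Topology

/-- an antiderivative of `log (1 + l x) / l ^ 2` -/
noncomputable def Gx (x l : ℝ) : ℝ :=
  -(Real.log (1 + l * x) / l) + x * Real.log l - x * Real.log (1 + l * x)

theorem Gx_deriv {x l : ℝ} (hx : 0 ≤ x) (hl : 0 < l) :
    HasDerivAt (Gx x) (Real.log (1 + l * x) / l ^ 2) l := by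
  have h1 : 0 < 1 + l * x := by positivity
  have d0 : HasDerivAt (fun l : ℝ => 1 + l * x) x l := by
    simpa using ((hasDerivAt_id l).mul_const x).const_add 1
  have d1 : HasDerivAt (fun l : ℝ => Real.log (1 + l * x)) (x / (1 + l * x)) l :=
    d0.log h1.ne'
  have d2 := (d1.div (hasDerivAt_id l) hl.ne').neg
  have d3 := (Real.hasDerivAt_log hl.ne').const_mul x
  have d4 := d1.const_mul x
  have d5 := (d2.add d3).sub d4
  refine (d5.congr_deriv ?_)
  simp only [id]
  field_simp
  ring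

theorem log_div_tendsto_zero {x : ℝ} (hx : 0 ≤ x) :
    Tendsto (fun l : ℝ => Real.log (1 + l * x) / l) atTop (𝓝 0) := by
  have hb : ∀ᶠ l : ℝ in atTop, 0 ≤ Real.log (1 + l * x) / l ∧
      Real.log (1 + l * x) / l ≤ 2 * √(1 + x) / √l := by
    filter_upwards [eventually_ge_atTop (1 : ℝ)] with l hl
    have hl0 : 0 < l := by linarith
    have h1 : 1 ≤ 1 + l * x := by
      have : 0 ≤ l * x := by positivity
      linarith
    refine ⟨div_nonneg (Real.log_nonneg h1) hl0.le, ?_⟩
    have h2 : Real.log (1 + l * x) ≤ 2 * √(1 + l * x) := by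
      have h3 : Real.log (√(1 + l * x)) ≤ √(1 + l * x) := by
        have := Real.log_le_sub_one_of_pos (Real.sqrt_pos.2 (by linarith : 0 < 1 + l * x))
        linarith
      rw [Real.log_sqrt (by linarith)] at h3
      linarith
    have h4 : √(1 + l * x) ≤ √(1 + x) * √l := by
      rw [← Real.sqrt_mul (by linarith)]
      apply Real.sqrt_le_sqrt
      nlinarith
    rw [div_le_div_iff₀ hl0 (Real.sqrt_pos.2 hl0)]
    have h5 : √l * √l = l := Real.mul_self_sqrt hl0.le
    calc Real.log (1 + l * x) * √l ≤ 2 * √(1 + l * x) * √l :=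
          mul_le_mul_of_nonneg_right h2 (Real.sqrt_nonneg _)
      _ ≤ 2 * (√(1 + x) * √l) * √l :=
          mul_le_mul_of_nonneg_right (by linarith) (Real.sqrt_nonneg _)
      _ = 2 * √(1 + x) * (√l * √l) := by ring
      _ = 2 * √(1 + x) * l := by rw [h5]
  have hlim : Tendsto (fun l : ℝ => 2 * √(1 + x) / √l) atTop (𝓝 0) :=
    Tendsto.div_atTop tendsto_const_nhds Real.tendsto_sqrt_atTop
  exact tendsto_of_tendsto_of_tendsto_of_le_of_le' tendsto_const_nhds hlim
    (hb.mono fun _ h => h.1) (hb.mono fun _ h => h.2)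

theorem Gx_top {x : ℝ} (hx : 0 ≤ x) :
    Tendsto (Gx x) atTop (𝓝 (Real.negMulLog x)) := by
  rcases hx.eq_or_lt with h0 | h0
  · subst h0
    have : Gx 0 = fun _ => (0 : ℝ) := by
      funext l
      simp [Gx]
    rw [this]
    simp
  · have h1 := log_div_tendsto_zero hx
    -- `x log l - x log (1 + l x) = - x log (1 / l + x)`
    have h2 : Tendsto (fun l : ℝ => -(x * Real.log (l⁻¹ + x))) atTop (𝓝 (-(x * Real.log (0 + x)))) := by
      have : Tendsto (fun l : ℝ => l⁻¹ + x) atTop (𝓝 (0 + x)) :=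
        tendsto_inv_atTop_zero.add_const x
      exact (((Real.continuousAt_log (by linarith)).tendsto.comp this).const_mul x).neg
    have h3 := h1.neg.add h2
    have e : (-0 : ℝ) + -(x * Real.log (0 + x)) = Real.negMulLog x := by
      rw [Real.negMulLog]; ring_nf
    rw [e] at h3
    refine h3.congr' ?_
    filter_upwards [eventually_gt_atTop (0 : ℝ)] with l hl
    have h4 : l⁻¹ + x = (1 + l * x) / l := by field_simp
    rw [h4, Real.log_div (by positivity) hl.ne']
    unfold Gx
    ring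

/-- the part of `Gx` without `x log l` -/
theorem Gx_zero {x : ℝ} (hx : 0 ≤ x) :
    Tendsto (fun l : ℝ => -(Real.log (1 + l * x) / l) - x * Real.log (1 + l * x)) (𝓝[>] 0)
      (𝓝 (-x)) := by
  have d0 : HasDerivAt (fun l : ℝ => Real.log (1 + l * x)) x 0 := by
    have h := ((((hasDerivAt_id (0 : ℝ)).mul_const x).const_add 1).log (by simp))
    simpa using h
  have h1 : Tendsto (fun l : ℝ => Real.log (1 + l * x) / l) (𝓝[>] 0) (𝓝 x) := by
    have h := hasDerivAt_iff_tendsto_slope.1 d0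
    have h' : Tendsto (slope (fun l : ℝ => Real.log (1 + l * x)) 0) (𝓝[>] 0) (𝓝 x) :=
      h.mono_left (nhdsWithin_mono _ (fun y (hy : 0 < y) => hy.ne'))
    refine h'.congr fun l => ?_
    rw [slope_def_field]
    simp
  have h2 : Tendsto (fun l : ℝ => x * Real.log (1 + l * x)) (𝓝[>] 0) (𝓝 (x * Real.log (1 + 0 * x))) :=
    ((d0.continuousAt.tendsto).mono_left nhdsWithin_le_nhds).const_mul x
  have h3 := h1.neg.sub h2
  simpa using h3

/-- **from logarithms to entropies** -/
theorem ent_of_logs {ι : Type*} (s : Finset ι) (c x : ι → ℝ) (hx : ∀ i ∈ s, 0 ≤ x i)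
    (h0 : ∑ i ∈ s, c i * x i = 0)
    (h : ∀ l : ℝ, 0 < l → 0 ≤ ∑ i ∈ s, c i * Real.log (1 + l * x i)) :
    0 ≤ ∑ i ∈ s, c i * Real.negMulLog (x i) := by
  set Φ : ℝ → ℝ := fun l => ∑ i ∈ s, c i * Gx (x i) l with hΦ
  have hder : ∀ l : ℝ, 0 < l →
      HasDerivAt Φ ((∑ i ∈ s, c i * Real.log (1 + l * x i)) / l ^ 2) l := by
    intro l hl
    have : HasDerivAt Φ (∑ i ∈ s, c i * (Real.log (1 + l * x i) / l ^ 2)) l := by
      rw [hΦ]
      exact HasDerivAt.fun_sum fun i hi => (Gx_deriv (hx i hi) hl).const_mul (c i)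
    refine this.congr_deriv ?_
    rw [Finset.sum_div]
    exact Finset.sum_congr rfl fun i _ => by ring
  have hmono : MonotoneOn Φ (Set.Ioi 0) := by
    apply monotoneOn_of_deriv_nonneg (convex_Ioi 0)
    · exact fun l hl => (hder l hl).continuousAt.continuousWithinAt
    · rw [interior_Ioi]
      exact fun l hl => (hder l hl).differentiableAt.differentiableWithinAt
    · rw [interior_Ioi]
      intro l hl
      rw [(hder l hl).deriv]
      exact div_nonneg (h l hl) (by positivity)
  have htop : Tendsto Φ atTop (𝓝 (∑ i ∈ s, c i * Real.negMulLog (x i))) :=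
    tendsto_finsetSum _ fun i hi => (Gx_top (hx i hi)).const_mul (c i)
  have hzero : Tendsto Φ (𝓝[>] 0) (𝓝 0) := by
    have h1 : Tendsto (fun l : ℝ => ∑ i ∈ s, c i *
        (-(Real.log (1 + l * x i) / l) - x i * Real.log (1 + l * x i))) (𝓝[>] 0)
        (𝓝 (∑ i ∈ s, c i * (-x i))) :=
      tendsto_finsetSum _ fun i hi => (Gx_zero (hx i hi)).const_mul (c i)
    have e : ∑ i ∈ s, c i * (-x i) = 0 := by
      simp only [mul_neg, Finset.sum_neg_distrib, h0, neg_zero]
    rw [e] at h1
    refine h1.congr fun l => ?_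
    have e2 : Φ l = ∑ i ∈ s, c i *
        (-(Real.log (1 + l * x i) / l) - x i * Real.log (1 + l * x i)) +
        (∑ i ∈ s, c i * x i) * Real.log l := by
      rw [hΦ, Finset.sum_mul, ← Finset.sum_add_distrib]
      refine Finset.sum_congr rfl fun i _ => ?_
      unfold Gx
      ring
    rw [e2, h0, zero_mul, add_zero]
  -- compare
  have hge : ∀ l : ℝ, 0 < l → 0 ≤ Φ l := by
    intro l hl
    refine le_of_tendsto hzero ?_
    filter_upwards [Ioo_mem_nhdsGT hl] with y hy
    exact hmono hy.1 hl hy.2.le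
  exact ge_of_tendsto htop ((eventually_gt_atTop (0 : ℝ)).mono hge)

end Vale.Agent.P358
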