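import Vale.Agent.P358.Tens
import Vale.Agent.P358.Kraus

/-!
# P358, module Lower: superadditivity of the Holevo quantity
-/

namespace Vale.Agent.P358

open Matrix
open scoped ComplexOrder

variable {ι : Type*} [Fintype ι] [DecidableEq ι]

/-- the Kraus operators of amplitude damping -/
noncomputable def kad (γ : ℝ) : Fin 2 → Matrix (Fin 2) (Fin 2) ℂ :=
  ![!![1, 0; 0, (Real.sqrt (1 - γ) : ℂ)], !![0, (Real.sqrt γ : ℂ); 0, 0]]

theorem kad0_conj (γ : ℝ) : (kad γ 0)ᴴ = !![1, 0; 0, (Real.sqrt (1 - γ) : ℂ)] := by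
  ext i j
  fin_cases i <;> fin_cases j <;> simp [kad]

theorem kad1_conj (γ : ℝ) : (kad γ 1)ᴴ = !![0, 0; (Real.sqrt γ : ℂ), 0] := by
  ext i j
  fin_cases i <;> fin_cases j <;> simp [kad]

theorem gadc_kr (γ : ℝ) (h0 : 0 ≤ γ) (h1 : γ ≤ 1) : gadc γ 0 = kr (kad γ) := by
  funext ρ
  have hs0 : (Real.sqrt γ : ℂ) * (Real.sqrt γ : ℂ) = ((γ : ℝ) : ℂ) := csqrt_mul h0
  have hs1 : (Real.sqrt (1 - γ) : ℂ) * (Real.sqrt (1 - γ) : ℂ) = ((1 - γ : ℝ) : ℂ) :=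
    csqrt_mul (sub_nonneg.2 h1)
  unfold kr
  rw [Fin.sum_univ_two, kad0_conj, kad1_conj]
  obtain ⟨a, b, c, d, rfl⟩ : ∃ a b c d, ρ = !![a, b; c, d] :=
    ⟨_, _, _, _, Matrix.eta_fin_two ρ⟩
  have k0 : kad γ 0 = !![1, 0; 0, (Real.sqrt (1 - γ) : ℂ)] := rfl
  have k1 : kad γ 1 = !![0, (Real.sqrt γ : ℂ); 0, 0] := rfl
  rw [k0, k1, Matrix.mul_fin_two, Matrix.mul_fin_two, Matrix.mul_fin_two, Matrix.mul_fin_two]
  unfold gadc
  ext i j
  fin_cases i <;> fin_cases j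
  · simp
    linear_combination (-d) * hs0
  · simp
    ring
  · simp
  · simp
    have hs1' : (Real.sqrt (1 - γ) : ℂ) * (Real.sqrt (1 - γ) : ℂ) = 1 - (γ : ℂ) := by
      rw [hs1]; push_cast; ring
    linear_combination (-d) * hs1'

theorem kad_sum (γ : ℝ) (h0 : 0 ≤ γ) (h1 : γ ≤ 1) : ∑ e, (kad γ e)ᴴ * kad γ e = 1 := by
  have hs0 : (Real.sqrt γ : ℂ) * (Real.sqrt γ : ℂ) = ((γ : ℝ) : ℂ) := csqrt_mul h0
  have hs1 : (Real.sqrt (1 - γ) : ℂ) * (Real.sqrt (1 - γ) : ℂ) = ((1 - γ : ℝ) : ℂ) :=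
    csqrt_mul (sub_nonneg.2 h1)
  rw [Fin.sum_univ_two]
  ext i j
  fin_cases i <;> fin_cases j
  · simp [kad, Matrix.mul_apply, Fin.sum_univ_two, Matrix.add_apply]
  · simp [kad, Matrix.mul_apply, Fin.sum_univ_two, Matrix.add_apply]
  · simp [kad, Matrix.mul_apply, Fin.sum_univ_two, Matrix.add_apply]
  · simp [kad, Matrix.mul_apply, Fin.sum_univ_two, Matrix.add_apply]
    rw [hs0, hs1]
    push_cast
    ring

theorem kr_state {ε : Type*} [Fintype ε] (K : ε → Matrix ι ι ℂ)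
    (hK : ∑ e, (K e)ᴴ * K e = 1) {ρ : Matrix ι ι ℂ} (h : IsState ρ) : IsState (kr K ρ) :=
  ⟨kr_psd K h.1, by rw [kr_trace K hK, h.2]⟩

theorem gadc_state (γ : ℝ) (h0 : 0 ≤ γ) (h1 : γ ≤ 1) {ρ : Matrix (Fin 2) (Fin 2) ℂ}
    (h : IsState ρ) : IsState (gadc γ 0 ρ) := by
  rw [gadc_kr γ h0 h1]
  exact kr_state _ (kad_sum γ h0 h1) h

theorem dchan_tens (γ : ℝ) (K : ι → Matrix ι ι ℂ) (ρ : Matrix (Fin 2) (Fin 2) ℂ)
    (σ : Matrix ι ι ℂ) : dchan γ (kr K) (tens ρ σ) = tens (gadc γ 0 ρ) (kr K σ) := by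
  unfold dchan tens
  simp only [toBlocks_fromBlocks₁₁, toBlocks_fromBlocks₁₂, toBlocks_fromBlocks₂₁,
    toBlocks_fromBlocks₂₂, kr_smul, smul_smul, ← add_smul]
  congr 1
  · congr 1
    simp [gadc]
    ring
  · congr 1
    simp [gadc]

omit [Fintype ι] [DecidableEq ι] in
theorem tens_sum {α β : Type*} [Fintype α] [Fintype β] (q : α → ℝ) (p : β → ℝ)
    (ρ : α → Matrix (Fin 2) (Fin 2) ℂ) (σ : β → Matrix ι ι ℂ) :
    ∑ ab : α × β, ((q ab.1 * p ab.2 : ℝ) : ℂ) • tens (ρ ab.1) (σ ab.2) =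
      tens (∑ a, (q a : ℂ) • ρ a) (∑ b, (p b : ℂ) • σ b) := by
  have key : ∀ (x y : Fin 2) (i j : ι),
      ∑ ab : α × β, ((q ab.1 * p ab.2 : ℝ) : ℂ) * (ρ ab.1 x y * σ ab.2 i j) =
        (∑ a, (q a : ℂ) * ρ a x y) * ∑ b, (p b : ℂ) * σ b i j := by
    intro x y i j
    rw [Finset.sum_mul_sum, Fintype.sum_prod_type]
    refine Finset.sum_congr rfl fun a _ => Finset.sum_congr rfl fun b _ => ?_
    push_cast
    ring
  ext (i | i) (j | j)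
  · simpa [Matrix.sum_apply, tens] using key 0 0 i j
  · simpa [Matrix.sum_apply, tens] using key 0 1 i j
  · simpa [Matrix.sum_apply, tens] using key 1 0 i j
  · simpa [Matrix.sum_apply, tens] using key 1 1 i j

/-- mixtures of states are states -/
theorem mix_state {α : Type*} [Fintype α] (q : α → ℝ) (hq : ∀ a, 0 ≤ q a) (hs : ∑ a, q a = 1)
    (ρ : α → Matrix ι ι ℂ) (h : ∀ a, IsState (ρ a)) : IsState (∑ a, (q a : ℂ) • ρ a) := by
  refine ⟨?_, ?_⟩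
  · exact Matrix.posSemidef_sum _ fun a _ => (h a).1.smul (Complex.zero_le_real.2 (hq a))
  · rw [Matrix.trace_sum]
    simp only [Matrix.trace_smul, (h _).2, smul_eq_mul, mul_one]
    exact_mod_cast hs

theorem lower (γ : ℝ) (h0 : 0 ≤ γ) (h1 : γ ≤ 1) (K : ι → Matrix ι ι ℂ)
    (hK : ∑ e, (K e)ᴴ * K e = 1) (r1 r2 : ℝ) (hr1 : r1 ∈ hol (gadc γ 0))
    (hr2 : r2 ∈ hol (kr K)) : r1 + r2 ∈ hol (dchan γ (kr K)) := by
  obtain ⟨α, _, q, ρ, hq, hqs, hρ, rfl⟩ := hr1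
  obtain ⟨β, _, p, σ, hp, hps, hσ, rfl⟩ := hr2
  have hN : ∀ a, IsState (gadc γ 0 (ρ a)) := fun a => gadc_state γ h0 h1 (hρ a)
  have hM : ∀ b, IsState (kr K (σ b)) := fun b => kr_state K hK (hσ b)
  refine ⟨α × β, inferInstance, fun ab => q ab.1 * p ab.2, fun ab => tens (ρ ab.1) (σ ab.2),
    fun ab => mul_nonneg (hq _) (hp _), ?_, fun ab => tens_isState (hρ _) (hσ _), ?_⟩
  · rw [Fintype.sum_prod_type]
    simp only [← Finset.mul_sum, hps, mul_one, hqs]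
  · simp only [dchan_tens]
    rw [tens_sum q p (fun a => gadc γ 0 (ρ a)) (fun b => kr K (σ b)),
      ent_tens (mix_state q hq hqs _ hN) (mix_state p hp hps _ hM)]
    have e : ∑ ab : α × β, q ab.1 * p ab.2 * ent (tens (gadc γ 0 (ρ ab.1)) (kr K (σ ab.2))) =
        ∑ a, q a * ent (gadc γ 0 (ρ a)) + ∑ b, p b * ent (kr K (σ b)) := by
      have e1 : ∀ ab : α × β, q ab.1 * p ab.2 * ent (tens (gadc γ 0 (ρ ab.1)) (kr K (σ ab.2))) =
          (q ab.1 * ent (gadc γ 0 (ρ ab.1))) * p ab.2 + q ab.1 * (p ab.2 * ent (kr K (σ ab.2))) := by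
        intro ab
        rw [ent_tens (hN _) (hM _)]
        ring
      rw [Finset.sum_congr rfl fun ab _ => e1 ab, Finset.sum_add_distrib, Fintype.sum_prod_type,
        Fintype.sum_prod_type]
      simp only [← Finset.mul_sum, ← Finset.sum_mul, hps, hqs, mul_one, one_mul]
    rw [e]
    ring

end Vale.Agent.P358
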