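import Vale.Agent.P358.DefsG
import Vale.Agent.P358.Lower

/-!
# P358, general `ν`: superadditivity of the Holevo quantity
-/

namespace Vale.Agent.P358

open Matrix
open scoped ComplexOrder

variable {ι : Type*} [Fintype ι] [DecidableEq ι]

/-- the Kraus operators of generalized amplitude damping -/
noncomputable def kadG (γ ν : ℝ) : Fin 4 → Matrix (Fin 2) (Fin 2) ℂ :=
  ![!![(Real.sqrt (1 - ν) : ℂ), 0; 0, (Real.sqrt (1 - ν) : ℂ) * (Real.sqrt (1 - γ) : ℂ)],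
    !![0, (Real.sqrt (1 - ν) : ℂ) * (Real.sqrt γ : ℂ); 0, 0],
    !![(Real.sqrt ν : ℂ) * (Real.sqrt (1 - γ) : ℂ), 0; 0, (Real.sqrt ν : ℂ)],
    !![0, 0; (Real.sqrt ν : ℂ) * (Real.sqrt γ : ℂ), 0]]

theorem kadG0_conj (γ ν : ℝ) : (kadG γ ν 0)ᴴ =
    !![(Real.sqrt (1 - ν) : ℂ), 0; 0, (Real.sqrt (1 - ν) : ℂ) * (Real.sqrt (1 - γ) : ℂ)] := by
  ext i j
  fin_cases i <;> fin_cases j <;> simp [kadG]

theorem kadG1_conj (γ ν : ℝ) : (kadG γ ν 1)ᴴ =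
    !![0, 0; (Real.sqrt (1 - ν) : ℂ) * (Real.sqrt γ : ℂ), 0] := by
  ext i j
  fin_cases i <;> fin_cases j <;> simp [kadG]

theorem kadG2_conj (γ ν : ℝ) : (kadG γ ν 2)ᴴ =
    !![(Real.sqrt ν : ℂ) * (Real.sqrt (1 - γ) : ℂ), 0; 0, (Real.sqrt ν : ℂ)] := by
  ext i j
  fin_cases i <;> fin_cases j <;> simp [kadG]

theorem kadG3_conj (γ ν : ℝ) : (kadG γ ν 3)ᴴ =
    !![0, (Real.sqrt ν : ℂ) * (Real.sqrt γ : ℂ); 0, 0] := by
  ext i j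
  fin_cases i <;> fin_cases j <;> simp [kadG]

theorem gadcG_kr (γ ν : ℝ) (h0 : 0 ≤ γ) (h1 : γ ≤ 1) (n0 : 0 ≤ ν) (n1 : ν ≤ 1) :
    gadc γ ν = kr (kadG γ ν) := by
  funext ρ
  have g0 : (Real.sqrt γ : ℂ) * (Real.sqrt γ : ℂ) = (γ : ℂ) := csqrt_mul h0
  have g1 : (Real.sqrt (1 - γ) : ℂ) * (Real.sqrt (1 - γ) : ℂ) = 1 - (γ : ℂ) := by
    rw [csqrt_mul (sub_nonneg.2 h1)]; push_cast; ring
  have m0 : (Real.sqrt ν : ℂ) * (Real.sqrt ν : ℂ) = (ν : ℂ) := csqrt_mul n0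
  have m1 : (Real.sqrt (1 - ν) : ℂ) * (Real.sqrt (1 - ν) : ℂ) = 1 - (ν : ℂ) := by
    rw [csqrt_mul (sub_nonneg.2 n1)]; push_cast; ring
  unfold kr
  rw [Fin.sum_univ_four, kadG0_conj, kadG1_conj, kadG2_conj, kadG3_conj]
  obtain ⟨a, b, c, d, rfl⟩ : ∃ a b c d, ρ = !![a, b; c, d] :=
    ⟨_, _, _, _, Matrix.eta_fin_two ρ⟩
  have k0 : kadG γ ν 0 = !![(Real.sqrt (1 - ν) : ℂ), 0; 0,
    (Real.sqrt (1 - ν) : ℂ) * (Real.sqrt (1 - γ) : ℂ)] := rfl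
  have k1 : kadG γ ν 1 = !![0, (Real.sqrt (1 - ν) : ℂ) * (Real.sqrt γ : ℂ); 0, 0] := rfl
  have k2 : kadG γ ν 2 = !![(Real.sqrt ν : ℂ) * (Real.sqrt (1 - γ) : ℂ), 0; 0,
    (Real.sqrt ν : ℂ)] := rfl
  have k3 : kadG γ ν 3 = !![0, 0; (Real.sqrt ν : ℂ) * (Real.sqrt γ : ℂ), 0] := rfl
  rw [k0, k1, k2, k3]
  simp only [Matrix.mul_fin_two]
  unfold gadc
  generalize (Real.sqrt γ : ℂ) = sg at *
  generalize (Real.sqrt (1 - γ) : ℂ) = sk at *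
  generalize (Real.sqrt ν : ℂ) = sn at *
  generalize (Real.sqrt (1 - ν) : ℂ) = sm at *
  ext i j
  fin_cases i <;> fin_cases j
  · simp
    linear_combination (-a) * m1 + (-d * sg * sg) * m1 + (-d * (1 - (ν : ℂ))) * g0 +
      (-a * sk * sk) * m0 + (-a * (ν : ℂ)) * g1
  · simp
    linear_combination (-b * sk) * m1 + (-b * sk) * m0
  · simp
    linear_combination (-c * sk) * m1 + (-c * sk) * m0
  · simp
    linear_combination (-d * sk * sk) * m1 + (-d * (1 - (ν : ℂ))) * g1 + (-d) * m0 +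
      (-a * sg * sg) * m0 + (-a * (ν : ℂ)) * g0

theorem kadG_sum (γ ν : ℝ) (h0 : 0 ≤ γ) (h1 : γ ≤ 1) (n0 : 0 ≤ ν) (n1 : ν ≤ 1) :
    ∑ e, (kadG γ ν e)ᴴ * kadG γ ν e = 1 := by
  have g0 : (Real.sqrt γ : ℂ) * (Real.sqrt γ : ℂ) = (γ : ℂ) := csqrt_mul h0
  have g1 : (Real.sqrt (1 - γ) : ℂ) * (Real.sqrt (1 - γ) : ℂ) = 1 - (γ : ℂ) := by
    rw [csqrt_mul (sub_nonneg.2 h1)]; push_cast; ring
  have m0 : (Real.sqrt ν : ℂ) * (Real.sqrt ν : ℂ) = (ν : ℂ) := csqrt_mul n0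
  have m1 : (Real.sqrt (1 - ν) : ℂ) * (Real.sqrt (1 - ν) : ℂ) = 1 - (ν : ℂ) := by
    rw [csqrt_mul (sub_nonneg.2 n1)]; push_cast; ring
  rw [Fin.sum_univ_four, kadG0_conj, kadG1_conj, kadG2_conj, kadG3_conj]
  have k0 : kadG γ ν 0 = !![(Real.sqrt (1 - ν) : ℂ), 0; 0,
    (Real.sqrt (1 - ν) : ℂ) * (Real.sqrt (1 - γ) : ℂ)] := rfl
  have k1 : kadG γ ν 1 = !![0, (Real.sqrt (1 - ν) : ℂ) * (Real.sqrt γ : ℂ); 0, 0] := rfl
  have k2 : kadG γ ν 2 = !![(Real.sqrt ν : ℂ) * (Real.sqrt (1 - γ) : ℂ), 0; 0,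
    (Real.sqrt ν : ℂ)] := rfl
  have k3 : kadG γ ν 3 = !![0, 0; (Real.sqrt ν : ℂ) * (Real.sqrt γ : ℂ), 0] := rfl
  rw [k0, k1, k2, k3]
  simp only [Matrix.mul_fin_two]
  generalize (Real.sqrt γ : ℂ) = sg at *
  generalize (Real.sqrt (1 - γ) : ℂ) = sk at *
  generalize (Real.sqrt ν : ℂ) = sn at *
  generalize (Real.sqrt (1 - ν) : ℂ) = sm at *
  ext i j
  fin_cases i <;> fin_cases j
  · simp
    linear_combination m1 + (sk * sk) * m0 + (ν : ℂ) * g1 + (sg * sg) * m0 + (ν : ℂ) * g0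
  · simp
  · simp
  · simp
    linear_combination (sk * sk) * m1 + (1 - (ν : ℂ)) * g1 + (sg * sg) * m1 +
      (1 - (ν : ℂ)) * g0 + m0

theorem gadcG_state (γ ν : ℝ) (h0 : 0 ≤ γ) (h1 : γ ≤ 1) (n0 : 0 ≤ ν) (n1 : ν ≤ 1)
    {ρ : Matrix (Fin 2) (Fin 2) ℂ} (h : IsState ρ) : IsState (gadc γ ν ρ) := by
  rw [gadcG_kr γ ν h0 h1 n0 n1]
  exact kr_state _ (kadG_sum γ ν h0 h1 n0 n1) h

omit [DecidableEq ι] in
theorem kr_smul' {ε : Type*} [Fintype ε] (K : ε → Matrix ι ι ℂ) (c : ℂ) (ρ : Matrix ι ι ℂ) :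
    kr K (c • ρ) = c • kr K ρ := by
  unfold kr
  rw [Finset.smul_sum]
  refine Finset.sum_congr rfl fun e _ => ?_
  rw [Matrix.mul_smul, Matrix.smul_mul]

omit [DecidableEq ι] in
theorem dchanG_tens (γ ν : ℝ) {ε : Type*} [Fintype ε] (K : ε → Matrix ι ι ℂ)
    (ρ : Matrix (Fin 2) (Fin 2) ℂ) (σ : Matrix ι ι ℂ) :
    dchanG γ ν (kr K) (tens ρ σ) = tens (gadc γ ν ρ) (kr K σ) := by
  unfold dchanG tens
  simp only [toBlocks_fromBlocks₁₁, toBlocks_fromBlocks₁₂, toBlocks_fromBlocks₂₁,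
    toBlocks_fromBlocks₂₂, kr_smul', smul_smul, ← add_smul]
  congr 1
  · congr 1
    simp [gadc]
    ring
  · congr 1
    simp [gadc]
    ring

theorem lowerG (γ ν : ℝ) (h0 : 0 ≤ γ) (h1 : γ ≤ 1) (n0 : 0 ≤ ν) (n1 : ν ≤ 1)
    {ε : Type*} [Fintype ε] (K : ε → Matrix ι ι ℂ)
    (hK : ∑ e, (K e)ᴴ * K e = 1) (r1 r2 : ℝ) (hr1 : r1 ∈ hol (gadc γ ν))
    (hr2 : r2 ∈ hol (kr K)) : r1 + r2 ∈ hol (dchanG γ ν (kr K)) := by
  obtain ⟨α, _, q, ρ, hq, hqs, hρ, rfl⟩ := hr1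
  obtain ⟨β, _, p, σ, hp, hps, hσ, rfl⟩ := hr2
  have hN : ∀ a, IsState (gadc γ ν (ρ a)) := fun a => gadcG_state γ ν h0 h1 n0 n1 (hρ a)
  have hM : ∀ b, IsState (kr K (σ b)) := fun b => kr_state K hK (hσ b)
  refine ⟨α × β, inferInstance, fun ab => q ab.1 * p ab.2, fun ab => tens (ρ ab.1) (σ ab.2),
    fun ab => mul_nonneg (hq _) (hp _), ?_, fun ab => tens_isState (hρ _) (hσ _), ?_⟩
  · rw [Fintype.sum_prod_type]
    simp only [← Finset.mul_sum, hps, mul_one, hqs]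
  · simp only [dchanG_tens]
    rw [tens_sum q p (fun a => gadc γ ν (ρ a)) (fun b => kr K (σ b)),
      ent_tens (mix_state q hq hqs _ hN) (mix_state p hp hps _ hM)]
    have e : ∑ ab : α × β, q ab.1 * p ab.2 * ent (tens (gadc γ ν (ρ ab.1)) (kr K (σ ab.2))) =
        ∑ a, q a * ent (gadc γ ν (ρ a)) + ∑ b, p b * ent (kr K (σ b)) := by
      have e1 : ∀ ab : α × β, q ab.1 * p ab.2 * ent (tens (gadc γ ν (ρ ab.1)) (kr K (σ ab.2))) =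
          (q ab.1 * ent (gadc γ ν (ρ ab.1))) * p ab.2 + q ab.1 * (p ab.2 * ent (kr K (σ ab.2))) := by
        intro ab
        rw [ent_tens (hN _) (hM _)]
        ring
      rw [Finset.sum_congr rfl fun ab _ => e1 ab, Finset.sum_add_distrib, Fintype.sum_prod_type,
        Fintype.sum_prod_type]
      simp only [← Finset.mul_sum, ← Finset.sum_mul, hps, hqs, mul_one, one_mul]
    rw [e]
    ring

end Vale.Agent.P358
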