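import Vale.Agent.P358.Ent

/-!
# P358, module Tensor: Kraus form of the tensor powers, recursion over the number of uses
-/

namespace Vale.Agent.P358

open Matrix
open scoped ComplexOrder

/-! ### Kraus operators -/

/-- the two Kraus operators of the amplitude-damping channel -/
noncomputable def ko (γ : ℝ) (e : Fin 2) : Matrix (Fin 2) (Fin 2) ℂ :=
  if e = 0 then !![1, 0; 0, (Real.sqrt (1 - γ) : ℂ)] else !![0, (Real.sqrt γ : ℂ); 0, 0]

theorem tcsqrt_mul {x : ℝ} (hx : 0 ≤ x) :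
    (Real.sqrt x : ℂ) * (Real.sqrt x : ℂ) = ((x : ℝ) : ℂ) := by
  rw [← Complex.ofReal_mul, Real.mul_self_sqrt hx]

theorem ko_sum (γ : ℝ) (h0 : 0 ≤ γ) (h1 : γ ≤ 1) (a b y y' : Fin 2) :
    gadc γ 0 (Matrix.single y y' 1) a b = ∑ e, ko γ e a y * star (ko γ e b y') := by
  have s1 := tcsqrt_mul h0
  have s2 := tcsqrt_mul (sub_nonneg.2 h1)
  have hs : star (Real.sqrt γ : ℂ) = (Real.sqrt γ : ℂ) := Complex.conj_ofReal _
  have hs1 : star (Real.sqrt (1 - γ) : ℂ) = (Real.sqrt (1 - γ) : ℂ) := Complex.conj_ofReal _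
  rw [Fin.sum_univ_two]
  fin_cases a <;> fin_cases b <;> fin_cases y <;> fin_cases y' <;>
    simp [gadc, ko, Matrix.single, hs, hs1, s1, s2]

theorem ko_one (γ : ℝ) (h0 : 0 ≤ γ) (h1 : γ ≤ 1) (y y' : Fin 2) :
    ∑ e, ∑ x, star (ko γ e x y) * ko γ e x y' = if y = y' then 1 else 0 := by
  have s1 := tcsqrt_mul h0
  have s2 := tcsqrt_mul (sub_nonneg.2 h1)
  have hs : star (Real.sqrt γ : ℂ) = (Real.sqrt γ : ℂ) := Complex.conj_ofReal _
  have hs1 : star (Real.sqrt (1 - γ) : ℂ) = (Real.sqrt (1 - γ) : ℂ) := Complex.conj_ofReal _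
  simp only [Fin.sum_univ_two]
  fin_cases y <;> fin_cases y' <;> simp [ko, hs, hs1, s1, s2]

/-- tensor products of the Kraus operators -/
noncomputable def kt (γ : ℝ) (n : ℕ) (e : Fin n → Fin 2) :
    Matrix (Fin n → Fin 2) (Fin n → Fin 2) ℂ :=
  fun x y => ∏ i, ko γ (e i) (x i) (y i)

theorem kt_apply (γ : ℝ) (n : ℕ) (e x y : Fin n → Fin 2) :
    kt γ n e x y = ∏ i, ko γ (e i) (x i) (y i) := rfl

theorem prod_sum_fin2 {n : ℕ} (f : Fin n → Fin 2 → ℂ) :
    ∏ i, ∑ j, f i j = ∑ e : Fin n → Fin 2, ∏ i, f i (e i) := by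
  rw [Finset.prod_univ_sum, Fintype.piFinset_univ]

theorem kt_one (γ : ℝ) (h0 : 0 ≤ γ) (h1 : γ ≤ 1) (n : ℕ) :
    ∑ e, (kt γ n e)ᴴ * kt γ n e = 1 := by
  ext y y'
  rw [Matrix.sum_apply]
  have h2 : ∀ e : Fin n → Fin 2, ((kt γ n e)ᴴ * kt γ n e) y y' =
      ∏ i, ∑ x, star (ko γ (e i) x (y i)) * ko γ (e i) x (y' i) := by
    intro e
    rw [Matrix.mul_apply, prod_sum_fin2]
    refine Finset.sum_congr rfl fun x _ => ?_
    rw [conjTranspose_apply, kt_apply, kt_apply, star_prod, ← Finset.prod_mul_distrib]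
  rw [Finset.sum_congr rfl fun e _ => h2 e,
    ← prod_sum_fin2 (fun i e => ∑ x, star (ko γ e x (y i)) * ko γ e x (y' i))]
  rw [Finset.prod_congr rfl fun i _ => ko_one γ h0 h1 (y i) (y' i), Matrix.one_apply]
  by_cases h : y = y'
  · rw [if_pos h]
    refine Finset.prod_eq_one fun i _ => ?_
    rw [if_pos (congrFun h i)]
  · rw [if_neg h]
    obtain ⟨i, hi⟩ := Function.ne_iff.1 h
    exact Finset.prod_eq_zero (Finset.mem_univ i) (if_neg hi)

theorem gpow_eq_kr (γ : ℝ) (h0 : 0 ≤ γ) (h1 : γ ≤ 1) (n : ℕ) :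
    ∃ K : (Fin n → Fin 2) → Matrix (Fin n → Fin 2) (Fin n → Fin 2) ℂ,
      ∑ e, (K e)ᴴ * K e = 1 ∧ gpow γ 0 n = kr K := by
  refine ⟨kt γ n, kt_one γ h0 h1 n, ?_⟩
  funext ρ
  ext x x'
  unfold kr
  rw [Matrix.sum_apply]
  have hL : gpow γ 0 n ρ x x' = ∑ y, ∑ y', ∑ e : Fin n → Fin 2,
      kt γ n e x y * ρ y y' * star (kt γ n e x' y') := by
    unfold gpow
    refine Finset.sum_congr rfl fun y _ => Finset.sum_congr rfl fun y' _ => ?_
    rw [Finset.prod_congr rfl fun i _ => ko_sum γ h0 h1 (x i) (x' i) (y i) (y' i),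
      prod_sum_fin2 (fun i e => ko γ e (x i) (y i) * star (ko γ e (x' i) (y' i))), Finset.sum_mul]
    refine Finset.sum_congr rfl fun e _ => ?_
    rw [Finset.prod_mul_distrib, kt_apply, kt_apply, star_prod]
    ring
  rw [hL]
  have hR : ∀ e : Fin n → Fin 2, (kt γ n e * ρ * (kt γ n e)ᴴ) x x' =
      ∑ y, ∑ y', kt γ n e x y * ρ y y' * star (kt γ n e x' y') := by
    intro e
    rw [Matrix.mul_apply, Finset.sum_comm]
    refine Finset.sum_congr rfl fun y' _ => ?_
    rw [Matrix.mul_apply, Finset.sum_mul]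
    rfl
  rw [Finset.sum_congr rfl fun e _ => hR e, Finset.sum_comm]
  rw [Finset.sum_congr rfl fun y _ => Finset.sum_comm]
  rw [Finset.sum_comm]
  rw [Finset.sum_congr rfl fun y _ => Finset.sum_comm]

/-! ### the recursion -/

/-- splitting off the first letter -/
def spl (n : ℕ) : (Fin n → Fin 2) ⊕ (Fin n → Fin 2) ≃ (Fin (n + 1) → Fin 2) where
  toFun := Sum.elim (fun x => Fin.cons 0 x) (fun x => Fin.cons 1 x)
  invFun := fun y => if y 0 = 0 then Sum.inl (Fin.tail y) else Sum.inr (Fin.tail y)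
  left_inv := by
    rintro (x | x)
    · simp
    · simp
  right_inv := by
    intro y
    by_cases h : y 0 = 0
    · simp only [h, if_true, Sum.elim_inl]
      rw [← h, Fin.cons_self_tail]
    · have h1 : y 0 = 1 := by
        have := Fin.isLt (y 0)
        omega
      simp only [h, if_false, Sum.elim_inr]
      rw [← h1, Fin.cons_self_tail]

theorem spl_inl (n : ℕ) (x : Fin n → Fin 2) : spl n (Sum.inl x) = Fin.cons 0 x := rfl
theorem spl_inr (n : ℕ) (x : Fin n → Fin 2) : spl n (Sum.inr x) = Fin.cons 1 x := rfl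

theorem sum_spl {n : ℕ} (f : (Fin (n + 1) → Fin 2) → ℂ) :
    ∑ y, f y = ∑ c : Fin 2, ∑ y : Fin n → Fin 2, f (Fin.cons c y) := by
  rw [← Equiv.sum_comp (spl n), Fintype.sum_sum_type, Fin.sum_univ_two]
  rfl

theorem gpow_cons (γ : ℝ) (n : ℕ) (R : Matrix (Fin (n + 1) → Fin 2) (Fin (n + 1) → Fin 2) ℂ)
    (a b : Fin 2) (x x' : Fin n → Fin 2) :
    gpow γ 0 (n + 1) R (Fin.cons a x) (Fin.cons b x') =
      ∑ c : Fin 2, ∑ d : Fin 2, gadc γ 0 (Matrix.single c d 1) a b *
        gpow γ 0 n (fun y y' => R (Fin.cons c y) (Fin.cons d y')) x x' := by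
  unfold gpow
  rw [sum_spl]
  refine Finset.sum_congr rfl fun c _ => ?_
  have h1 : ∀ y : Fin n → Fin 2, (∑ y' : Fin (n + 1) → Fin 2,
      (∏ i, gadc γ 0 (Matrix.single ((Fin.cons c y : Fin (n + 1) → Fin 2) i) (y' i) 1)
        ((Fin.cons a x : Fin (n + 1) → Fin 2) i) ((Fin.cons b x' : Fin (n + 1) → Fin 2) i)) *
        R (Fin.cons c y) y') =
      ∑ d : Fin 2, ∑ y' : Fin n → Fin 2, gadc γ 0 (Matrix.single c d 1) a b *
        ((∏ i, gadc γ 0 (Matrix.single (y i) (y' i) 1) (x i) (x' i)) *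
          R (Fin.cons c y) (Fin.cons d y')) := by
    intro y
    rw [sum_spl]
    refine Finset.sum_congr rfl fun d _ => Finset.sum_congr rfl fun y' _ => ?_
    rw [Fin.prod_univ_succ]
    simp only [Fin.cons_zero, Fin.cons_succ]
    ring
  rw [Finset.sum_congr rfl fun y _ => h1 y, Finset.sum_comm]
  refine Finset.sum_congr rfl fun d _ => ?_
  rw [Finset.mul_sum]
  refine Finset.sum_congr rfl fun y _ => ?_
  rw [Finset.mul_sum]

theorem gpow_submatrix (γ : ℝ) (n : ℕ)
    (R : Matrix (Fin (n + 1) → Fin 2) (Fin (n + 1) → Fin 2) ℂ) :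
    (gpow γ 0 (n + 1) R).submatrix (spl n) (spl n) =
      dchan γ (gpow γ 0 n) (R.submatrix (spl n) (spl n)) := by
  ext s t
  rcases s with x | x <;> rcases t with x' | x' <;>
    simp only [submatrix_apply, spl_inl, spl_inr, gpow_cons, dchan, fromBlocks_apply₁₁,
      fromBlocks_apply₁₂, fromBlocks_apply₂₁, fromBlocks_apply₂₂, Fin.sum_univ_two,
      Matrix.add_apply, Matrix.smul_apply, smul_eq_mul]
  · simp [gadc, Matrix.single]
    rfl
  · simp [gadc, Matrix.single]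
    left
    rfl
  · simp [gadc, Matrix.single]
    left
    rfl
  · simp [gadc, Matrix.single]
    left
    rfl

theorem isState_submatrix {ι κ : Type*} [Fintype ι] [Fintype κ] (e : κ ≃ ι) {ρ : Matrix ι ι ℂ}
    (h : IsState ρ) : IsState (ρ.submatrix e e) := by
  refine ⟨h.1.submatrix e, ?_⟩
  rw [← h.2]
  unfold Matrix.trace
  exact Equiv.sum_comp e (fun i => ρ i i)

theorem submatrix_sum_smul {ι κ α : Type*} [Fintype α] (e : κ ≃ ι) (q : α → ℝ)
    (M : α → Matrix ι ι ℂ) :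
    (∑ a, (q a : ℂ) • M a).submatrix e e = ∑ a, (q a : ℂ) • (M a).submatrix e e := by
  ext i j
  simp only [submatrix_apply, Matrix.sum_apply, Matrix.smul_apply]

theorem hol_gpow_succ (γ : ℝ) (n : ℕ) :
    hol (gpow γ 0 (n + 1)) = hol (dchan γ (gpow γ 0 n)) := by
  ext r
  constructor
  · rintro ⟨α, hα, q, ρ, h1, h2, h3, h4⟩
    refine ⟨α, hα, q, fun a => (ρ a).submatrix (spl n) (spl n), h1, h2,
      fun a => isState_submatrix (spl n) (h3 a), ?_⟩
    rw [h4, ← ent_submatrix (spl n), submatrix_sum_smul]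
    simp only [gpow_submatrix]
    congr 1
    refine Finset.sum_congr rfl fun a _ => ?_
    rw [← ent_submatrix (spl n) (gpow γ 0 (n + 1) (ρ a)), gpow_submatrix]
  · rintro ⟨α, hα, q, ρ, h1, h2, h3, h4⟩
    have hback : ∀ a, ((ρ a).submatrix (spl n).symm (spl n).symm).submatrix (spl n) (spl n) =
        ρ a := by
      intro a
      ext i j
      simp
    refine ⟨α, hα, q, fun a => (ρ a).submatrix (spl n).symm (spl n).symm, h1, h2,
      fun a => isState_submatrix (spl n).symm (h3 a), ?_⟩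
    rw [h4, ← ent_submatrix (spl n)
      (∑ a, (q a : ℂ) • gpow γ 0 (n + 1) ((ρ a).submatrix (spl n).symm (spl n).symm)),
      submatrix_sum_smul]
    simp only [gpow_submatrix, hback]
    congr 1
    refine Finset.sum_congr rfl fun a _ => ?_
    rw [← ent_submatrix (spl n)
      (gpow γ 0 (n + 1) ((ρ a).submatrix (spl n).symm (spl n).symm)), gpow_submatrix, hback]

theorem gpow_zero (γ : ℝ) (ρ : Matrix (Fin 0 → Fin 2) (Fin 0 → Fin 2) ℂ) :
    gpow γ 0 0 ρ = ρ := by
  ext x x'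
  unfold gpow
  simp only [Finset.univ_eq_empty, Finset.prod_empty, one_mul]
  rw [Fintype.sum_subsingleton _ x, Fintype.sum_subsingleton _ x']

theorem ent_state_zero {ρ : Matrix (Fin 0 → Fin 2) (Fin 0 → Fin 2) ℂ} (h : IsState ρ) :
    ent ρ = 0 := by
  have hH : ρ.IsHermitian := h.1.1
  have h1 := eig_sum hH
  rw [h.2, Fintype.sum_subsingleton _ (default : Fin 0 → Fin 2), Complex.one_re] at h1
  rw [ent_eq_eig hH, Fintype.sum_subsingleton _ (default : Fin 0 → Fin 2), h1,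
    Real.negMulLog_one]

theorem hol_gpow_zero (γ : ℝ) : hol (gpow γ 0 0) = {0} := by
  ext r
  rw [Set.mem_singleton_iff]
  constructor
  · rintro ⟨α, hα, q, ρ, h1, h2, h3, h4⟩
    rw [h4]
    have e1 : ∑ a, q a * ent (gpow γ 0 0 (ρ a)) = 0 := by
      refine Finset.sum_eq_zero fun a _ => ?_
      rw [gpow_zero, ent_state_zero (h3 a), mul_zero]
    have e2 : IsState (∑ a, (q a : ℂ) • gpow γ 0 0 (ρ a)) := by
      constructor
      · refine Matrix.posSemidef_sum _ fun a _ => ?_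
        rw [gpow_zero]
        exact (h3 a).1.smul (by exact_mod_cast h1 a)
      · rw [Matrix.trace_sum]
        have h5 : ∀ a ∈ (Finset.univ : Finset α),
            ((q a : ℂ) • gpow γ 0 0 (ρ a)).trace = (q a : ℂ) := by
          intro a _
          rw [Matrix.trace_smul, gpow_zero, (h3 a).2, smul_eq_mul, mul_one]
        rw [Finset.sum_congr rfl h5, ← Complex.ofReal_sum, h2, Complex.ofReal_one]
    rw [e1, ent_state_zero e2, sub_zero]
  · rintro rfl
    have hs : IsState (1 : Matrix (Fin 0 → Fin 2) (Fin 0 → Fin 2) ℂ) := by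
      refine ⟨Matrix.PosSemidef.one, ?_⟩
      rw [Matrix.trace_one]
      simp
    refine ⟨Unit, inferInstance, fun _ => 1, fun _ => 1, fun _ => zero_le_one, ?_, fun _ => hs, ?_⟩
    · simp
    · simp only [gpow_zero, Complex.ofReal_one, one_smul, Finset.univ_unique,
        Finset.sum_const, Finset.card_singleton]
      rw [ent_state_zero hs]
      simp

end Vale.Agent.P358
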