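import Vale.Agent.P358.Upper
import Vale.Agent.P358.Lower
import Vale.Agent.P358.Tensor
import Vale.Agent.P358.Kraus
import Vale.Agent.P358.Ent

/-! # P358: the main theorem at `ν = 0` from the modules -/

namespace Vale.Agent.P358

open Matrix
open scoped ComplexOrder

variable {ι κ : Type*} [Fintype ι] [DecidableEq ι] [Fintype κ] [DecidableEq κ]

theorem state_single (i : ι) : IsState (Matrix.single i i (1 : ℂ)) := by
  constructor
  · rw [← Matrix.diagonal_single]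
    refine Matrix.PosSemidef.diagonal ?_
    intro j
    by_cases h : j = i
    · subst h
      simp
    · simp [Pi.single_apply, h]
  · rw [Matrix.trace_single_eq_same]

theorem hol_nonempty [Nonempty ι] (Φ : Matrix ι ι ℂ → Matrix κ κ ℂ) : (hol Φ).Nonempty := by
  obtain ⟨i⟩ := ‹Nonempty ι›
  exact ⟨_, Unit, inferInstance, fun _ => 1, fun _ => Matrix.single i i 1, fun _ => zero_le_one,
    by simp, fun _ => state_single i, rfl⟩

theorem sum_state {α : Type*} [Fintype α] (q : α → ℝ) (hq : ∀ a, 0 ≤ q a) (hs : ∑ a, q a = 1)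
    (M : α → Matrix ι ι ℂ) (hM : ∀ a, IsState (M a)) : IsState (∑ a, (q a : ℂ) • M a) := by
  constructor
  · refine Matrix.posSemidef_sum _ fun a _ => ?_
    refine (hM a).1.smul ?_
    exact_mod_cast hq a
  · rw [Matrix.trace_sum]
    calc ∑ a, ((q a : ℂ) • M a).trace = ∑ a, (q a : ℂ) := by
          refine Finset.sum_congr rfl fun a _ => ?_
          rw [Matrix.trace_smul, (hM a).2, smul_eq_mul, mul_one]
      _ = 1 := by exact_mod_cast hs

theorem hol_bdd {ε : Type*} [Fintype ε] (K : ε → Matrix ι ι ℂ) (hK : ∑ e, (K e)ᴴ * K e = 1) :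
    BddAbove (hol (kr K)) := by
  refine ⟨Fintype.card ι, ?_⟩
  rintro r ⟨α, _, q, ρ, hq, hs, hρ, rfl⟩
  have h1 : ∀ a, IsState (kr K (ρ a)) := fun a =>
    ⟨kr_psd K (hρ a).1, by rw [kr_trace K hK, (hρ a).2]⟩
  have h2 : IsState (∑ a, (q a : ℂ) • kr K (ρ a)) := sum_state q hq hs _ h1
  have h3 := ent_le_card h2
  have h4 : 0 ≤ ∑ a, q a * ent (kr K (ρ a)) :=
    Finset.sum_nonneg fun a _ => mul_nonneg (hq a) (ent_nonneg (h1 a))
  linarith

theorem holevoSet_eq {ι κ : Type*} [Fintype ι] [Fintype κ] [DecidableEq κ]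
    (Φ : Matrix ι ι ℂ → Matrix κ κ ℂ) : holevoSet Φ = (fun r => r / Real.log 2) '' hol Φ := by
  have key : ∀ (α : Type) (_ : Fintype α) (q : α → ℝ) (ρ : α → Matrix ι ι ℂ),
      vnS (∑ a, (q a : ℂ) • Φ (ρ a)) - ∑ a, q a * vnS (Φ (ρ a))
      = (ent (∑ a, (q a : ℂ) • Φ (ρ a)) - ∑ a, q a * ent (Φ (ρ a))) / Real.log 2 := by
    intro α _ q ρ
    unfold vnS
    rw [sub_div, Finset.sum_div]
    congr 1
    refine Finset.sum_congr rfl fun a _ => ?_
    rw [mul_div_assoc]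
  ext r
  constructor
  · rintro ⟨α, i, q, ρ, hq, hs, hρ, rfl⟩
    exact ⟨_, ⟨α, i, q, ρ, hq, hs, hρ, rfl⟩, (key α i q ρ).symm⟩
  · rintro ⟨_, ⟨α, i, q, ρ, hq, hs, hρ, rfl⟩, rfl⟩
    exact ⟨α, i, q, ρ, hq, hs, hρ, (key α i q ρ).symm⟩

theorem chi_eq {ι κ : Type*} [Fintype ι] [DecidableEq ι] [Nonempty ι] [Fintype κ] [DecidableEq κ]
    (Φ : Matrix ι ι ℂ → Matrix κ κ ℂ) (hb : BddAbove (hol Φ)) :
    chi Φ = sSup (hol Φ) / Real.log 2 := by
  unfold chi
  rw [holevoSet_eq]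
  have hm : Monotone (fun r : ℝ => r / Real.log 2) := fun a b hab =>
    div_le_div_of_nonneg_right hab (Real.log_nonneg (by norm_num))
  exact (hm.map_csSup_of_continuousAt (Continuous.continuousAt (by fun_prop)) (hol_nonempty Φ)
    hb).symm

theorem bdd_gpow (γ : ℝ) (h0 : 0 ≤ γ) (h1 : γ ≤ 1) (n : ℕ) : BddAbove (hol (gpow γ 0 n)) := by
  obtain ⟨K, hK, he⟩ := gpow_eq_kr γ h0 h1 n
  rw [he]
  exact hol_bdd K hK

theorem bdd_gadc (γ : ℝ) (h0 : 0 ≤ γ) (h1 : γ ≤ 1) : BddAbove (hol (gadc γ 0)) := by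
  obtain ⟨K, hK, he⟩ := gpow_eq_kr γ h0 h1 0
  have hb := bdd_gpow γ h0 h1 1
  rw [hol_gpow_succ, he] at hb
  obtain ⟨c, hc⟩ := hb
  have hz : (0 : ℝ) ∈ hol (kr K) := by
    rw [← he, hol_gpow_zero]
    exact rfl
  refine ⟨c, fun r hr => ?_⟩
  have := hc (lower γ h0 h1 K hK r 0 hr hz)
  linarith

theorem sup_succ (γ : ℝ) (h0 : 0 ≤ γ) (h1 : γ ≤ 1) (n : ℕ) :
    sSup (hol (gpow γ 0 (n + 1))) = sSup (hol (gadc γ 0)) + sSup (hol (gpow γ 0 n)) := by
  have b1 := bdd_gpow γ h0 h1 (n + 1)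
  have b2 := bdd_gpow γ h0 h1 n
  have b3 := bdd_gadc γ h0 h1
  obtain ⟨K, hK, he⟩ := gpow_eq_kr γ h0 h1 n
  apply le_antisymm
  · refine csSup_le (hol_nonempty _) fun r hr => ?_
    rw [hol_gpow_succ, he] at hr
    obtain ⟨r1, hr1, r2, hr2, hle⟩ := upper γ h0 h1 K hK r hr
    rw [← he] at hr2
    have k1 := le_csSup b3 hr1
    have k2 := le_csSup b2 hr2
    linarith
  · have key : ∀ r1 ∈ hol (gadc γ 0), ∀ r2 ∈ hol (gpow γ 0 n),
        r1 + r2 ≤ sSup (hol (gpow γ 0 (n + 1))) := by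
      intro r1 hr1 r2 hr2
      refine le_csSup b1 ?_
      rw [hol_gpow_succ, he]
      rw [he] at hr2
      exact lower γ h0 h1 K hK r1 r2 hr1 hr2
    have k1 : ∀ r2 ∈ hol (gpow γ 0 n),
        sSup (hol (gadc γ 0)) ≤ sSup (hol (gpow γ 0 (n + 1))) - r2 := fun r2 hr2 =>
      csSup_le (hol_nonempty _) fun r1 hr1 => by
        have := key r1 hr1 r2 hr2
        linarith
    have k2 : sSup (hol (gpow γ 0 n)) ≤
        sSup (hol (gpow γ 0 (n + 1))) - sSup (hol (gadc γ 0)) :=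
      csSup_le (hol_nonempty _) fun r2 hr2 => by
        have := k1 r2 hr2
        linarith
    linarith

theorem main_thm (γ : ℝ) (h0 : 0 ≤ γ) (h1 : γ ≤ 1) :
    (∀ n, BddAbove (holevoSet (gpow γ 0 n))) ∧
    (∀ n : ℕ, chi (gpow γ 0 n) = n * chi (gadc γ 0)) ∧
    capacity γ 0 = chi (gadc γ 0) := by
  have hlog : 0 < Real.log 2 := Real.log_pos (by norm_num)
  have hc : ∀ n : ℕ, chi (gpow γ 0 n) = n * chi (gadc γ 0) := by
    intro n
    rw [chi_eq _ (bdd_gpow γ h0 h1 n), chi_eq _ (bdd_gadc γ h0 h1), ← mul_div_assoc]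
    congr 1
    induction n with
    | zero => rw [hol_gpow_zero, csSup_singleton, Nat.cast_zero, zero_mul]
    | succ n ih =>
        rw [sup_succ γ h0 h1 n, ih]
        push_cast
        ring
  refine ⟨fun n => ?_, hc, ?_⟩
  · rw [holevoSet_eq]
    obtain ⟨c, hcc⟩ := bdd_gpow γ h0 h1 n
    refine ⟨c / Real.log 2, ?_⟩
    rintro _ ⟨r, hr, rfl⟩
    exact div_le_div_of_nonneg_right (hcc hr) hlog.le
  · unfold capacity
    have hset : {r | ∃ n : ℕ, 1 ≤ n ∧ r = chi (gpow γ 0 n) / n} = {chi (gadc γ 0)} := by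
      ext r
      simp only [Set.mem_setOf_eq, Set.mem_singleton_iff]
      constructor
      · rintro ⟨n, hn, rfl⟩
        rw [hc n]
        have : (n : ℝ) ≠ 0 := by positivity
        field_simp
      · rintro rfl
        exact ⟨1, le_rfl, by rw [hc 1]; simp⟩
    rw [hset, csSup_singleton]

end Vale.Agent.P358
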