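import Vale.Agent.P358.Tensor
import Vale.Agent.P358.DefsG

/-!
# P358, module TensorG: Kraus form of the tensor powers and recursion, general `ν`
-/

namespace Vale.Agent.P358

open Matrix
open scoped ComplexOrder

/-- the four Kraus operators of the generalized amplitude-damping channel -/
noncomputable def koG (γ ν : ℝ) (e : Fin 4) : Matrix (Fin 2) (Fin 2) ℂ :=
  if e = 0 then !![(Real.sqrt (1 - ν) : ℂ), 0; 0, (Real.sqrt (1 - ν) : ℂ) * Real.sqrt (1 - γ)]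
  else if e = 1 then !![0, (Real.sqrt (1 - ν) : ℂ) * Real.sqrt γ; 0, 0]
  else if e = 2 then !![(Real.sqrt ν : ℂ) * Real.sqrt (1 - γ), 0; 0, (Real.sqrt ν : ℂ)]
  else !![0, 0; (Real.sqrt ν : ℂ) * Real.sqrt γ, 0]

theorem csqrt_sq {x : ℝ} (hx : 0 ≤ x) : (Real.sqrt x : ℂ) ^ 2 = ((x : ℝ) : ℂ) := by
  rw [← Complex.ofReal_pow, Real.sq_sqrt hx]

theorem koG_sum (γ ν : ℝ) (h0 : 0 ≤ γ) (h1 : γ ≤ 1) (n0 : 0 ≤ ν) (n1 : ν ≤ 1)
    (a b y y' : Fin 2) :
    gadc γ ν (Matrix.single y y' 1) a b = ∑ e, koG γ ν e a y * star (koG γ ν e b y') := by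
  have s1 := csqrt_sq h0
  have s2 := csqrt_sq (sub_nonneg.2 h1)
  have s3 := csqrt_sq n0
  have s4 := csqrt_sq (sub_nonneg.2 n1)
  push_cast at s2 s4
  have c1 : star (Real.sqrt γ : ℂ) = (Real.sqrt γ : ℂ) := Complex.conj_ofReal _
  have c2 : star (Real.sqrt (1 - γ) : ℂ) = (Real.sqrt (1 - γ) : ℂ) := Complex.conj_ofReal _
  have c3 : star (Real.sqrt ν : ℂ) = (Real.sqrt ν : ℂ) := Complex.conj_ofReal _
  have c4 : star (Real.sqrt (1 - ν) : ℂ) = (Real.sqrt (1 - ν) : ℂ) := Complex.conj_ofReal _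
  rw [Fin.sum_univ_four]
  fin_cases a <;> fin_cases b <;> fin_cases y <;> fin_cases y' <;>
    simp [gadc, koG, Matrix.single, c1, c2, c3, c4]
  all_goals ring_nf
  all_goals simp only [s1, s2, s3, s4]
  all_goals ring

theorem koG_one (γ ν : ℝ) (h0 : 0 ≤ γ) (h1 : γ ≤ 1) (n0 : 0 ≤ ν) (n1 : ν ≤ 1) (y y' : Fin 2) :
    ∑ e, ∑ x, star (koG γ ν e x y) * koG γ ν e x y' = if y = y' then 1 else 0 := by
  have s1 := csqrt_sq h0
  have s2 := csqrt_sq (sub_nonneg.2 h1)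
  have s3 := csqrt_sq n0
  have s4 := csqrt_sq (sub_nonneg.2 n1)
  push_cast at s2 s4
  have c1 : star (Real.sqrt γ : ℂ) = (Real.sqrt γ : ℂ) := Complex.conj_ofReal _
  have c2 : star (Real.sqrt (1 - γ) : ℂ) = (Real.sqrt (1 - γ) : ℂ) := Complex.conj_ofReal _
  have c3 : star (Real.sqrt ν : ℂ) = (Real.sqrt ν : ℂ) := Complex.conj_ofReal _
  have c4 : star (Real.sqrt (1 - ν) : ℂ) = (Real.sqrt (1 - ν) : ℂ) := Complex.conj_ofReal _
  simp only [Fin.sum_univ_four, Fin.sum_univ_two]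
  fin_cases y <;> fin_cases y' <;> simp [koG, c1, c2, c3, c4]
  all_goals ring_nf
  all_goals simp only [s1, s2, s3, s4]
  all_goals ring

/-- tensor products of the Kraus operators -/
noncomputable def ktG (γ ν : ℝ) (n : ℕ) (e : Fin n → Fin 4) :
    Matrix (Fin n → Fin 2) (Fin n → Fin 2) ℂ :=
  fun x y => ∏ i, koG γ ν (e i) (x i) (y i)

theorem ktG_apply (γ ν : ℝ) (n : ℕ) (e : Fin n → Fin 4) (x y : Fin n → Fin 2) :
    ktG γ ν n e x y = ∏ i, koG γ ν (e i) (x i) (y i) := rfl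

theorem prod_sum_fin4 {n : ℕ} (f : Fin n → Fin 4 → ℂ) :
    ∏ i, ∑ j, f i j = ∑ e : Fin n → Fin 4, ∏ i, f i (e i) := by
  rw [Finset.prod_univ_sum, Fintype.piFinset_univ]

theorem ktG_one (γ ν : ℝ) (h0 : 0 ≤ γ) (h1 : γ ≤ 1) (n0 : 0 ≤ ν) (n1 : ν ≤ 1) (n : ℕ) :
    ∑ e, (ktG γ ν n e)ᴴ * ktG γ ν n e = 1 := by
  ext y y'
  rw [Matrix.sum_apply]
  have h2 : ∀ e : Fin n → Fin 4, ((ktG γ ν n e)ᴴ * ktG γ ν n e) y y' =
      ∏ i, ∑ x, star (koG γ ν (e i) x (y i)) * koG γ ν (e i) x (y' i) := by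
    intro e
    rw [Matrix.mul_apply, prod_sum_fin2]
    refine Finset.sum_congr rfl fun x _ => ?_
    rw [conjTranspose_apply, ktG_apply, ktG_apply, star_prod, ← Finset.prod_mul_distrib]
  rw [Finset.sum_congr rfl fun e _ => h2 e,
    ← prod_sum_fin4 (fun i e => ∑ x, star (koG γ ν e x (y i)) * koG γ ν e x (y' i))]
  rw [Finset.prod_congr rfl fun i _ => koG_one γ ν h0 h1 n0 n1 (y i) (y' i), Matrix.one_apply]
  by_cases h : y = y'
  · rw [if_pos h]
    refine Finset.prod_eq_one fun i _ => ?_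
    rw [if_pos (congrFun h i)]
  · rw [if_neg h]
    obtain ⟨i, hi⟩ := Function.ne_iff.1 h
    exact Finset.prod_eq_zero (Finset.mem_univ i) (if_neg hi)

/-- Kraus form of the tensor power of the generalized channel (index `Fin n → Fin 4`). -/
theorem gpow_eq_krG (γ ν : ℝ) (h0 : 0 ≤ γ) (h1 : γ ≤ 1) (n0 : 0 ≤ ν) (n1 : ν ≤ 1) (n : ℕ) :
    ∃ K : (Fin n → Fin 4) → Matrix (Fin n → Fin 2) (Fin n → Fin 2) ℂ,
      ∑ e, (K e)ᴴ * K e = 1 ∧ gpow γ ν n = kr K := by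
  refine ⟨ktG γ ν n, ktG_one γ ν h0 h1 n0 n1 n, ?_⟩
  funext ρ
  ext x x'
  unfold kr
  rw [Matrix.sum_apply]
  have hL : gpow γ ν n ρ x x' = ∑ y, ∑ y', ∑ e : Fin n → Fin 4,
      ktG γ ν n e x y * ρ y y' * star (ktG γ ν n e x' y') := by
    unfold gpow
    refine Finset.sum_congr rfl fun y _ => Finset.sum_congr rfl fun y' _ => ?_
    rw [Finset.prod_congr rfl fun i _ => koG_sum γ ν h0 h1 n0 n1 (x i) (x' i) (y i) (y' i),
      prod_sum_fin4 (fun i e => koG γ ν e (x i) (y i) * star (koG γ ν e (x' i) (y' i))),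
      Finset.sum_mul]
    refine Finset.sum_congr rfl fun e _ => ?_
    rw [Finset.prod_mul_distrib, ktG_apply, ktG_apply, star_prod]
    ring
  rw [hL]
  have hR : ∀ e : Fin n → Fin 4, (ktG γ ν n e * ρ * (ktG γ ν n e)ᴴ) x x' =
      ∑ y, ∑ y', ktG γ ν n e x y * ρ y y' * star (ktG γ ν n e x' y') := by
    intro e
    rw [Matrix.mul_apply, Finset.sum_comm]
    refine Finset.sum_congr rfl fun y' _ => ?_
    rw [Matrix.mul_apply, Finset.sum_mul]
    rfl
  rw [Finset.sum_congr rfl fun e _ => hR e, Finset.sum_comm]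
  rw [Finset.sum_congr rfl fun y _ => Finset.sum_comm]
  rw [Finset.sum_comm]
  rw [Finset.sum_congr rfl fun y _ => Finset.sum_comm]

/-! ### the recursion -/

theorem gpow_consG (γ ν : ℝ) (n : ℕ)
    (R : Matrix (Fin (n + 1) → Fin 2) (Fin (n + 1) → Fin 2) ℂ)
    (a b : Fin 2) (x x' : Fin n → Fin 2) :
    gpow γ ν (n + 1) R (Fin.cons a x) (Fin.cons b x') =
      ∑ c : Fin 2, ∑ d : Fin 2, gadc γ ν (Matrix.single c d 1) a b *
        gpow γ ν n (fun y y' => R (Fin.cons c y) (Fin.cons d y')) x x' := by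
  unfold gpow
  rw [sum_spl]
  refine Finset.sum_congr rfl fun c _ => ?_
  have h1 : ∀ y : Fin n → Fin 2, (∑ y' : Fin (n + 1) → Fin 2,
      (∏ i, gadc γ ν (Matrix.single ((Fin.cons c y : Fin (n + 1) → Fin 2) i) (y' i) 1)
        ((Fin.cons a x : Fin (n + 1) → Fin 2) i) ((Fin.cons b x' : Fin (n + 1) → Fin 2) i)) *
        R (Fin.cons c y) y') =
      ∑ d : Fin 2, ∑ y' : Fin n → Fin 2, gadc γ ν (Matrix.single c d 1) a b *
        ((∏ i, gadc γ ν (Matrix.single (y i) (y' i) 1) (x i) (x' i)) *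
          R (Fin.cons c y) (Fin.cons d y')) := by
    intro y
    rw [sum_spl]
    refine Finset.sum_congr rfl fun d _ => Finset.sum_congr rfl fun y' _ => ?_
    rw [Fin.prod_univ_succ]
    simp only [Fin.cons_zero, Fin.cons_succ]
    ring
  rw [Finset.sum_congr rfl fun y _ => h1 y, Finset.sum_comm]
  refine Finset.sum_congr rfl fun d _ => ?_
  rw [Finset.mul_sum]
  refine Finset.sum_congr rfl fun y _ => ?_
  rw [Finset.mul_sum]

theorem gpow_submatrixG (γ ν : ℝ) (n : ℕ)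
    (R : Matrix (Fin (n + 1) → Fin 2) (Fin (n + 1) → Fin 2) ℂ) :
    (gpow γ ν (n + 1) R).submatrix (spl n) (spl n) =
      dchanG γ ν (gpow γ ν n) (R.submatrix (spl n) (spl n)) := by
  have b11 : (R.submatrix (spl n) (spl n)).toBlocks₁₁ =
      fun y y' => R (Fin.cons 0 y) (Fin.cons 0 y') := rfl
  have b12 : (R.submatrix (spl n) (spl n)).toBlocks₁₂ =
      fun y y' => R (Fin.cons 0 y) (Fin.cons 1 y') := rfl
  have b21 : (R.submatrix (spl n) (spl n)).toBlocks₂₁ =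
      fun y y' => R (Fin.cons 1 y) (Fin.cons 0 y') := rfl
  have b22 : (R.submatrix (spl n) (spl n)).toBlocks₂₂ =
      fun y y' => R (Fin.cons 1 y) (Fin.cons 1 y') := rfl
  unfold dchanG
  rw [b11, b12, b21, b22]
  ext s t
  rcases s with x | x <;> rcases t with x' | x' <;>
    simp only [submatrix_apply, spl_inl, spl_inr, gpow_consG, fromBlocks_apply₁₁,
      fromBlocks_apply₁₂, fromBlocks_apply₂₁, fromBlocks_apply₂₂, Fin.sum_univ_two,
      Matrix.add_apply, Matrix.smul_apply, smul_eq_mul]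
  all_goals
    simp [gadc, Matrix.single]
  all_goals
    left
    ring

theorem hol_gpow_succG (γ ν : ℝ) (n : ℕ) :
    hol (gpow γ ν (n + 1)) = hol (dchanG γ ν (gpow γ ν n)) := by
  ext r
  constructor
  · rintro ⟨α, hα, q, ρ, h1, h2, h3, h4⟩
    refine ⟨α, hα, q, fun a => (ρ a).submatrix (spl n) (spl n), h1, h2,
      fun a => isState_submatrix (spl n) (h3 a), ?_⟩
    rw [h4, ← ent_submatrix (spl n), submatrix_sum_smul]
    simp only [gpow_submatrixG]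
    congr 1
    refine Finset.sum_congr rfl fun a _ => ?_
    rw [← ent_submatrix (spl n) (gpow γ ν (n + 1) (ρ a)), gpow_submatrixG]
  · rintro ⟨α, hα, q, ρ, h1, h2, h3, h4⟩
    have hback : ∀ a, ((ρ a).submatrix (spl n).symm (spl n).symm).submatrix (spl n) (spl n) =
        ρ a := by
      intro a
      ext i j
      simp
    refine ⟨α, hα, q, fun a => (ρ a).submatrix (spl n).symm (spl n).symm, h1, h2,
      fun a => isState_submatrix (spl n).symm (h3 a), ?_⟩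
    rw [h4, ← ent_submatrix (spl n)
      (∑ a, (q a : ℂ) • gpow γ ν (n + 1) ((ρ a).submatrix (spl n).symm (spl n).symm)),
      submatrix_sum_smul]
    simp only [gpow_submatrixG, hback]
    congr 1
    refine Finset.sum_congr rfl fun a _ => ?_
    rw [← ent_submatrix (spl n)
      (gpow γ ν (n + 1) ((ρ a).submatrix (spl n).symm (spl n).symm)), gpow_submatrixG, hback]

theorem gpow_zeroG (γ ν : ℝ) (ρ : Matrix (Fin 0 → Fin 2) (Fin 0 → Fin 2) ℂ) :
    gpow γ ν 0 ρ = ρ := by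
  ext x x'
  unfold gpow
  simp only [Finset.univ_eq_empty, Finset.prod_empty, one_mul]
  rw [Fintype.sum_subsingleton _ x, Fintype.sum_subsingleton _ x']

theorem hol_gpow_zeroG (γ ν : ℝ) : hol (gpow γ ν 0) = {0} := by
  have h : gpow γ ν 0 = gpow γ 0 0 := by
    funext ρ
    rw [gpow_zeroG, gpow_zero]
  rw [h]
  exact hol_gpow_zero γ

theorem gpow_eq_kr_g {γ ν : ℝ} (h0 : 0 ≤ γ) (h1 : γ ≤ 1) (n0 : 0 ≤ ν) (n1 : ν ≤ 1) (n : ℕ) :
    ∃ K : (Fin n → Fin 4) → Matrix (Fin n → Fin 2) (Fin n → Fin 2) ℂ,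
      ∑ e, (K e)ᴴ * K e = 1 ∧ gpow γ ν n = kr K :=
  gpow_eq_krG γ ν h0 h1 n0 n1 n

theorem hol_gpow_succ_g (γ ν : ℝ) (n : ℕ) :
    hol (gpow γ ν (n + 1)) = hol (dchanG γ ν (gpow γ ν n)) := hol_gpow_succG γ ν n

theorem hol_gpow_zero_g (γ ν : ℝ) : hol (gpow γ ν 0) = {0} := hol_gpow_zeroG γ ν

end Vale.Agent.P358
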