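import Vale.Agent.P358.DefsG
import Vale.Agent.P358.Ent
import Vale.Agent.P358.Kraus

namespace Vale.Agent.P358

open Matrix
open scoped ComplexOrder

variable {ι ε : Type} [Fintype ι] [DecidableEq ι] [Fintype ε] [DecidableEq ε]

theorem exists_phase (f g : ι → ℂ) :
    ∃ u : ℂ, star u * u = 1 ∧ (∑ i, f i * star ((u • g) i)).im = 0 := by
  set z : ℂ := ∑ i, f i * star (g i) with hz
  have key : ∀ u : ℂ, ∑ i, f i * star ((u • g) i) = star u * z := by
    intro u
    rw [hz, Finset.mul_sum]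
    refine Finset.sum_congr rfl fun i _ => ?_
    rw [Pi.smul_apply, smul_eq_mul, star_mul]
    ring
  by_cases h : z = 0
  · refine ⟨1, by simp, ?_⟩
    rw [key, h]
    simp
  · refine ⟨z / (‖z‖ : ℂ), ?_, ?_⟩
    · have hn : (‖z‖ : ℂ) ≠ 0 := by
        simpa using h
      have h2 : star z * z = (‖z‖ : ℂ) * (‖z‖ : ℂ) := by
        have := Complex.conj_mul' z
        simpa [sq] using this
      have h3 : star (z / (‖z‖ : ℂ)) = star z / (‖z‖ : ℂ) := by
        simp
      rw [h3, div_mul_div_comm, h2]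
      field_simp
    · rw [key]
      have hn : (‖z‖ : ℂ) ≠ 0 := by
        simpa using h
      have h2 : star z * z = (‖z‖ : ℂ) * (‖z‖ : ℂ) := by
        have := Complex.conj_mul' z
        simpa [sq] using this
      have h3 : star (z / (‖z‖ : ℂ)) = star z / (‖z‖ : ℂ) := by
        simp
      rw [h3, div_mul_eq_mul_div, h2, mul_div_assoc, div_self hn, mul_one]
      simp

theorem kr_conjT_ph (K : ε → Matrix ι ι ℂ) (ρ : Matrix ι ι ℂ) : (kr K ρ)ᴴ = kr K ρᴴ := by
  unfold kr
  rw [Matrix.conjTranspose_sum]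
  refine Finset.sum_congr rfl fun e _ => ?_
  rw [conjTranspose_mul, conjTranspose_mul, conjTranspose_conjTranspose, mul_assoc]

theorem outer_conjT_ph (f g : ι → ℂ) : (outer f g)ᴴ = outer g f := by
  ext i j
  simp [outer, conjTranspose_apply, mul_comm]

theorem toBlocks_outer_ph (f g : ι → ℂ) :
    (outer (Sum.elim f g) (Sum.elim f g)).toBlocks₁₁ = outer f f ∧
    (outer (Sum.elim f g) (Sum.elim f g)).toBlocks₁₂ = outer f g ∧
    (outer (Sum.elim f g) (Sum.elim f g)).toBlocks₂₁ = outer g f ∧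
    (outer (Sum.elim f g) (Sum.elim f g)).toBlocks₂₂ = outer g g := by
  refine ⟨?_, ?_, ?_, ?_⟩ <;> rfl

theorem dchanG_herm_ph (γ ν : ℝ) (K : ε → Matrix ι ι ℂ) (f g : ι → ℂ) :
    (dchanG γ ν (kr K) (outer (Sum.elim f g) (Sum.elim f g))).IsHermitian := by
  obtain ⟨e1, e2, e3, e4⟩ := toBlocks_outer_ph f g
  unfold dchanG
  rw [e1, e2, e3, e4]
  have r : ∀ x : ℝ, star ((x : ℝ) : ℂ) = ((x : ℝ) : ℂ) := fun x => by simp
  refine Matrix.IsHermitian.fromBlocks ?_ ?_ ?_
  · rw [Matrix.IsHermitian, conjTranspose_add, conjTranspose_smul, conjTranspose_smul,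
      kr_conjT_ph, kr_conjT_ph, outer_conjT_ph, outer_conjT_ph, r, r]
  · rw [conjTranspose_smul, kr_conjT_ph, outer_conjT_ph, r]
  · rw [Matrix.IsHermitian, conjTranspose_add, conjTranspose_smul, conjTranspose_smul,
      kr_conjT_ph, kr_conjT_ph, outer_conjT_ph, outer_conjT_ph, r, r]

theorem dchanG_phase (γ ν : ℝ) (K : ε → Matrix ι ι ℂ) (f g : ι → ℂ) (u : ℂ) (hu : star u * u = 1) :
    ent (dchanG γ ν (kr K) (outer (Sum.elim f (u • g)) (Sum.elim f (u • g)))) =
      ent (dchanG γ ν (kr K) (outer (Sum.elim f g) (Sum.elim f g))) := by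
  have hu' : u * star u = 1 := by rw [mul_comm]; exact hu
  set W : Matrix (ι ⊕ ι) (ι ⊕ ι) ℂ := fromBlocks 1 0 0 (u • 1) with hW
  have hWH : Wᴴ = fromBlocks 1 0 0 (star u • 1) := by
    rw [hW, fromBlocks_conjTranspose, conjTranspose_smul, conjTranspose_one, conjTranspose_zero]
  have hWW : Wᴴ * W = 1 := by
    rw [hWH, hW, fromBlocks_multiply]
    simp only [mul_one, mul_zero, add_zero, zero_mul, zero_add]
    rw [smul_mul_smul_comm, hu, one_smul, mul_one, fromBlocks_one]
  have e : dchanG γ ν (kr K) (outer (Sum.elim f (u • g)) (Sum.elim f (u • g))) =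
      W * dchanG γ ν (kr K) (outer (Sum.elim f g) (Sum.elim f g)) * Wᴴ := by
    obtain ⟨e1, e2, e3, e4⟩ := toBlocks_outer_ph f g
    obtain ⟨e1', e2', e3', e4'⟩ := toBlocks_outer_ph f (u • g)
    have o1 : outer f (u • g) = star u • outer f g := by
      ext i j
      simp [outer, mul_comm, mul_left_comm]
    have o2 : outer (u • g) f = u • outer g f := by
      ext i j
      simp [outer, mul_assoc]
    have o3 : outer (u • g) (u • g) = outer g g := by
      ext i j
      have : u * g i * star (u * g j) = (u * star u) * (g i * star (g j)) := by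
        rw [star_mul]; ring
      simp only [outer, Pi.smul_apply, smul_eq_mul]
      rw [this, hu', one_mul]
    unfold dchanG
    rw [e1, e2, e3, e4, e1', e2', e3', e4', o1, o2, o3, kr_smul, kr_smul, hWH, hW,
      fromBlocks_multiply, fromBlocks_multiply]
    simp only [one_mul, mul_one, mul_zero, add_zero, zero_mul, zero_add, smul_mul_assoc,
      mul_smul_comm, smul_smul, smul_zero, hu, one_smul]
    congr 1
    rw [mul_comm]
  rw [e, ent_unitary (dchanG_herm_ph γ ν K f g) W hWW]

end Vale.Agent.P358
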