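import Vale.Agent.P358.Blk
import Vale.Agent.P358.EntConc
import Vale.Agent.P358.Kraus
import Vale.Agent.P358.Mu

/-!
P358 module Upper: subadditivity of the Holevo quantity for amplitude damping tensor a Kraus
channel.
-/

namespace Vale.Agent.P358

open Matrix
open scoped ComplexOrder

namespace Up

variable {ι κ : Type*} [Fintype ι] [DecidableEq ι] [Fintype κ] [DecidableEq κ]

lemma outer_apply (f g : ι → ℂ) (i j : ι) : outer f g i j = f i * star (g j) := rfl

lemma outer_trace (f : ι → ℂ) :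
    (outer f f).trace = ((∑ i, ‖f i‖ ^ 2 : ℝ) : ℂ) := by
  simp only [Matrix.trace, Matrix.diag_apply, outer_apply]
  push_cast
  apply Finset.sum_congr rfl
  intro i _
  rw [← Complex.mul_conj']
  rfl

lemma outer_trace_re (f : ι → ℂ) : (outer f f).trace.re = ∑ i, ‖f i‖ ^ 2 := by
  rw [outer_trace, Complex.ofReal_re]

lemma outer_trace_eq (f : ι → ℂ) : (outer f f).trace = ((outer f f).trace.re : ℂ) := by
  rw [outer_trace_re, outer_trace]

lemma outer_trace_nonneg (f : ι → ℂ) : 0 ≤ (outer f f).trace.re := by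
  rw [outer_trace_re]
  positivity

lemma outer_eq_vecMulVec (f g : ι → ℂ) : outer f g = vecMulVec f (star g) := rfl

lemma outer_psd (f : ι → ℂ) : (outer f f).PosSemidef := by
  rw [outer_eq_vecMulVec]
  exact Matrix.posSemidef_vecMulVec_self_star f

lemma kr_sum {ε α : Type*} [Fintype ε] [Fintype α] (K : ε → Matrix ι ι ℂ) (q : α → ℂ)
    (ρ : α → Matrix ι ι ℂ) : kr K (∑ a, q a • ρ a) = ∑ a, q a • kr K (ρ a) := by
  classical
  have h0 : kr K (0 : Matrix ι ι ℂ) = 0 := by
    have := kr_smul K 0 (0 : Matrix ι ι ℂ)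
    simpa using this
  have : ∀ s : Finset α, kr K (∑ a ∈ s, q a • ρ a) = ∑ a ∈ s, q a • kr K (ρ a) := by
    intro s
    induction s using Finset.induction_on with
    | empty => simpa using h0
    | insert a s ha ih => rw [Finset.sum_insert ha, Finset.sum_insert ha, kr_add, kr_smul, ih]
  exact this Finset.univ

lemma exists_state (i0 : ι) (f : ι → ℂ) :
    ∃ σ : Matrix ι ι ℂ, IsState σ ∧ outer f f = ((outer f f).trace.re : ℂ) • σ := by
  by_cases h : (outer f f).trace.re = 0
  · refine ⟨outer (Pi.single i0 1) (Pi.single i0 1), ⟨outer_psd _, ?_⟩, ?_⟩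
    · rw [outer_trace]
      have : ∑ i, ‖(Pi.single i0 (1 : ℂ) : ι → ℂ) i‖ ^ 2 = 1 := by
        rw [Finset.sum_eq_single i0]
        · simp
        · intro b _ hb
          simp [Pi.single_eq_of_ne hb]
        · intro hb
          exact absurd (Finset.mem_univ _) hb
      rw [this]; simp
    · rw [h]
      rw [outer_trace_re, Finset.sum_eq_zero_iff_of_nonneg (fun i _ => by positivity)] at h
      have hf : ∀ i, f i = 0 := by
        intro i
        have := h i (Finset.mem_univ i)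
        simpa using this
      ext i j
      simp [outer_apply, hf]
  · refine ⟨((outer f f).trace.re : ℂ)⁻¹ • outer f f, ⟨?_, ?_⟩, ?_⟩
    · have h0 : (0 : ℂ) ≤ (((outer f f).trace.re)⁻¹ : ℝ) := by
        exact_mod_cast inv_nonneg.mpr (outer_trace_nonneg f)
      rw [← Complex.ofReal_inv]
      exact (outer_psd f).smul h0
    · rw [Matrix.trace_smul, smul_eq_mul]
      nth_rewrite 2 [outer_trace_eq]
      have : ((outer f f).trace.re : ℂ) ≠ 0 := by exact_mod_cast h
      field_simp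
    · rw [smul_smul, mul_inv_cancel₀ (by exact_mod_cast h), one_smul]

end Up

open Up in
theorem dchan_pure_ent {ι : Type*} [Fintype ι] [DecidableEq ι] (γ : ℝ) (h0 : 0 ≤ γ) (h1 : γ ≤ 1)
    (K : ι → Matrix ι ι ℂ) (hK : ∑ e, (K e)ᴴ * K e = 1) (f g : ι → ℂ) :
    ent (kr K (outer f f)) + ent (kr K (outer g g)) - Real.negMulLog (outer f f).trace.re
      - Real.negMulLog (outer g g).trace.re
      + Real.negMulLog (mup (outer f f).trace.re (γ * (outer g g).trace.re)
          ((1 - γ) * (outer g g).trace.re))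
      + Real.negMulLog (mum (outer f f).trace.re (γ * (outer g g).trace.re)
          ((1 - γ) * (outer g g).trace.re)) ≤
    ent (dchan γ (kr K) (outer (Sum.elim f g) (Sum.elim f g))) := by
  rw [dchan_pure γ h0 h1 K f g]
  have hE := E3 (colm K f) ((Real.sqrt γ : ℂ) • colm K g) ((Real.sqrt (1 - γ) : ℂ) • colm K g)
  have e1 : ∀ t : ℝ, 0 ≤ t → ((Real.sqrt t : ℂ) • colm K g) * ((Real.sqrt t : ℂ) • colm K g)ᴴ =
      (t : ℂ) • kr K (outer g g) := by
    intro t ht
    rw [Matrix.conjTranspose_smul, Matrix.smul_mul, Matrix.mul_smul, smul_smul, kr_outer]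
    congr 1
    rw [Complex.star_def, Complex.conj_ofReal, ← Complex.ofReal_mul, Real.mul_self_sqrt ht]
  have hg : (kr K (outer g g)).IsHermitian := (kr_psd K (outer_psd g)).isHermitian
  rw [e1 γ h0, e1 (1 - γ) (by linarith), ← kr_outer, ent_smul hg, ent_smul hg,
    Matrix.trace_smul, Matrix.trace_smul, kr_trace K hK, kr_trace K hK] at hE
  have tr1 : ∀ t : ℝ, ((t : ℂ) • (outer g g).trace).re = t * (outer g g).trace.re := by
    intro t
    rw [outer_trace_eq, smul_eq_mul, ← Complex.ofReal_mul, Complex.ofReal_re, Complex.ofReal_re]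
  rw [tr1, tr1] at hE
  unfold Fsc at hE
  rw [Real.negMulLog_mul γ, Real.negMulLog_mul (1 - γ)] at hE
  linarith

namespace Up

/-- Reduction to ensembles of pure states. -/
lemma pure_ens {κ ε : Type} [Fintype κ] [DecidableEq κ] [Fintype ε] (K : ε → Matrix κ κ ℂ)
    (r : ℝ) (hr : r ∈ hol (kr K)) :
    ∃ (J : Type) (_ : Fintype J) (w : J → ℝ) (ψ : J → κ → ℂ), (∀ j, 0 ≤ w j) ∧ ∑ j, w j = 1 ∧
      (∀ j, (outer (ψ j) (ψ j)).trace = 1) ∧
      r ≤ ent (kr K (∑ j, (w j : ℂ) • outer (ψ j) (ψ j))) -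
        ∑ j, w j * ent (kr K (outer (ψ j) (ψ j))) := by
  obtain ⟨α, _, q, ρ, hq, hq1, hρ, hr⟩ := hr
  choose p ψ hp hψ hρe using fun a => exists_pure_decomp (ρ a) (hρ a).1
  have hp1 : ∀ a, ∑ i, p a i = 1 := by
    intro a
    have h := (hρ a).2
    rw [hρe a, Matrix.trace_sum] at h
    simp only [Matrix.trace_smul, hψ, smul_eq_mul, mul_one] at h
    exact_mod_cast h
  refine ⟨α × κ, inferInstance, fun j => q j.1 * p j.1 j.2, fun j => ψ j.1 j.2,
    fun j => mul_nonneg (hq _) (hp _ _), ?_, fun j => hψ _ _, ?_⟩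
  · rw [Fintype.sum_prod_type]
    simp only [← Finset.mul_sum, hp1, mul_one, hq1]
  · rw [hr]
    have e1 : ∑ a, (q a : ℂ) • kr K (ρ a) =
        kr K (∑ j : α × κ, ((q j.1 * p j.1 j.2 : ℝ) : ℂ) • outer (ψ j.1 j.2) (ψ j.1 j.2)) := by
      rw [← kr_sum]
      congr 1
      rw [Fintype.sum_prod_type]
      apply Finset.sum_congr rfl
      intro a _
      rw [hρe a, Finset.smul_sum]
      apply Finset.sum_congr rfl
      intro i _
      rw [smul_smul, Complex.ofReal_mul]
    rw [e1]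
    have e2 : ∑ j : α × κ, q j.1 * p j.1 j.2 * ent (kr K (outer (ψ j.1 j.2) (ψ j.1 j.2))) ≤
        ∑ a, q a * ent (kr K (ρ a)) := by
      rw [Fintype.sum_prod_type]
      apply Finset.sum_le_sum
      intro a _
      have := ent_concave (p a) (hp a) (hp1 a) (fun i => kr K (outer (ψ a i) (ψ a i)))
        (fun i => kr_psd K (outer_psd _))
      rw [← kr_sum, ← hρe a] at this
      calc ∑ i, q a * p a i * ent (kr K (outer (ψ a i) (ψ a i)))
          = q a * ∑ i, p a i * ent (kr K (outer (ψ a i) (ψ a i))) := by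
            rw [Finset.mul_sum]
            apply Finset.sum_congr rfl
            intro i _
            ring
        _ ≤ q a * ent (kr K (ρ a)) := mul_le_mul_of_nonneg_left this (hq a)
    linarith

/-- The signed pure qubit state. -/
noncomputable def qv (q s : ℝ) : Fin 2 → ℂ := ![((Real.sqrt (1 - q) : ℝ) : ℂ), ((s * Real.sqrt q : ℝ) : ℂ)]

lemma qv_isState {q s : ℝ} (h0 : 0 ≤ q) (h1 : q ≤ 1) (hs : s ^ 2 = 1) :
    IsState (outer (qv q s) (qv q s)) := by
  refine ⟨outer_psd _, ?_⟩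
  have e1 : Real.sqrt (1 - q) * Real.sqrt (1 - q) = 1 - q := Real.mul_self_sqrt (by linarith)
  have e2 : Real.sqrt q * Real.sqrt q = q := Real.mul_self_sqrt h0
  rw [Matrix.trace_fin_two]
  simp only [outer_apply, qv, Matrix.cons_val_zero, Matrix.cons_val_one, Complex.star_def,
    Complex.conj_ofReal, ← Complex.ofReal_mul, ← Complex.ofReal_add]
  rw [← Complex.ofReal_one]
  congr 1
  linear_combination e1 + s ^ 2 * e2 + q * hs

lemma gadc_qv {γ q s : ℝ} (g1 : γ ≤ 1) (h0 : 0 ≤ q) (h1 : q ≤ 1) (hs : s ^ 2 = 1) :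
    gadc γ 0 (outer (qv q s) (qv q s)) =
      !![((1 - (1 - γ) * q : ℝ) : ℂ), ((s * (Real.sqrt (1 - γ) * Real.sqrt (1 - q) * Real.sqrt q) : ℝ) : ℂ);
        ((s * (Real.sqrt (1 - γ) * Real.sqrt (1 - q) * Real.sqrt q) : ℝ) : ℂ), (((1 - γ) * q : ℝ) : ℂ)] := by
  have e1 : Real.sqrt (1 - q) * Real.sqrt (1 - q) = 1 - q := Real.mul_self_sqrt (by linarith)
  have e2 : Real.sqrt q * Real.sqrt q = q := Real.mul_self_sqrt h0
  have e3 : s * Real.sqrt q * (s * Real.sqrt q) = q := by linear_combination s ^ 2 * e2 + q * hs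
  ext i j
  fin_cases i <;> fin_cases j <;>
  simp only [gadc, outer_apply, qv, Matrix.cons_val_zero, Matrix.cons_val_one, Complex.star_def,
    Complex.conj_ofReal, ← Complex.ofReal_mul, ← Complex.ofReal_add, ← Complex.ofReal_sub,
    Matrix.of_apply, Matrix.cons_val', Matrix.cons_val_fin_one, Fin.zero_eta, Fin.mk_one,
    Fin.isValue, e1, e3] <;>
  congr 1 <;> ring

lemma ent_gadc_qv {γ q s : ℝ} (g0 : 0 ≤ γ) (g1 : γ ≤ 1) (h0 : 0 ≤ q) (h1 : q ≤ 1)
    (hs : s ^ 2 = 1) :
    ent (gadc γ 0 (outer (qv q s) (qv q s))) =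
      Real.negMulLog (mup (1 - q) (γ * q) ((1 - γ) * q)) +
        Real.negMulLog (mum (1 - q) (γ * q) ((1 - γ) * q)) := by
  have e0 : Real.sqrt (1 - γ) * Real.sqrt (1 - γ) = 1 - γ := Real.mul_self_sqrt (by linarith)
  have e1 : Real.sqrt (1 - q) * Real.sqrt (1 - q) = 1 - q := Real.mul_self_sqrt (by linarith)
  have e2 : Real.sqrt q * Real.sqrt q = q := Real.mul_self_sqrt h0
  have hu : 0 ≤ 1 - q := by linarith
  have hv : 0 ≤ γ * q := mul_nonneg g0 h0
  have hw : 0 ≤ (1 - γ) * q := mul_nonneg (by linarith) h0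
  rw [gadc_qv g1 h0 h1 hs]
  apply ent_two
  · ext i j
    fin_cases i <;> fin_cases j <;> simp [Matrix.conjTranspose_apply]
  · rw [mup_add_mum, Matrix.trace_fin_two]
    simp only [Matrix.of_apply, Matrix.cons_val', Matrix.cons_val_zero, Matrix.cons_val_one,
      Matrix.cons_val_fin_one, ← Complex.ofReal_add]
    congr 1
    ring
  · rw [mup_mul_mum hu hv hw, Matrix.det_fin_two]
    simp only [Matrix.of_apply, Matrix.cons_val', Matrix.cons_val_zero, Matrix.cons_val_one,
      Matrix.cons_val_fin_one, ← Complex.ofReal_mul, ← Complex.ofReal_sub]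
    congr 1
    have : (Real.sqrt (1 - γ) * Real.sqrt (1 - q) * Real.sqrt q) *
        (Real.sqrt (1 - γ) * Real.sqrt (1 - q) * Real.sqrt q) = (1 - γ) * (1 - q) * q := by
      linear_combination (1 - q) * q * e0 + Real.sqrt (1 - γ) ^ 2 * q * e1 +
        Real.sqrt (1 - γ) ^ 2 * Real.sqrt (1 - q) ^ 2 * e2
    linear_combination (-(s ^ 2)) * this - (1 - γ) * (1 - q) * q * hs

lemma sum_gadc {J : Type} [Fintype J] {γ : ℝ} (g1 : γ ≤ 1) (w q : J → ℝ) (hw : ∑ j, w j = 1)
    (h0 : ∀ j, 0 ≤ q j) (h1 : ∀ j, q j ≤ 1) :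
    ∑ j : J ⊕ J, ((Sum.elim (fun j => w j / 2) (fun j => w j / 2) j : ℝ) : ℂ) •
      gadc γ 0 (Sum.elim (fun j => outer (qv (q j) 1) (qv (q j) 1))
        (fun j => outer (qv (q j) (-1)) (qv (q j) (-1))) j) =
      !![((1 - (1 - γ) * ∑ j, w j * q j : ℝ) : ℂ), 0;
        0, (((1 - γ) * ∑ j, w j * q j : ℝ) : ℂ)] := by
  rw [Fintype.sum_sum_type]
  simp only [Sum.elim_inl, Sum.elim_inr]
  have e1 : ∀ j, gadc γ 0 (outer (qv (q j) 1) (qv (q j) 1)) =
      !![((1 - (1 - γ) * q j : ℝ) : ℂ), ((1 * (Real.sqrt (1 - γ) * Real.sqrt (1 - q j) * Real.sqrt (q j)) : ℝ) : ℂ);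
        ((1 * (Real.sqrt (1 - γ) * Real.sqrt (1 - q j) * Real.sqrt (q j)) : ℝ) : ℂ), (((1 - γ) * q j : ℝ) : ℂ)] :=
    fun j => gadc_qv g1 (h0 j) (h1 j) (by norm_num)
  have e2 : ∀ j, gadc γ 0 (outer (qv (q j) (-1)) (qv (q j) (-1))) =
      !![((1 - (1 - γ) * q j : ℝ) : ℂ), (((-1) * (Real.sqrt (1 - γ) * Real.sqrt (1 - q j) * Real.sqrt (q j)) : ℝ) : ℂ);
        (((-1) * (Real.sqrt (1 - γ) * Real.sqrt (1 - q j) * Real.sqrt (q j)) : ℝ) : ℂ), (((1 - γ) * q j : ℝ) : ℂ)] :=
    fun j => gadc_qv g1 (h0 j) (h1 j) (by norm_num)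
  simp only [e1, e2]
  rw [← Finset.sum_add_distrib]
  have hw' : ∑ j, (w j : ℂ) = 1 := by exact_mod_cast hw
  ext i j
  rw [Matrix.sum_apply]
  fin_cases i <;> fin_cases j
  · simp only [Matrix.add_apply, Matrix.smul_apply, Matrix.of_apply, Matrix.cons_val',
      Matrix.cons_val_zero, Matrix.cons_val_one, Matrix.cons_val_fin_one, Fin.zero_eta,
      Fin.mk_one, Fin.isValue, smul_eq_mul]
    push_cast
    rw [← hw', Finset.mul_sum, ← Finset.sum_sub_distrib]
    apply Finset.sum_congr rfl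
    intro j _
    rw [hw']
    ring
  · simp only [Matrix.add_apply, Matrix.smul_apply, Matrix.of_apply, Matrix.cons_val',
      Matrix.cons_val_zero, Matrix.cons_val_one, Matrix.cons_val_fin_one, Fin.zero_eta,
      Fin.mk_one, Fin.isValue, smul_eq_mul]
    apply Finset.sum_eq_zero
    intro j _
    push_cast
    ring
  · simp only [Matrix.add_apply, Matrix.smul_apply, Matrix.of_apply, Matrix.cons_val',
      Matrix.cons_val_zero, Matrix.cons_val_one, Matrix.cons_val_fin_one, Fin.zero_eta,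
      Fin.mk_one, Fin.isValue, smul_eq_mul]
    apply Finset.sum_eq_zero
    intro j _
    push_cast
    ring
  · simp only [Matrix.add_apply, Matrix.smul_apply, Matrix.of_apply, Matrix.cons_val',
      Matrix.cons_val_zero, Matrix.cons_val_one, Matrix.cons_val_fin_one, Fin.zero_eta,
      Fin.mk_one, Fin.isValue, smul_eq_mul]
    push_cast
    rw [Finset.mul_sum]
    apply Finset.sum_congr rfl
    intro j _
    ring

/-- The first term of the bound is a Holevo value of the qubit channel. -/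
lemma first_mem {J : Type} [Fintype J] {γ : ℝ} (g0 : 0 ≤ γ) (g1 : γ ≤ 1) (w q : J → ℝ)
    (hw0 : ∀ j, 0 ≤ w j) (hw : ∑ j, w j = 1) (h0 : ∀ j, 0 ≤ q j) (h1 : ∀ j, q j ≤ 1) :
    Real.negMulLog (1 - (1 - γ) * ∑ j, w j * q j) + Real.negMulLog ((1 - γ) * ∑ j, w j * q j) -
      ∑ j, w j * (Real.negMulLog (mup (1 - q j) (γ * q j) ((1 - γ) * q j)) +
        Real.negMulLog (mum (1 - q j) (γ * q j) ((1 - γ) * q j))) ∈ hol (gadc γ 0) := by
  refine ⟨J ⊕ J, inferInstance, Sum.elim (fun j => w j / 2) (fun j => w j / 2),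
    Sum.elim (fun j => outer (qv (q j) 1) (qv (q j) 1))
        (fun j => outer (qv (q j) (-1)) (qv (q j) (-1))), ?_, ?_, ?_, ?_⟩
  · rintro (j | j)
    · exact div_nonneg (hw0 j) (by norm_num)
    · exact div_nonneg (hw0 j) (by norm_num)
  · rw [Fintype.sum_sum_type]
    simp only [Sum.elim_inl, Sum.elim_inr]
    rw [← Finset.sum_add_distrib, ← hw]
    apply Finset.sum_congr rfl
    intro j _
    ring
  · rintro (j | j)
    · exact qv_isState (h0 j) (h1 j) (by norm_num)
    · exact qv_isState (h0 j) (h1 j) (by norm_num)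
  · rw [sum_gadc g1 w q hw h0 h1]
    have e1 : ent !![((1 - (1 - γ) * ∑ j, w j * q j : ℝ) : ℂ), 0;
        0, (((1 - γ) * ∑ j, w j * q j : ℝ) : ℂ)] =
        Real.negMulLog (1 - (1 - γ) * ∑ j, w j * q j) +
          Real.negMulLog ((1 - γ) * ∑ j, w j * q j) := by
      apply ent_two
      · ext i j
        fin_cases i <;> fin_cases j <;> simp [Matrix.conjTranspose_apply]
      · rw [Matrix.trace_fin_two]
        simp
      · rw [Matrix.det_fin_two]
        simp
    rw [e1, Fintype.sum_sum_type]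
    simp only [Sum.elim_inl, Sum.elim_inr]
    have e2 : ∀ j, ent (gadc γ 0 (outer (qv (q j) 1) (qv (q j) 1))) =
      Real.negMulLog (mup (1 - q j) (γ * q j) ((1 - γ) * q j)) +
        Real.negMulLog (mum (1 - q j) (γ * q j) ((1 - γ) * q j)) :=
      fun j => ent_gadc_qv g0 g1 (h0 j) (h1 j) (by norm_num)
    have e3 : ∀ j, ent (gadc γ 0 (outer (qv (q j) (-1)) (qv (q j) (-1)))) =
      Real.negMulLog (mup (1 - q j) (γ * q j) ((1 - γ) * q j)) +
        Real.negMulLog (mum (1 - q j) (γ * q j) ((1 - γ) * q j)) :=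
      fun j => ent_gadc_qv g0 g1 (h0 j) (h1 j) (by norm_num)
    simp only [e2, e3]
    rw [← Finset.sum_add_distrib]
    congr 1
    apply Finset.sum_congr rfl
    intro j _
    ring

/-- The second term of the bound is a Holevo value of the other channel. -/
lemma second_mem {ι J : Type} [Fintype ι] [DecidableEq ι] [Fintype J] (i0 : ι)
    (K : ι → Matrix ι ι ℂ) (hK : ∑ e, (K e)ᴴ * K e = 1) (w : J → ℝ) (f g : J → ι → ℂ)
    (hw0 : ∀ j, 0 ≤ w j) (hw : ∑ j, w j = 1)
    (hfg : ∀ j, (outer (f j) (f j)).trace.re + (outer (g j) (g j)).trace.re = 1) :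
    ent (kr K (∑ j, (w j : ℂ) • outer (f j) (f j) + ∑ j, (w j : ℂ) • outer (g j) (g j))) -
      ∑ j, w j * (ent (kr K (outer (f j) (f j))) + ent (kr K (outer (g j) (g j))) -
        Real.negMulLog (outer (f j) (f j)).trace.re -
        Real.negMulLog (outer (g j) (g j)).trace.re) ∈ hol (kr K) := by
  choose σ hσ hσf using fun j => exists_state i0 (f j)
  choose τ hτ hτg using fun j => exists_state i0 (g j)
  have key : ∀ (h : ι → ℂ) (s : Matrix ι ι ℂ), IsState s →
      outer h h = ((outer h h).trace.re : ℂ) • s →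
      (outer h h).trace.re * ent (kr K s) =
        ent (kr K (outer h h)) - Real.negMulLog (outer h h).trace.re := by
    intro h s hs he
    have h1 : ent (kr K (outer h h)) = (outer h h).trace.re * ent (kr K s) +
        Real.negMulLog (outer h h).trace.re := by
      have h2 := ent_smul (kr_psd K hs.1).isHermitian (outer h h).trace.re
      rw [← kr_smul, ← he, kr_trace K hK, hs.2, Complex.one_re, mul_one] at h2
      exact h2
    linarith
  refine ⟨J ⊕ J, inferInstance, Sum.elim (fun j => w j * (outer (f j) (f j)).trace.re)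
    (fun j => w j * (outer (g j) (g j)).trace.re), Sum.elim σ τ, ?_, ?_, ?_, ?_⟩
  · rintro (j | j)
    · exact mul_nonneg (hw0 j) (outer_trace_nonneg _)
    · exact mul_nonneg (hw0 j) (outer_trace_nonneg _)
  · rw [Fintype.sum_sum_type]
    simp only [Sum.elim_inl, Sum.elim_inr]
    rw [← Finset.sum_add_distrib, ← hw]
    apply Finset.sum_congr rfl
    intro j _
    rw [← mul_add, hfg, mul_one]
  · rintro (j | j)
    · exact hσ j
    · exact hτ j
  · rw [Fintype.sum_sum_type, Fintype.sum_sum_type]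
    simp only [Sum.elim_inl, Sum.elim_inr]
    have e1 : ∀ j, ((w j * (outer (f j) (f j)).trace.re : ℝ) : ℂ) • kr K (σ j) =
        (w j : ℂ) • kr K (outer (f j) (f j)) := by
      intro j
      rw [Complex.ofReal_mul, ← smul_smul, ← kr_smul K ((outer (f j) (f j)).trace.re : ℂ),
        ← hσf]
    have e2 : ∀ j, ((w j * (outer (g j) (g j)).trace.re : ℝ) : ℂ) • kr K (τ j) =
        (w j : ℂ) • kr K (outer (g j) (g j)) := by
      intro j
      rw [Complex.ofReal_mul, ← smul_smul, ← kr_smul K ((outer (g j) (g j)).trace.re : ℂ),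
        ← hτg]
    simp only [e1, e2]
    rw [kr_add, kr_sum, kr_sum]
    have e3 : ∀ j, w j * (outer (f j) (f j)).trace.re * ent (kr K (σ j)) =
        w j * (ent (kr K (outer (f j) (f j))) - Real.negMulLog (outer (f j) (f j)).trace.re) := by
      intro j
      rw [mul_assoc, key (f j) (σ j) (hσ j) (hσf j)]
    have e4 : ∀ j, w j * (outer (g j) (g j)).trace.re * ent (kr K (τ j)) =
        w j * (ent (kr K (outer (g j) (g j))) - Real.negMulLog (outer (g j) (g j)).trace.re) := by
      intro j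
      rw [mul_assoc, key (g j) (τ j) (hτ j) (hτg j)]
    simp only [e3, e4]
    congr 1
    rw [← Finset.sum_add_distrib]
    apply Finset.sum_congr rfl
    intro j _
    ring

end Up

open Up in
theorem upper {ι : Type} [Fintype ι] [DecidableEq ι] (γ : ℝ) (h0 : 0 ≤ γ) (h1 : γ ≤ 1)
    (K : ι → Matrix ι ι ℂ) (hK : ∑ e, (K e)ᴴ * K e = 1) (r : ℝ)
    (hr : r ∈ hol (dchan γ (kr K))) :
    ∃ r1 ∈ hol (gadc γ 0), ∃ r2 ∈ hol (kr K), r ≤ r1 + r2 := by
  have hfun : dchan γ (kr K) = kr (fun e : ι ⊕ ι => Sum.elim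
      (fun e => fromBlocks (K e) 0 0 ((Real.sqrt (1 - γ) : ℂ) • K e))
      (fun e => fromBlocks 0 ((Real.sqrt γ : ℂ) • K e) 0 0) e) :=
    funext (fun R => dchan_kr γ h0 h1 K R)
  rw [hfun] at hr
  obtain ⟨J, _, w, ψ, hw0, hw, hψ, hr⟩ := pure_ens _ r hr
  rw [← hfun] at hr
  -- the two halves of the vectors
  obtain ⟨f, hf⟩ : ∃ f : J → ι → ℂ, ∀ j i, f j i = ψ j (Sum.inl i) := ⟨_, fun _ _ => rfl⟩
  obtain ⟨g, hg⟩ : ∃ g : J → ι → ℂ, ∀ j i, g j i = ψ j (Sum.inr i) := ⟨_, fun _ _ => rfl⟩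
  have hψe : ∀ j, ψ j = Sum.elim (f j) (g j) := by
    intro j
    ext (i | i)
    · rw [Sum.elim_inl, hf]
    · rw [Sum.elim_inr, hg]
  have hfg : ∀ j, (outer (f j) (f j)).trace.re + (outer (g j) (g j)).trace.re = 1 := by
    intro j
    have h := hψ j
    rw [hψe j, outer_trace] at h
    have h' : ∑ i, ‖(Sum.elim (f j) (g j) : ι ⊕ ι → ℂ) i‖ ^ 2 = 1 := by exact_mod_cast h
    rw [Fintype.sum_sum_type] at h'
    simp only [Sum.elim_inl, Sum.elim_inr] at h'
    rw [outer_trace_re, outer_trace_re, h']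
  have hi0 : Nonempty ι := by
    by_contra hne
    rw [not_nonempty_iff] at hne
    have hJ : Nonempty J := by
      by_contra hJ
      rw [not_nonempty_iff] at hJ
      simp at hw
    obtain ⟨j⟩ := hJ
    have := hfg j
    rw [outer_trace_re, outer_trace_re] at this
    simp at this
  obtain ⟨i0⟩ := hi0
  have hq0 : ∀ j, 0 ≤ (outer (g j) (g j)).trace.re := fun j => outer_trace_nonneg _
  have hq1 : ∀ j, (outer (g j) (g j)).trace.re ≤ 1 := fun j => by
    have := outer_trace_nonneg (f j)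
    linarith [hfg j]
  refine ⟨_, first_mem h0 h1 w (fun j => (outer (g j) (g j)).trace.re) hw0 hw hq0 hq1, _,
    second_mem i0 K hK w f g hw0 hw hfg, le_trans hr ?_⟩
  -- the averaged output
  have hR : ∑ j, (w j : ℂ) • outer (ψ j) (ψ j) =
      fromBlocks (∑ j, (w j : ℂ) • outer (f j) (f j)) (∑ j, (w j : ℂ) • outer (f j) (g j))
        (∑ j, (w j : ℂ) • outer (g j) (f j)) (∑ j, (w j : ℂ) • outer (g j) (g j)) := by
    ext (a | a) (b | b)
    · rw [Matrix.fromBlocks_apply₁₁, Matrix.sum_apply, Matrix.sum_apply]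
      apply Finset.sum_congr rfl
      intro j _
      rw [Matrix.smul_apply, Matrix.smul_apply, outer_apply, outer_apply, hf, hf]
    · rw [Matrix.fromBlocks_apply₁₂, Matrix.sum_apply, Matrix.sum_apply]
      apply Finset.sum_congr rfl
      intro j _
      rw [Matrix.smul_apply, Matrix.smul_apply, outer_apply, outer_apply, hf, hg]
    · rw [Matrix.fromBlocks_apply₂₁, Matrix.sum_apply, Matrix.sum_apply]
      apply Finset.sum_congr rfl
      intro j _
      rw [Matrix.smul_apply, Matrix.smul_apply, outer_apply, outer_apply, hf, hg]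
    · rw [Matrix.fromBlocks_apply₂₂, Matrix.sum_apply, Matrix.sum_apply]
      apply Finset.sum_congr rfl
      intro j _
      rw [Matrix.smul_apply, Matrix.smul_apply, outer_apply, outer_apply, hg, hg]
  have hRpsd : (∑ j, (w j : ℂ) • outer (ψ j) (ψ j)).PosSemidef := by
    apply Matrix.posSemidef_sum
    intro j _
    have h0 : (0 : ℂ) ≤ (w j : ℂ) := by exact_mod_cast hw0 j
    exact (outer_psd (ψ j)).smul h0
  have htf : (∑ j, (w j : ℂ) • outer (f j) (f j)).trace =
      ((∑ j, w j * (1 - (outer (g j) (g j)).trace.re) : ℝ) : ℂ) := by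
    rw [Matrix.trace_sum]
    push_cast
    apply Finset.sum_congr rfl
    intro j _
    rw [Matrix.trace_smul, smul_eq_mul, outer_trace_eq]
    congr 1
    have : (outer (f j) (f j)).trace.re = 1 - (outer (g j) (g j)).trace.re := by
      linarith [hfg j]
    rw [this]
    push_cast
    ring
  have htg : (∑ j, (w j : ℂ) • outer (g j) (g j)).trace =
      ((∑ j, w j * (outer (g j) (g j)).trace.re : ℝ) : ℂ) := by
    rw [Matrix.trace_sum]
    push_cast
    apply Finset.sum_congr rfl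
    intro j _
    rw [Matrix.trace_smul, smul_eq_mul, outer_trace_eq]
    push_cast
    rfl
  have hsub := ent_subadd (dchan γ (kr K) (∑ j, (w j : ℂ) • outer (ψ j) (ψ j)))
    (by
      refine ⟨?_, ?_⟩
      · rw [hfun]; exact kr_psd _ hRpsd
      · rw [hR, dchan, toBlocks_fromBlocks₁₁, toBlocks_fromBlocks₂₂, toBlocks_fromBlocks₁₂,
          toBlocks_fromBlocks₂₁]
        have tb : ∀ A B C D : Matrix ι ι ℂ, (fromBlocks A B C D).trace = A.trace + D.trace := by
          intro A B C D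
          simp [Matrix.trace, Fintype.sum_sum_type]
        rw [tb, Matrix.trace_add, Matrix.trace_smul, Matrix.trace_smul, kr_trace K hK,
          kr_trace K hK, htf, htg, smul_eq_mul, smul_eq_mul, ← Complex.ofReal_mul,
          ← Complex.ofReal_mul, ← Complex.ofReal_add, ← Complex.ofReal_add,
          ← Complex.ofReal_one]
        congr 1
        simp only [mul_sub, mul_one, Finset.sum_sub_distrib, hw]
        ring)
  have hb1 : (dchan γ (kr K) (∑ j, (w j : ℂ) • outer (ψ j) (ψ j))).toBlocks₁₁ =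
      kr K (∑ j, (w j : ℂ) • outer (f j) (f j)) +
        (γ : ℂ) • kr K (∑ j, (w j : ℂ) • outer (g j) (g j)) := by
    rw [hR, dchan, toBlocks_fromBlocks₁₁, toBlocks_fromBlocks₁₁, toBlocks_fromBlocks₂₂]
  have hb2 : (dchan γ (kr K) (∑ j, (w j : ℂ) • outer (ψ j) (ψ j))).toBlocks₂₂ =
      ((1 - γ : ℝ) : ℂ) • kr K (∑ j, (w j : ℂ) • outer (g j) (g j)) := by
    rw [hR, dchan, toBlocks_fromBlocks₂₂, toBlocks_fromBlocks₂₂]
  have hb3 : kr K (∑ j, (w j : ℂ) • outer (f j) (f j)) +
        (γ : ℂ) • kr K (∑ j, (w j : ℂ) • outer (g j) (g j)) +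
      ((1 - γ : ℝ) : ℂ) • kr K (∑ j, (w j : ℂ) • outer (g j) (g j)) =
      kr K (∑ j, (w j : ℂ) • outer (f j) (f j) + ∑ j, (w j : ℂ) • outer (g j) (g j)) := by
    rw [kr_add, add_assoc, ← add_smul]
    congr 1
    have : (γ : ℂ) + ((1 - γ : ℝ) : ℂ) = 1 := by push_cast; ring
    rw [this, one_smul]
  rw [hb1, hb2, hb3, Matrix.trace_add, Matrix.trace_smul, Matrix.trace_smul, kr_trace K hK,
    kr_trace K hK, htf, htg, smul_eq_mul, smul_eq_mul, ← Complex.ofReal_mul,
    ← Complex.ofReal_mul, ← Complex.ofReal_add, Complex.ofReal_re, Complex.ofReal_re] at hsub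
  have hp0 : ∑ j, w j * (1 - (outer (g j) (g j)).trace.re) +
      γ * ∑ j, w j * (outer (g j) (g j)).trace.re =
      1 - (1 - γ) * ∑ j, w j * (outer (g j) (g j)).trace.re := by
    simp only [mul_sub, mul_one, Finset.sum_sub_distrib, hw]
    ring
  rw [hp0] at hsub
  -- the pure states
  have hpure : ∑ j, w j * (ent (kr K (outer (f j) (f j))) + ent (kr K (outer (g j) (g j)))
      - Real.negMulLog (outer (f j) (f j)).trace.re
      - Real.negMulLog (outer (g j) (g j)).trace.re) +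
      ∑ j, w j * (Real.negMulLog (mup (1 - (outer (g j) (g j)).trace.re)
        (γ * (outer (g j) (g j)).trace.re) ((1 - γ) * (outer (g j) (g j)).trace.re)) +
        Real.negMulLog (mum (1 - (outer (g j) (g j)).trace.re)
        (γ * (outer (g j) (g j)).trace.re) ((1 - γ) * (outer (g j) (g j)).trace.re))) ≤
      ∑ j, w j * ent (dchan γ (kr K) (outer (ψ j) (ψ j))) := by
    rw [← Finset.sum_add_distrib]
    apply Finset.sum_le_sum
    intro j _
    rw [← mul_add]
    apply mul_le_mul_of_nonneg_left _ (hw0 j)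
    have h := dchan_pure_ent γ h0 h1 K hK (f j) (g j)
    rw [← hψe j] at h
    have hu : (outer (f j) (f j)).trace.re = 1 - (outer (g j) (g j)).trace.re := by
      linarith [hfg j]
    rw [hu] at h
    rw [hu]
    linarith
  linarith

end Vale.Agent.P358
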