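import Vale.Agent.P358.ScalG
import Vale.Agent.P358.E3R
import Vale.Agent.P358.EtaTwo
import Vale.Agent.P358.Upper

/-!
P358, general `ν`, module G4: one of the two channels.
-/

namespace Vale.Agent.P358

open Matrix
open scoped ComplexOrder

namespace TwoG

set_option linter.unusedSectionVars false

variable {ι ε : Type} [Fintype ι] [DecidableEq ι] [Fintype ε] [DecidableEq ε]

/-- `L ⊗ 1` -/
def big (ι : Type) [DecidableEq ι] (L : Matrix (Fin 2) (Fin 2) ℂ) : Matrix (ι ⊕ ι) (ι ⊕ ι) ℂ :=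
  fromBlocks (L 0 0 • (1 : Matrix ι ι ℂ)) (L 0 1 • (1 : Matrix ι ι ℂ)) (L 1 0 • (1 : Matrix ι ι ℂ))
    (L 1 1 • (1 : Matrix ι ι ℂ))

theorem big_conj (L : Matrix (Fin 2) (Fin 2) ℂ) : (big ι L)ᴴ = big ι Lᴴ := by
  unfold big
  rw [fromBlocks_conjTranspose]
  simp [conjTranspose_smul, conjTranspose_apply]

theorem big_mul (L M : Matrix (Fin 2) (Fin 2) ℂ) : big ι L * big ι M = big ι (L * M) := by
  unfold big
  rw [fromBlocks_multiply]
  simp only [Matrix.smul_mul, Matrix.mul_smul, Matrix.one_mul, smul_smul, ← add_smul,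
    Matrix.mul_apply, Fin.sum_univ_two]
  congr 1 <;> congr 1 <;> ring

theorem big_one : big ι (1 : Matrix (Fin 2) (Fin 2) ℂ) = 1 := by
  unfold big
  simp [fromBlocks_one]

theorem colm_lin (K : ε → Matrix ι ι ℂ) (a b : ℂ) (f g : ι → ℂ) :
    colm K (fun i => a * f i + b * g i) = a • colm K f + b • colm K g := by
  ext x e
  simp only [colm, mulVec, dotProduct, Matrix.add_apply, Matrix.smul_apply, smul_eq_mul,
    Finset.mul_sum, ← Finset.sum_add_distrib]
  refine Finset.sum_congr rfl fun i _ => ?_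
  ring

/-- the entries of `L * arr * R` -/
noncomputable def ent4 (γ ν s : ℝ) (L R : Matrix (Fin 2) (Fin 2) ℂ) (f g : ι → ℂ) (a b : Fin 2) : ι → ℂ :=
  fun i => (L * arr γ ν s (f i) (g i) * R) a b

theorem ent4_eq (γ ν s : ℝ) (L R : Matrix (Fin 2) (Fin 2) ℂ) (f g : ι → ℂ) (a b : Fin 2) :
    ent4 γ ν s L R f g a b = fun i =>
      (L a 0 * (Real.sqrt (1 - γ * ν) : ℝ) * R 0 b + L a 1 * ww γ ν s * R 1 b) * f i
      + (L a 0 * (Real.sqrt (γ * (1 - ν)) : ℝ) * R 1 b + L a 1 * tt γ ν s * R 0 b) * g i := by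
  funext i
  simp only [ent4, arr, Matrix.mul_apply, Fin.sum_univ_two, Matrix.of_apply, Matrix.cons_val',
    Matrix.cons_val_zero, Matrix.cons_val_one, Matrix.cons_val_fin_one]
  ring

theorem big_Tm (γ ν s : ℝ) (L R : Matrix (Fin 2) (Fin 2) ℂ) (K : ε → Matrix ι ι ℂ) (f g : ι → ℂ) :
    big ι L * Tm γ ν s K f g * big ε R
      = fromBlocks (colm K (ent4 γ ν s L R f g 0 0)) (colm K (ent4 γ ν s L R f g 0 1))
          (colm K (ent4 γ ν s L R f g 1 0)) (colm K (ent4 γ ν s L R f g 1 1)) := by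
  simp only [ent4_eq, colm_lin]
  unfold big Tm
  rw [fromBlocks_multiply, fromBlocks_multiply]
  simp only [Matrix.smul_mul, Matrix.mul_smul, Matrix.one_mul, Matrix.mul_one, smul_smul,
    smul_add]
  congr 1 <;> module

end TwoG

open TwoG

theorem two_kraus {ι ε : Type} [Fintype ι] [DecidableEq ι] [Fintype ε] [DecidableEq ε]
    {γ ν : ℝ} (h0 : 0 < γ) (h1 : γ ≤ 1) (n0 : 0 < ν) (n1 : ν < 1) (s : ℝ)
    (hs : s = 1 ∨ s = -1) (K : ε → Matrix ι ι ℂ) (hK : ∑ e, (K e)ᴴ * K e = 1) (f g : ι → ℂ)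
    (hfg : (∑ i, ‖f i‖ ^ 2) + (∑ i, ‖g i‖ ^ 2) = 1) (him : (∑ i, f i * star (g i)).im = 0) :
    ∃ h : Fin 3 → ι → ℂ, ∑ m, outer (h m) (h m) = outer f f + outer g g ∧
      ∑ m, (ent (kr K (outer (h m) (h m))) - Real.negMulLog (outer (h m) (h m)).trace.re)
        + eta2 (del γ ν (∑ i, ‖g i‖ ^ 2)) ≤ ent (Tm γ ν s K f g * (Tm γ ν s K f g)ᴴ) := by
  obtain ⟨L, R, hL1, hL2, hR1, hR2, hz, hprod⟩ := exists_LR h0 h1 n0 n1 s hs
  have hp := hprod ι inferInstance f g him
  set hA := ent4 γ ν s L R f g 0 0 with hAd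
  set hB := ent4 γ ν s L R f g 0 1 with hBd
  set hC := ent4 γ ν s L R f g 1 0 with hCd
  have hD0 : ent4 γ ν s L R f g 1 1 = 0 := by
    funext i
    exact hz (f i) (g i)
  -- the outer products
  have hout : outer hA hA + outer hB hB + outer hC hC = outer f f + outer g g := by
    ext i j
    have key : (L * arr γ ν s (f i) (g i) * R) * (L * arr γ ν s (f j) (g j) * R)ᴴ
        = L * (arr γ ν s (f i) (g i) * (arr γ ν s (f j) (g j))ᴴ) * Lᴴ := by
      rw [conjTranspose_mul, conjTranspose_mul]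
      calc L * arr γ ν s (f i) (g i) * R * (Rᴴ * ((arr γ ν s (f j) (g j))ᴴ * Lᴴ))
          = L * arr γ ν s (f i) (g i) * (R * Rᴴ) * ((arr γ ν s (f j) (g j))ᴴ * Lᴴ) := by
            simp only [Matrix.mul_assoc]
        _ = _ := by rw [hR2, Matrix.mul_one]; simp only [Matrix.mul_assoc]
    have htr : ((L * arr γ ν s (f i) (g i) * R) * (L * arr γ ν s (f j) (g j) * R)ᴴ).trace
        = (arr γ ν s (f i) (g i) * (arr γ ν s (f j) (g j))ᴴ).trace := by
      rw [key, Matrix.trace_mul_comm, ← Matrix.mul_assoc, hL1, Matrix.one_mul]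
    have e1 : ((L * arr γ ν s (f i) (g i) * R) * (L * arr γ ν s (f j) (g j) * R)ᴴ).trace
        = hA i * star (hA j) + hB i * star (hB j) + hC i * star (hC j) := by
      have z1 : (L * arr γ ν s (f i) (g i) * R) 1 1 = 0 := hz (f i) (g i)
      simp only [Matrix.trace, Matrix.diag_apply, Fin.sum_univ_two]
      rw [Matrix.mul_apply, Matrix.mul_apply]
      simp only [Fin.sum_univ_two, conjTranspose_apply]
      rw [z1, zero_mul, add_zero]
      rfl
    have e2 : (arr γ ν s (f i) (g i) * (arr γ ν s (f j) (g j))ᴴ).trace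
        = f i * star (f j) + g i * star (g j) := by
      have t1 := tt_norm h0 h1 n0 n1 s hs
      have t2 := ww_norm (γ := γ) (ν := ν) h0 n0 s hs
      have s1 : ((Real.sqrt (1 - γ * ν) : ℝ) : ℂ) * ((Real.sqrt (1 - γ * ν) : ℝ) : ℂ)
          = ((1 - γ * ν : ℝ) : ℂ) := by
        refine csqrt_mul ?_
        nlinarith
      have s2 : ((Real.sqrt (γ * (1 - ν)) : ℝ) : ℂ) * ((Real.sqrt (γ * (1 - ν)) : ℝ) : ℂ)
          = ((γ * (1 - ν) : ℝ) : ℂ) := by
        refine csqrt_mul ?_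
        exact mul_nonneg h0.le (by linarith)
      simp only [Matrix.trace, Matrix.diag_apply, Fin.sum_univ_two]
      rw [Matrix.mul_apply, Matrix.mul_apply]
      simp only [Fin.sum_univ_two, conjTranspose_apply, arr, Matrix.of_apply, Matrix.cons_val',
        Matrix.cons_val_zero, Matrix.cons_val_one, Matrix.cons_val_fin_one, star_mul']
      have c1 : star ((Real.sqrt (1 - γ * ν) : ℝ) : ℂ) = ((Real.sqrt (1 - γ * ν) : ℝ) : ℂ) :=
        Complex.conj_ofReal _
      have c2 : star ((Real.sqrt (γ * (1 - ν)) : ℝ) : ℂ) = ((Real.sqrt (γ * (1 - ν)) : ℝ) : ℂ) :=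
        Complex.conj_ofReal _
      rw [c1, c2]
      push_cast at s1 s2 t1 t2 ⊢
      linear_combination (f i * star (f j)) * s1 + (g i * star (g j)) * s2
        + (g i * star (g j)) * t1 + (f i * star (f j)) * t2
    have := htr
    rw [e1, e2] at this
    simpa [outer] using this
  -- entropy
  have hHerm : (Tm γ ν s K f g * (Tm γ ν s K f g)ᴴ).IsHermitian :=
    isHermitian_mul_conjTranspose_self _
  have hU2 : (big ι L)ᴴ * big ι L = 1 := by rw [big_conj, big_mul, hL1, big_one]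
  have hRR : big ε R * (big ε R)ᴴ = 1 := by rw [big_conj, big_mul, hR2, big_one]
  have hTT : ent (Tm γ ν s K f g * (Tm γ ν s K f g)ᴴ)
      = ent (fromBlocks (colm K hA) (colm K hB) (colm K hC) 0
          * (fromBlocks (colm K hA) (colm K hB) (colm K hC) 0)ᴴ) := by
    have e1 : fromBlocks (colm K hA) (colm K hB) (colm K hC) 0
        = big ι L * Tm γ ν s K f g * big ε R := by
      rw [big_Tm, ← hAd, ← hBd, ← hCd, hD0]
      congr 1
      ext x e
      simp [colm, mulVec, dotProduct]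
    have e2 : fromBlocks (colm K hA) (colm K hB) (colm K hC) 0
          * (fromBlocks (colm K hA) (colm K hB) (colm K hC) 0)ᴴ
        = big ι L * (Tm γ ν s K f g * (Tm γ ν s K f g)ᴴ) * (big ι L)ᴴ := by
      rw [e1, conjTranspose_mul, conjTranspose_mul]
      calc big ι L * Tm γ ν s K f g * big ε R * ((big ε R)ᴴ * ((Tm γ ν s K f g)ᴴ * (big ι L)ᴴ))
          = big ι L * Tm γ ν s K f g * (big ε R * (big ε R)ᴴ)
            * ((Tm γ ν s K f g)ᴴ * (big ι L)ᴴ) := by simp only [Matrix.mul_assoc]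
        _ = _ := by rw [hRR, Matrix.mul_one]; simp only [Matrix.mul_assoc]
    rw [e2]
    exact (ent_unitary hHerm (big ι L) hU2).symm
  have htrace : ∀ h : ι → ℂ, (colm K h * (colm K h)ᴴ).trace.re = ∑ i, ‖h i‖ ^ 2 := by
    intro h
    rw [← kr_outer, kr_trace K hK, Up.outer_trace_re]
  have hE := E3r (colm K hA) (colm K hB) (colm K hC)
  rw [← hTT, htrace, htrace, htrace] at hE
  set u := ∑ i, ‖hA i‖ ^ 2 with hu
  set v := ∑ i, ‖hB i‖ ^ 2 with hv
  set w := ∑ i, ‖hC i‖ ^ 2 with hw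
  have u0 : 0 ≤ u := by positivity
  have v0 : 0 ≤ v := by positivity
  have w0 : 0 ≤ w := by positivity
  have huvw : u + v + w = 1 := by
    have := congrArg (fun M : Matrix ι ι ℂ => M.trace.re) hout
    simp only [Matrix.trace_add, Complex.add_re, Up.outer_trace_re] at this
    rw [← hfg]
    exact this
  have heta := eta2_mu u0 v0 w0 huvw
  have hdel : del γ ν (∑ i, ‖g i‖ ^ 2) ≤ v * w := by
    have e : (1 : ℝ) - ∑ i, ‖g i‖ ^ 2 = ∑ i, ‖f i‖ ^ 2 := by linarith
    unfold del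
    rw [e]
    exact hp
  have hdel0 : 0 ≤ del γ ν (∑ i, ‖g i‖ ^ 2) := by
    refine del_nonneg h0.le h1 n0.le n1.le (by positivity) ?_
    have : 0 ≤ ∑ i, ‖f i‖ ^ 2 := by positivity
    linarith
  have hvw : v * w ≤ 1 / 4 := by nlinarith [sq_nonneg (v - w), sq_nonneg (v + w)]
  have hmono := eta2_mono hdel0 hdel hvw
  refine ⟨![hA, hB, hC], ?_, ?_⟩
  · rw [Fin.sum_univ_three]
    exact hout
  · rw [Fin.sum_univ_three]
    simp only [Matrix.cons_val_zero, Matrix.cons_val_one, Matrix.cons_val]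
    rw [Up.outer_trace_re, Up.outer_trace_re, Up.outer_trace_re, kr_outer, kr_outer, kr_outer,
      ← hu, ← hv, ← hw]
    unfold Fsc at hE
    linarith

end Vale.Agent.P358
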