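import Vale.Agent.P358.Kraus
import Vale.Agent.P358.Ent
import Vale.Agent.P358.EntConc
import Vale.Agent.P358.PhaseG
import Vale.Agent.P358.TwoG

/-!
# P358, general `ν`: the inequality for pure inputs
-/

namespace Vale.Agent.P358

open Matrix
open scoped ComplexOrder

variable {ι ε : Type} [Fintype ι] [DecidableEq ι] [Fintype ε] [DecidableEq ε]

theorem Tm_mul {γ ν : ℝ} (h0 : 0 < γ) (h1 : γ ≤ 1) (n0 : 0 < ν) (n1 : ν < 1) (s : ℝ)
    (hs : s = 1 ∨ s = -1) (K : ε → Matrix ι ι ℂ) (f g : ι → ℂ) :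
    Tm γ ν s K f g * (Tm γ ν s K f g)ᴴ =
      fromBlocks
        (((1 - γ * ν : ℝ) : ℂ) • kr K (outer f f) + ((γ * (1 - ν) : ℝ) : ℂ) • kr K (outer g g))
        ((((Real.sqrt (1 - γ * ν) : ℝ) : ℂ) * star (tt γ ν s)) • kr K (outer f g)
          + (((Real.sqrt (γ * (1 - ν)) : ℝ) : ℂ) * star (ww γ ν s)) • kr K (outer g f))
        ((((Real.sqrt (1 - γ * ν) : ℝ) : ℂ) * tt γ ν s) • kr K (outer g f)
          + (((Real.sqrt (γ * (1 - ν)) : ℝ) : ℂ) * ww γ ν s) • kr K (outer f g))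
        (((γ * ν : ℝ) : ℂ) • kr K (outer f f)
          + ((1 - γ * (1 - ν) : ℝ) : ℂ) • kr K (outer g g)) := by
  have ha : 0 ≤ 1 - γ * ν := by nlinarith
  have hb : 0 ≤ γ * (1 - ν) := by nlinarith
  have hsa : star ((Real.sqrt (1 - γ * ν) : ℝ) : ℂ) = ((Real.sqrt (1 - γ * ν) : ℝ) : ℂ) :=
    Complex.conj_ofReal _
  have hsb : star ((Real.sqrt (γ * (1 - ν)) : ℝ) : ℂ) = ((Real.sqrt (γ * (1 - ν)) : ℝ) : ℂ) :=
    Complex.conj_ofReal _
  unfold Tm
  rw [kr_outer2, kr_outer2, kr_outer2, kr_outer2, fromBlocks_conjTranspose, fromBlocks_multiply]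
  simp only [conjTranspose_smul, hsa, hsb, Matrix.smul_mul, Matrix.mul_smul, smul_smul,
    csqrt_mul ha, csqrt_mul hb]
  congr 1
  · rw [mul_comm (star (tt γ ν s)), mul_comm (star (ww γ ν s))]
  · rw [mul_comm (star (tt γ ν s)), mul_comm (star (ww γ ν s)), tt_norm h0 h1 n0 n1 s hs,
      ww_norm h0 n0 s hs, add_comm]

theorem dchanG_pure_avg {γ ν : ℝ} (h0 : 0 < γ) (h1 : γ ≤ 1) (n0 : 0 < ν) (n1 : ν < 1)
    (K : ε → Matrix ι ι ℂ) (f g : ι → ℂ) :
    dchanG γ ν (kr K) (outer (Sum.elim f g) (Sum.elim f g)) =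
      ((1 / 2 : ℝ) : ℂ) • (Tm γ ν 1 K f g * (Tm γ ν 1 K f g)ᴴ)
        + ((1 / 2 : ℝ) : ℂ) • (Tm γ ν (-1) K f g * (Tm γ ν (-1) K f g)ᴴ) := by
  have b11 : (outer (Sum.elim f g) (Sum.elim f g)).toBlocks₁₁ = outer f f := rfl
  have b12 : (outer (Sum.elim f g) (Sum.elim f g)).toBlocks₁₂ = outer f g := rfl
  have b21 : (outer (Sum.elim f g) (Sum.elim f g)).toBlocks₂₁ = outer g f := rfl
  have b22 : (outer (Sum.elim f g) (Sum.elim f g)).toBlocks₂₂ = outer g g := rfl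
  have hk : ((Real.sqrt (1 - γ * ν) : ℝ) : ℂ) * tt γ ν (-1)
      = 2 * ((Real.sqrt (1 - γ) : ℝ) : ℂ) - ((Real.sqrt (1 - γ * ν) : ℝ) : ℂ) * tt γ ν 1 := by
    rw [← tt_avg h0 h1 n0 n1]; ring
  have hk' : ((Real.sqrt (1 - γ * ν) : ℝ) : ℂ) * star (tt γ ν (-1))
      = 2 * ((Real.sqrt (1 - γ) : ℝ) : ℂ)
        - ((Real.sqrt (1 - γ * ν) : ℝ) : ℂ) * star (tt γ ν 1) := by
    have h := congrArg star hk
    rw [star_mul', star_sub, star_mul', star_mul'] at h
    have e1 : star ((Real.sqrt (1 - γ * ν) : ℝ) : ℂ) = ((Real.sqrt (1 - γ * ν) : ℝ) : ℂ) :=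
      Complex.conj_ofReal _
    have e2 : star ((Real.sqrt (1 - γ) : ℝ) : ℂ) = ((Real.sqrt (1 - γ) : ℝ) : ℂ) :=
      Complex.conj_ofReal _
    have e3 : star (2 : ℂ) = 2 := by
      have := Complex.conj_ofReal 2
      simpa using this
    rw [e1, e2, e3] at h
    exact h
  have hw : ww γ ν (-1) = - ww γ ν 1 := by
    unfold ww
    push_cast
    ring
  have hw' : star (ww γ ν (-1)) = - star (ww γ ν 1) := by rw [hw, star_neg]
  rw [Tm_mul h0 h1 n0 n1 1 (Or.inl rfl), Tm_mul h0 h1 n0 n1 (-1) (Or.inr rfl), hk, hk', hw, 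
    star_neg]
  unfold dchanG
  rw [b11, b12, b21, b22, fromBlocks_smul, fromBlocks_smul, fromBlocks_add]
  have hh : ((1 / 2 : ℝ) : ℂ) = 1 / 2 := by push_cast; ring
  rw [hh]
  congr 1
  · module
  · module
  · module
  · module

theorem outer_smul (c : ℂ) (f : ι → ℂ) :
    outer (c • f) (c • f) = (c * star c) • outer f f := by
  ext i j
  simp only [outer, Pi.smul_apply, smul_eq_mul, Matrix.smul_apply, star_mul']
  ring

theorem outer_trace_re (f : ι → ℂ) : (outer f f).trace.re = ∑ i, ‖f i‖ ^ 2 := by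
  unfold Matrix.trace
  rw [Complex.re_sum]
  refine Finset.sum_congr rfl fun i _ => ?_
  rw [Matrix.diag_apply]
  change (f i * star (f i)).re = _
  have : f i * star (f i) = ((‖f i‖ ^ 2 : ℝ) : ℂ) := by
    rw [Complex.star_def, Complex.mul_conj, Complex.normSq_eq_norm_sq]
  rw [this, Complex.ofReal_re]

theorem outer_psd (f : ι → ℂ) : (outer f f).PosSemidef := by
  have : outer f f = Matrix.vecMulVec f (star f) := rfl
  rw [this]
  exact Matrix.posSemidef_vecMulVec_self_star f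

theorem half_term {K : ε → Matrix ι ι ℂ} (hK : ∑ e, (K e)ᴴ * K e = 1) (f : ι → ℂ) (c : ℂ)
    (hc : c * star c = ((1 / 2 : ℝ) : ℂ)) :
    ent (kr K (outer (c • f) (c • f))) - Real.negMulLog (outer (c • f) (c • f)).trace.re
      = 1 / 2 * (ent (kr K (outer f f)) - Real.negMulLog (outer f f).trace.re) := by
  have hH : (kr K (outer f f)).IsHermitian := (kr_psd K (outer_psd f)).1
  rw [outer_smul, hc, kr_smul, ent_smul hH, kr_trace K hK, Matrix.trace_smul, smul_eq_mul,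
    Complex.re_ofReal_mul]
  have : Real.negMulLog (1 / 2 * (outer f f).trace.re)
      = (outer f f).trace.re * Real.negMulLog (1 / 2)
        + 1 / 2 * Real.negMulLog (outer f f).trace.re := Real.negMulLog_mul _ _
  rw [this]
  ring

theorem pure_gen {γ ν : ℝ} (h0 : 0 < γ) (h1 : γ ≤ 1) (n0 : 0 < ν) (n1 : ν < 1)
    (K : ε → Matrix ι ι ℂ) (hK : ∑ e, (K e)ᴴ * K e = 1) (f g : ι → ℂ)
    (hfg : (outer f f).trace.re + (outer g g).trace.re = 1) :
    ∃ h : Fin 2 × Fin 3 → ι → ℂ, ∑ m, outer (h m) (h m) = outer f f + outer g g ∧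
      ∑ m, (ent (kr K (outer (h m) (h m))) - Real.negMulLog (outer (h m) (h m)).trace.re)
        + eta2 (del γ ν (outer g g).trace.re) ≤
      ent (dchanG γ ν (kr K) (outer (Sum.elim f g) (Sum.elim f g))) := by
  obtain ⟨u, hu, him⟩ := exists_phase f g
  set g' : ι → ℂ := u • g with hg'
  have hgg : outer g' g' = outer g g := by
    rw [hg', outer_smul, mul_comm, hu, one_smul]
  have hfg' : (∑ i, ‖f i‖ ^ 2) + (∑ i, ‖g' i‖ ^ 2) = 1 := by
    rw [← outer_trace_re, ← outer_trace_re, hgg]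
    exact hfg
  obtain ⟨hp, hp1, hp2⟩ := two_kraus h0 h1 n0 n1 1 (Or.inl rfl) K hK f g' hfg' him
  obtain ⟨hm, hm1, hm2⟩ := two_kraus h0 h1 n0 n1 (-1) (Or.inr rfl) K hK f g' hfg' him
  set c : ℂ := ((Real.sqrt (1 / 2) : ℝ) : ℂ) with hcdef
  have hc : c * star c = ((1 / 2 : ℝ) : ℂ) := by
    have : star c = c := Complex.conj_ofReal _
    rw [this, hcdef, csqrt_mul (by norm_num)]
  refine ⟨fun m => c • (if m.1 = 0 then hp m.2 else hm m.2), ?_, ?_⟩
  · rw [Fintype.sum_prod_type, Fin.sum_univ_two]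
    simp only [if_true, Fin.one_eq_zero_iff, OfNat.ofNat_ne_one, if_false, outer_smul, hc]
    rw [← Finset.smul_sum, ← Finset.smul_sum, hp1, hm1, hgg]
    have hh : ((1 / 2 : ℝ) : ℂ) = 1 / 2 := by push_cast; ring
    rw [hh]
    module
  · rw [Fintype.sum_prod_type, Fin.sum_univ_two]
    simp only [if_true, Fin.one_eq_zero_iff, OfNat.ofNat_ne_one, if_false]
    rw [Finset.sum_congr rfl fun m _ => half_term hK (hp m) c hc,
      Finset.sum_congr rfl fun m _ => half_term hK (hm m) c hc, ← Finset.mul_sum,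
      ← Finset.mul_sum]
    rw [← outer_trace_re, hgg] at hp2 hm2
    rw [← dchanG_phase γ ν K f g u hu, dchanG_pure_avg h0 h1 n0 n1]
    have hconc := ent_concave (ι := ι ⊕ ι) (α := Fin 2) (fun _ => 1 / 2) (fun _ => by norm_num)
      (by simp) ![Tm γ ν 1 K f g' * (Tm γ ν 1 K f g')ᴴ, Tm γ ν (-1) K f g' * (Tm γ ν (-1) K f g')ᴴ]
      (fun a => by
        fin_cases a
        · exact Matrix.posSemidef_self_mul_conjTranspose _
        · exact Matrix.posSemidef_self_mul_conjTranspose _)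
    rw [Fin.sum_univ_two, Fin.sum_univ_two] at hconc
    simp only [Matrix.cons_val_zero, Matrix.cons_val_one] at hconc
    linarith

end Vale.Agent.P358
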