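import Vale.Agent.P358.UpperG2
import Vale.Agent.P358.PureG

/-!
P358, general `ν`: subadditivity of the Holevo quantity.
-/

namespace Vale.Agent.P358

open Matrix
open scoped ComplexOrder

theorem upper_g {ι ε : Type} [Fintype ι] [DecidableEq ι] [Fintype ε] [DecidableEq ε]
    {γ ν : ℝ} (h0 : 0 < γ) (h1 : γ ≤ 1) (n0 : 0 < ν) (n1 : ν < 1)
    (K : ε → Matrix ι ι ℂ) (hK : ∑ e, (K e)ᴴ * K e = 1) (r : ℝ)
    (hr : r ∈ hol (dchanG γ ν (kr K))) :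
    ∃ r1 ∈ hol (gadc γ ν), ∃ r2 ∈ hol (kr K), r ≤ r1 + r2 :=
  upper_of h0.le h1 n0.le n1.le K hK (fun f g hfg => pure_gen h0 h1 n0 n1 K hK f g hfg) r hr

end Vale.Agent.P358
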