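import Vale.Agent.P358.Main
import Vale.Agent.P358.LowerG
import Vale.Agent.P358.TensorG
import Vale.Agent.P358.UpperG

/-! # P358: the main theorem for all parameters from the modules -/

namespace Vale.Agent.P358

open Matrix
open scoped ComplexOrder

theorem bdd_gpow_g {γ ν : ℝ} (h0 : 0 ≤ γ) (h1 : γ ≤ 1) (n0 : 0 ≤ ν) (n1 : ν ≤ 1) (n : ℕ) :
    BddAbove (hol (gpow γ ν n)) := by
  obtain ⟨K, hK, he⟩ := gpow_eq_kr_g h0 h1 n0 n1 n
  rw [he]
  exact hol_bdd K hK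

theorem bdd_gadc_g {γ ν : ℝ} (h0 : 0 ≤ γ) (h1 : γ ≤ 1) (n0 : 0 ≤ ν) (n1 : ν ≤ 1) :
    BddAbove (hol (gadc γ ν)) := by
  rw [gadcG_kr γ ν h0 h1 n0 n1]
  exact hol_bdd _ (kadG_sum γ ν h0 h1 n0 n1)

theorem sup_succ_g {γ ν : ℝ} (h0 : 0 < γ) (h1 : γ ≤ 1) (n0 : 0 < ν) (n1 : ν < 1) (n : ℕ) :
    sSup (hol (gpow γ ν (n + 1))) = sSup (hol (gadc γ ν)) + sSup (hol (gpow γ ν n)) := by
  have b1 := bdd_gpow_g h0.le h1 n0.le n1.le (n + 1)
  have b2 := bdd_gpow_g h0.le h1 n0.le n1.le n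
  have b3 := bdd_gadc_g h0.le h1 n0.le n1.le
  obtain ⟨K, hK, he⟩ := gpow_eq_kr_g h0.le h1 n0.le n1.le n
  apply le_antisymm
  · refine csSup_le (hol_nonempty _) fun r hr => ?_
    rw [hol_gpow_succ_g, he] at hr
    obtain ⟨r1, hr1, r2, hr2, hle⟩ := upper_g h0 h1 n0 n1 K hK r hr
    rw [← he] at hr2
    have k1 := le_csSup b3 hr1
    have k2 := le_csSup b2 hr2
    linarith
  · have key : ∀ r1 ∈ hol (gadc γ ν), ∀ r2 ∈ hol (gpow γ ν n),
        r1 + r2 ≤ sSup (hol (gpow γ ν (n + 1))) := by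
      intro r1 hr1 r2 hr2
      refine le_csSup b1 ?_
      rw [hol_gpow_succ_g, he]
      rw [he] at hr2
      exact lowerG γ ν h0.le h1 n0.le n1.le K hK r1 r2 hr1 hr2
    have k1 : ∀ r2 ∈ hol (gpow γ ν n),
        sSup (hol (gadc γ ν)) ≤ sSup (hol (gpow γ ν (n + 1))) - r2 := fun r2 hr2 =>
      csSup_le (hol_nonempty _) fun r1 hr1 => by
        have := key r1 hr1 r2 hr2
        linarith
    have k2 : sSup (hol (gpow γ ν n)) ≤
        sSup (hol (gpow γ ν (n + 1))) - sSup (hol (gadc γ ν)) :=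
      csSup_le (hol_nonempty _) fun r2 hr2 => by
        have := k1 r2 hr2
        linarith
    linarith

/-- the statement for one pair of parameters -/
def Addv (γ ν : ℝ) : Prop :=
  (∀ n : ℕ, BddAbove (holevoSet (gpow γ ν n))) ∧
    BddAbove (holevoSet (gadc γ ν)) ∧
    (∀ n : ℕ, chi (gpow γ ν n) = n * chi (gadc γ ν)) ∧
    capacity γ ν = chi (gadc γ ν)

theorem bdd_bits {ι κ : Type*} [Fintype ι] [Fintype κ] [DecidableEq κ]
    {Φ : Matrix ι ι ℂ → Matrix κ κ ℂ} (h : BddAbove (hol Φ)) : BddAbove (holevoSet Φ) := by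
  obtain ⟨c, hc⟩ := h
  rw [holevoSet_eq]
  refine ⟨c / Real.log 2, ?_⟩
  rintro _ ⟨r, hr, rfl⟩
  exact div_le_div_of_nonneg_right (hc hr) (Real.log_nonneg (by norm_num))

theorem cap_of_chi {γ ν : ℝ} (hc : ∀ n : ℕ, chi (gpow γ ν n) = n * chi (gadc γ ν)) :
    capacity γ ν = chi (gadc γ ν) := by
  unfold capacity
  have hset : {r | ∃ n : ℕ, 1 ≤ n ∧ r = chi (gpow γ ν n) / n} = {chi (gadc γ ν)} := by
    ext r
    simp only [Set.mem_setOf_eq, Set.mem_singleton_iff]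
    constructor
    · rintro ⟨n, hn, rfl⟩
      rw [hc n]
      have : (n : ℝ) ≠ 0 := by positivity
      field_simp
    · rintro rfl
      exact ⟨1, le_rfl, by rw [hc 1]; simp⟩
  rw [hset, csSup_singleton]

theorem main_interior {γ ν : ℝ} (h0 : 0 < γ) (h1 : γ ≤ 1) (n0 : 0 < ν) (n1 : ν < 1) : Addv γ ν := by
  have hc : ∀ n : ℕ, chi (gpow γ ν n) = n * chi (gadc γ ν) := by
    intro n
    rw [chi_eq _ (bdd_gpow_g h0.le h1 n0.le n1.le n), chi_eq _ (bdd_gadc_g h0.le h1 n0.le n1.le),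
      ← mul_div_assoc]
    congr 1
    induction n with
    | zero => rw [hol_gpow_zero_g, csSup_singleton, Nat.cast_zero, zero_mul]
    | succ n ih =>
        rw [sup_succ_g h0 h1 n0 n1 n, ih]
        push_cast
        ring
  exact ⟨fun n => bdd_bits (bdd_gpow_g h0.le h1 n0.le n1.le n),
    bdd_bits (bdd_gadc_g h0.le h1 n0.le n1.le), hc, cap_of_chi hc⟩

theorem main_zero {γ : ℝ} (h0 : 0 ≤ γ) (h1 : γ ≤ 1) : Addv γ 0 := by
  obtain ⟨k1, k2, k3⟩ := main_thm γ h0 h1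
  exact ⟨k1, bdd_bits (bdd_gadc γ h0 h1), k2, k3⟩

/-! ### the flip -/

theorem holevoSet_sub {ι κ : Type*} [Fintype ι] [DecidableEq ι] [Fintype κ] [DecidableEq κ]
    (Φ Ψ : Matrix ι ι ℂ → Matrix κ κ ℂ) (σ : ι ≃ ι) (τ : κ ≃ κ)
    (h : ∀ ρ, Ψ ρ = (Φ (ρ.submatrix σ σ)).submatrix τ τ) : holevoSet Ψ ⊆ holevoSet Φ := by
  rintro r ⟨α, i, q, ρ, hq, hs, hρ, rfl⟩
  refine ⟨α, i, q, fun a => (ρ a).submatrix σ σ, hq, hs, fun a => isState_submatrix σ (hρ a), ?_⟩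
  have e1 : ∀ a, vnS (Ψ (ρ a)) = vnS (Φ ((ρ a).submatrix σ σ)) := by
    intro a
    rw [h]
    unfold vnS
    rw [ent_submatrix]
  have e2 : vnS (∑ a, (q a : ℂ) • Ψ (ρ a)) = vnS (∑ a, (q a : ℂ) • Φ ((ρ a).submatrix σ σ)) := by
    have e3 : ∑ a, (q a : ℂ) • Ψ (ρ a)
        = (∑ a, (q a : ℂ) • Φ ((ρ a).submatrix σ σ)).submatrix τ τ := by
      rw [submatrix_sum_smul]
      exact Finset.sum_congr rfl fun a _ => by rw [h]
    rw [e3]
    unfold vnS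
    rw [ent_submatrix]
  rw [e2]
  congr 1
  exact Finset.sum_congr rfl fun a _ => by rw [e1]

theorem holevoSet_flip {ι κ : Type*} [Fintype ι] [DecidableEq ι] [Fintype κ] [DecidableEq κ]
    (Φ Ψ : Matrix ι ι ℂ → Matrix κ κ ℂ) (σ : ι ≃ ι) (τ : κ ≃ κ)
    (h : ∀ ρ, Ψ ρ = (Φ (ρ.submatrix σ σ)).submatrix τ τ) : holevoSet Ψ = holevoSet Φ := by
  refine Set.Subset.antisymm (holevoSet_sub Φ Ψ σ τ h) (holevoSet_sub Ψ Φ σ.symm τ.symm ?_)
  intro ρ
  rw [h]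
  simp

theorem gadc_flip (γ ν : ℝ) (ρ : Matrix (Fin 2) (Fin 2) ℂ) :
    gadc γ (1 - ν) ρ = (gadc γ ν (ρ.submatrix (Equiv.swap 0 1) (Equiv.swap 0 1))).submatrix
      (Equiv.swap 0 1) (Equiv.swap 0 1) := by
  ext i j
  fin_cases i <;> fin_cases j <;> simp [gadc] <;> ring

theorem gpow_flip (γ ν : ℝ) (n : ℕ) (ρ : Matrix (Fin n → Fin 2) (Fin n → Fin 2) ℂ) :
    gpow γ (1 - ν) n ρ = (gpow γ ν n (ρ.submatrix
      (Equiv.piCongrRight fun _ => Equiv.swap 0 1) (Equiv.piCongrRight fun _ => Equiv.swap 0 1))).submatrix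
      (Equiv.piCongrRight fun _ => Equiv.swap 0 1) (Equiv.piCongrRight fun _ => Equiv.swap 0 1) := by
  set σ : (Fin n → Fin 2) ≃ (Fin n → Fin 2) := Equiv.piCongrRight fun _ => Equiv.swap 0 1 with hσ
  ext x x'
  simp only [gpow, submatrix_apply]
  rw [← Equiv.sum_comp σ (fun y => ∑ y' : Fin n → Fin 2,
    (∏ i, gadc γ ν (Matrix.single (y i) (y' i) 1) (σ x i) (σ x' i)) * ρ (σ y) (σ y'))]
  refine Finset.sum_congr rfl fun y _ => ?_
  rw [← Equiv.sum_comp σ (fun y' => (∏ i, gadc γ ν (Matrix.single (σ y i) (y' i) 1)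
    (σ x i) (σ x' i)) * ρ (σ (σ y)) (σ y'))]
  refine Finset.sum_congr rfl fun y' _ => ?_
  have hss : ∀ z, σ (σ z) = z := by
    intro z
    funext i
    simp [hσ]
  rw [hss, hss]
  congr 1
  refine Finset.prod_congr rfl fun i _ => ?_
  rw [gadc_flip]
  simp only [submatrix_apply]
  have e : (Matrix.single (y i) (y' i) (1 : ℂ)).submatrix (Equiv.swap (0 : Fin 2) 1)
      (Equiv.swap (0 : Fin 2) 1) = Matrix.single (σ y i) (σ y' i) 1 := by
    ext a b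
    simp only [submatrix_apply, Matrix.single_apply, hσ, Equiv.piCongrRight_apply, Pi.map_apply]
    have h1 : ∀ u v : Fin 2, u = Equiv.swap 0 1 v ↔ Equiv.swap 0 1 u = v := by decide
    simp only [h1]
  rw [e]
  rfl

theorem main_flip {γ ν : ℝ} (h : Addv γ ν) : Addv γ (1 - ν) := by
  obtain ⟨k1, k2, k3, k4⟩ := h
  have e1 : ∀ n, holevoSet (gpow γ (1 - ν) n) = holevoSet (gpow γ ν n) := fun n =>
    holevoSet_flip _ _ _ _ (gpow_flip γ ν n)
  have e2 : holevoSet (gadc γ (1 - ν)) = holevoSet (gadc γ ν) :=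
    holevoSet_flip _ _ _ _ (gadc_flip γ ν)
  have e3 : ∀ n, chi (gpow γ (1 - ν) n) = chi (gpow γ ν n) := fun n => by
    unfold chi; rw [e1]
  have e4 : chi (gadc γ (1 - ν)) = chi (gadc γ ν) := by
    unfold chi; rw [e2]
  have hc : ∀ n : ℕ, chi (gpow γ (1 - ν) n) = n * chi (gadc γ (1 - ν)) := fun n => by
    rw [e3, e4, k3]
  exact ⟨fun n => by rw [e1]; exact k1 n, by rw [e2]; exact k2, hc, cap_of_chi hc⟩

theorem gadc_zero (ν : ℝ) : gadc 0 ν = gadc 0 0 := by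
  funext ρ
  simp [gadc]

theorem gpow_zero' (ν : ℝ) (n : ℕ) : gpow 0 ν n = gpow 0 0 n := by
  funext ρ
  unfold gpow
  rw [gadc_zero ν]

/-- additivity and the capacity formula for all parameters -/
theorem main_all {γ ν : ℝ} (h0 : 0 ≤ γ) (h1 : γ ≤ 1) (n0 : 0 ≤ ν) (n1 : ν ≤ 1) : Addv γ ν := by
  rcases h0.eq_or_lt with rfl | hγ
  · obtain ⟨k1, k2, k3, k4⟩ := main_zero (γ := 0) le_rfl zero_le_one
    have hc : ∀ n : ℕ, chi (gpow 0 ν n) = n * chi (gadc 0 ν) := fun n => by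
      rw [gpow_zero', gadc_zero, k3]
    exact ⟨fun n => by rw [gpow_zero']; exact k1 n, by rw [gadc_zero]; exact k2, hc,
      cap_of_chi hc⟩
  · rcases n0.eq_or_lt with rfl | hν
    · exact main_zero h0 h1
    · rcases n1.eq_or_lt with rfl | hν1
      · have := main_flip (main_zero h0 h1)
        rwa [sub_zero] at this
      · exact main_interior hγ h1 hν hν1

end Vale.Agent.P358
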