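import Vale.Agent.P358.Defs

/-!
P358, module Pin: `det (U + A V⁻¹ A) ≥ det U ∏ (1 + a_k² / (U_kk V_kk))`.
-/

namespace Vale.Agent.P358
namespace PinAux

open Matrix
open scoped ComplexOrder

section diag
variable {ι : Type*}

theorem diag_re_pos {M : Matrix ι ι ℂ} (hM : M.PosDef) (i : ι) : 0 < (M i i).re := by
  have h := hM.diag_pos (i := i)
  exact (Complex.pos_iff.1 h).1

theorem diag_real {M : Matrix ι ι ℂ} (hM : M.IsHermitian) (i : ι) : M i i = ((M i i).re : ℂ) := by
  have h := hM.apply i i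
  apply Complex.ext
  · simp
  · have := congrArg Complex.im h
    simp at this
    simp
    linarith

end diag

section cs
variable {ι : Type*} [Fintype ι] [DecidableEq ι]

theorem cs {M : Matrix ι ι ℂ} (hM : M.PosDef) (y : ι → ℂ) (i : ι) :
    Complex.normSq (y i) ≤ (M⁻¹ i i).re * (star y ⬝ᵥ (M *ᵥ y)).re := by
  set m : ℝ := (M⁻¹ i i).re with hm
  have hm0 : 0 < m := diag_re_pos hM.inv i
  have hdet : IsUnit M.det := (Matrix.isUnit_iff_isUnit_det _).1 hM.isUnit
  set v : ι → ℂ := M⁻¹ *ᵥ Pi.single i 1 with hv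
  have hMv : M *ᵥ v = Pi.single i 1 := by
    rw [hv, mulVec_mulVec, Matrix.mul_nonsing_inv _ hdet, one_mulVec]
  have hvi : v i = (m : ℂ) := by
    rw [hv, mulVec_single_one, hm]
    exact diag_real hM.inv.isHermitian i
  have h1 : star v ⬝ᵥ (M *ᵥ y) = y i := by
    have e : star v ᵥ* M = star (M *ᵥ v) := by
      have e0 := star_mulVec M v
      rw [hM.isHermitian.eq] at e0
      exact e0.symm
    rw [dotProduct_mulVec, e, hMv]
    rw [show star (Pi.single i (1 : ℂ) : ι → ℂ) = Pi.single i 1 by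
      ext j; by_cases h : j = i
      · subst h; simp
      · simp [h]]
    rw [single_dotProduct, one_mul]
  set c : ℂ := y i / m with hc
  have h2 : star y ⬝ᵥ (M *ᵥ (c • v)) = c * star (y i) := by
    rw [mulVec_smul, hMv, dotProduct_smul, dotProduct_single]
    simp
  have hpos := hM.posSemidef.dotProduct_mulVec_nonneg (y - c • v)
  have hexp : star (y - c • v) ⬝ᵥ (M *ᵥ (y - c • v))
      = star y ⬝ᵥ (M *ᵥ y) - c * star (y i) - star c * y i + star c * c * m := by
    rw [mulVec_sub, dotProduct_sub, star_sub, star_smul, sub_dotProduct, sub_dotProduct, h2,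
      smul_dotProduct, smul_dotProduct, h1, mulVec_smul, hMv, dotProduct_smul, dotProduct_single,
      Pi.star_apply, hvi]
    simp only [smul_eq_mul, mul_one, Complex.star_def, Complex.conj_ofReal]
    ring
  rw [hexp] at hpos
  have hre := (Complex.nonneg_iff.1 hpos).1
  have hns : Complex.normSq (y i) = (y i).re * (y i).re + (y i).im * (y i).im :=
    Complex.normSq_apply _
  have hcre : c.re = (y i).re / m := by rw [hc]; simp
  have hcim : c.im = (y i).im / m := by rw [hc]; simp
  simp only [Complex.add_re, Complex.sub_re, Complex.mul_re, Complex.star_def, Complex.conj_re,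
    Complex.conj_im, Complex.ofReal_re, Complex.ofReal_im, Complex.mul_im, hcre, hcim] at hre
  rw [hns]
  have key : (y i).re * (y i).re + (y i).im * (y i).im
      = m * (((y i).re * (y i).re + (y i).im * (y i).im) / m) := by field_simp
  have h3 : ((y i).re * (y i).re + (y i).im * (y i).im) / m ≤ (star y ⬝ᵥ (M *ᵥ y)).re := by
    have e3 : (star y ⬝ᵥ M *ᵥ y).re -
        ((y i).re / m * (y i).re - (y i).im / m * -(y i).im) -
        ((y i).re / m * (y i).re - -((y i).im / m) * (y i).im) +
        (((y i).re / m * ((y i).re / m) - -((y i).im / m) * ((y i).im / m)) * m -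
          ((y i).re / m * ((y i).im / m) + -((y i).im / m) * ((y i).re / m)) * 0)
        = (star y ⬝ᵥ (M *ᵥ y)).re - ((y i).re * (y i).re + (y i).im * (y i).im) / m := by
      field_simp
      ring
    linarith [e3 ▸ hre]
  rw [key]
  exact mul_le_mul_of_nonneg_left h3 hm0.le

theorem det_re_pos {M : Matrix ι ι ℂ} (hM : M.PosDef) : 0 < M.det.re :=
  (Complex.pos_iff.1 hM.det_pos).1

theorem det_real {M : Matrix ι ι ℂ} (hM : M.PosDef) : M.det = (M.det.re : ℂ) := by
  apply Complex.ext
  · simp
  · have := (Complex.pos_iff.1 hM.det_pos).2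
    simpa using this.symm

/-- diagonal entries: `1 ≤ (M⁻¹)_ii M_ii` -/
theorem one_le {M : Matrix ι ι ℂ} (hM : M.PosDef) (i : ι) :
    1 ≤ (M⁻¹ i i).re * (M i i).re := by
  have h := cs hM (Pi.single i 1) i
  have e : star (Pi.single i (1 : ℂ) : ι → ℂ) ⬝ᵥ (M *ᵥ Pi.single i 1) = M i i := by
    rw [mulVec_single_one]
    rw [show star (Pi.single i (1 : ℂ) : ι → ℂ) = Pi.single i 1 by
      ext j; by_cases h : j = i
      · subst h; simp
      · simp [h]]
    rw [single_dotProduct, one_mul]
    rfl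
  rw [e] at h
  simpa using h

end cs

/-- `(M⁻¹)_00 det M = det M'` -/
theorem inv_det {n : ℕ} {M : Matrix (Fin (n + 1)) (Fin (n + 1)) ℂ} (hM : M.PosDef) :
    (M.submatrix Fin.succ Fin.succ).det.re = (M⁻¹ 0 0).re * M.det.re := by
  have hd := det_re_pos hM
  have hdr := det_real hM
  have h1 : M⁻¹ 0 0 = (M.det)⁻¹ * (M.submatrix Fin.succ Fin.succ).det := by
    rw [Matrix.inv_def, Matrix.smul_apply, adjugate_fin_succ_eq_det_submatrix, Ring.inverse_eq_inv',
      smul_eq_mul]
    simp [Fin.succAbove_zero]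
  have h2 : (M.submatrix Fin.succ Fin.succ).det = M⁻¹ 0 0 * M.det := by
    rw [h1, mul_comm (M.det)⁻¹, mul_assoc, inv_mul_cancel₀, mul_one]
    rw [hdr]
    exact_mod_cast hd.ne'
  rw [h2, hdr]
  simp

theorem sub_posDef {n : ℕ} {M : Matrix (Fin (n + 1)) (Fin (n + 1)) ℂ} (hM : M.PosDef) :
    (M.submatrix Fin.succ Fin.succ).PosDef :=
  hM.submatrix (Fin.succ_injective n)

/-- entries of the inverse of a principal submatrix are smaller -/
theorem inv_sub_le {n : ℕ} {M : Matrix (Fin (n + 1)) (Fin (n + 1)) ℂ} (hM : M.PosDef) (k : Fin n) :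
    ((M.submatrix Fin.succ Fin.succ)⁻¹ k k).re ≤ (M⁻¹ k.succ k.succ).re := by
  set M' := M.submatrix Fin.succ Fin.succ with hM'
  have hp : M'.PosDef := sub_posDef hM
  set x : Fin n → ℂ := M'⁻¹ *ᵥ Pi.single k 1 with hx
  have hdet : IsUnit M'.det := (Matrix.isUnit_iff_isUnit_det _).1 hp.isUnit
  have hMx : M' *ᵥ x = Pi.single k 1 := by
    rw [hx, mulVec_mulVec, Matrix.mul_nonsing_inv _ hdet, one_mulVec]
  have hxk : x k = ((M'⁻¹ k k).re : ℂ) := by
    rw [hx, mulVec_single_one]
    exact diag_real hp.inv.isHermitian k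
  set y : Fin (n + 1) → ℂ := Fin.cons 0 x with hy
  have h := cs hM y k.succ
  have hyk : y k.succ = ((M'⁻¹ k k).re : ℂ) := by rw [hy, Fin.cons_succ, hxk]
  have hq : star y ⬝ᵥ (M *ᵥ y) = star x ⬝ᵥ (M' *ᵥ x) := by
    simp only [dotProduct, mulVec, Pi.star_apply]
    rw [Fin.sum_univ_succ]
    simp only [hy, Fin.cons_zero, Fin.cons_succ, star_zero, zero_mul, zero_add]
    refine Finset.sum_congr rfl fun i _ => ?_
    rw [Fin.sum_univ_succ]
    simp only [Fin.cons_zero, Fin.cons_succ, mul_zero, zero_add, hM', submatrix_apply]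
  have hq2 : star x ⬝ᵥ (M' *ᵥ x) = ((M'⁻¹ k k).re : ℂ) := by
    rw [hMx, dotProduct_single, Pi.star_apply, hxk]
    simp
  rw [hyk, hq, hq2, Complex.normSq_ofReal, Complex.ofReal_re] at h
  have hpos : 0 < (M'⁻¹ k k).re := diag_re_pos hp.inv k
  exact le_of_mul_le_mul_right h hpos

theorem main_ineq (n : ℕ) : ∀ (U V : Matrix (Fin n) (Fin n) ℂ) (_ : U.PosDef) (_ : V.PosDef)
    (a : Fin n → ℝ),
    U.det.re * ∏ k, (1 + a k ^ 2 / ((U k k).re * (V k k).re)) ≤
      (U + diagonal (fun k => (a k : ℂ)) * V⁻¹ * diagonal (fun k => (a k : ℂ))).det.re := by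
  induction n with
  | zero => intro U V hU hV a; simp
  | succ n ih =>
    intro U V hU hV a
    set D : Matrix (Fin (n + 1)) (Fin (n + 1)) ℂ := diagonal (fun k => (a k : ℂ)) with hD
    have hDH : Dᴴ = D := by
      rw [hD, diagonal_conjTranspose]
      congr 1
      ext k
      simp
    set G := U + D * V⁻¹ * D with hG
    have hPS : (D * V⁻¹ * D).PosSemidef := by
      have := hV.inv.posSemidef.conjTranspose_mul_mul_same D
      rwa [hDH] at this
    have hGp : G.PosDef := hU.add_posSemidef hPS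
    -- the principal submatrix
    set Vs := (V⁻¹.submatrix Fin.succ Fin.succ) with hVs
    have hVsp : Vs.PosDef := sub_posDef hV.inv
    set V2 := Vs⁻¹ with hV2
    have hV2p : V2.PosDef := hVsp.inv
    have hV2i : V2⁻¹ = Vs := by
      rw [hV2, Matrix.nonsing_inv_nonsing_inv]
      exact (Matrix.isUnit_iff_isUnit_det _).1 hVsp.isUnit
    have hVV : (V⁻¹)⁻¹ = V := by
      rw [Matrix.nonsing_inv_nonsing_inv]
      exact (Matrix.isUnit_iff_isUnit_det _).1 hV.isUnit
    set U' := U.submatrix Fin.succ Fin.succ with hU'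
    have hU'p : U'.PosDef := sub_posDef hU
    have ih1 := ih U' V2 hU'p hV2p (fun k => a k.succ)
    rw [hV2i] at ih1
    have hsub : G.submatrix Fin.succ Fin.succ
        = U' + diagonal (fun k : Fin n => (a k.succ : ℂ)) * Vs
          * diagonal (fun k : Fin n => (a k.succ : ℂ)) := by
      ext i j
      rw [hG, hD, submatrix_apply, Matrix.add_apply, mul_diagonal, diagonal_mul, Matrix.add_apply,
        mul_diagonal, diagonal_mul]
      rfl
    rw [← hsub] at ih1
    -- compare the products
    have hprod : ∏ k : Fin n, (1 + a k.succ ^ 2 / ((U k.succ k.succ).re * (V k.succ k.succ).re))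
        ≤ ∏ k : Fin n, (1 + a k.succ ^ 2 / ((U' k k).re * (V2 k k).re)) := by
      refine Finset.prod_le_prod (fun k _ => ?_) (fun k _ => ?_)
      · have h1 := diag_re_pos hU k.succ
        have h2 := diag_re_pos hV k.succ
        positivity
      · have h1 := diag_re_pos hU k.succ
        have h2 := diag_re_pos hV2p k
        have h3 : (V2 k k).re ≤ (V k.succ k.succ).re := by
          have := inv_sub_le hV.inv k
          rw [hVV] at this
          exact this
        have h4 : (U' k k).re = (U k.succ k.succ).re := rfl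
        rw [h4]
        have h5 : (U k.succ k.succ).re * (V2 k k).re ≤ (U k.succ k.succ).re * (V k.succ k.succ).re :=
          mul_le_mul_of_nonneg_left h3 h1.le
        have h6 : 0 < (U k.succ k.succ).re * (V2 k k).re := mul_pos h1 h2
        have := div_le_div_of_nonneg_left (sq_nonneg (a k.succ)) h6 h5
        linarith
    -- the index 0
    set g := (G⁻¹ 0 0).re with hg
    set u := (U⁻¹ 0 0).re with hu
    have hg0 : 0 < g := diag_re_pos hGp.inv 0
    have hu0 : 0 < u := diag_re_pos hU.inv 0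
    have hV0 : 0 < (V 0 0).re := diag_re_pos hV 0
    have hU0 : 0 < (U 0 0).re := diag_re_pos hU 0
    have hone := one_le hU 0
    have hkey : 1 / u + a 0 ^ 2 / (V 0 0).re ≤ 1 / g := by
      set x : Fin (n + 1) → ℂ := G⁻¹ *ᵥ Pi.single 0 1 with hx
      have hdet : IsUnit G.det := (Matrix.isUnit_iff_isUnit_det _).1 hGp.isUnit
      have hGx : G *ᵥ x = Pi.single 0 1 := by
        rw [hx, mulVec_mulVec, Matrix.mul_nonsing_inv _ hdet, one_mulVec]
      have hx0 : x 0 = (g : ℂ) := by
        rw [hx, mulVec_single_one]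
        exact diag_real hGp.inv.isHermitian 0
      have hq : star x ⬝ᵥ (G *ᵥ x) = (g : ℂ) := by
        rw [hGx, dotProduct_single, Pi.star_apply, hx0]
        simp
      clear_value x
      have hsplit : star x ⬝ᵥ (G *ᵥ x)
          = star x ⬝ᵥ (U *ᵥ x) + star (D *ᵥ x) ⬝ᵥ (V⁻¹ *ᵥ (D *ᵥ x)) := by
        rw [hG, add_mulVec, dotProduct_add]
        congr 1
        have e0 := star_mulVec D x
        rw [hDH] at e0
        rw [e0, ← dotProduct_mulVec, mulVec_mulVec, mulVec_mulVec]
      have c1 := cs hU x 0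
      have c2 := cs hV.inv (D *ᵥ x) 0
      rw [hVV] at c2
      have hDx : (D *ᵥ x) 0 = ((a 0 * g : ℝ) : ℂ) := by
        rw [hD, mulVec_diagonal, hx0]
        push_cast
        ring
      rw [hDx, Complex.normSq_ofReal] at c2
      rw [hx0, Complex.normSq_ofReal] at c1
      have hre : g = (star x ⬝ᵥ (U *ᵥ x)).re + (star (D *ᵥ x) ⬝ᵥ (V⁻¹ *ᵥ (D *ᵥ x))).re := by
        have := congrArg Complex.re (hq.symm.trans hsplit)
        simpa using this
      have d1 : g * g / u ≤ (star x ⬝ᵥ (U *ᵥ x)).re := by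
        rw [div_le_iff₀ hu0]; linarith
      have d2 : a 0 * g * (a 0 * g) / (V 0 0).re ≤ (star (D *ᵥ x) ⬝ᵥ (V⁻¹ *ᵥ (D *ᵥ x))).re := by
        rw [div_le_iff₀ hV0]; linarith
      have d3 : g * g * (1 / u + a 0 ^ 2 / (V 0 0).re) ≤ g := by
        have : g * g * (1 / u + a 0 ^ 2 / (V 0 0).re)
            = g * g / u + a 0 * g * (a 0 * g) / (V 0 0).re := by ring
        rw [this]
        linarith
      rw [le_div_iff₀ hg0]
      have d4 : g * ((1 / u + a 0 ^ 2 / (V 0 0).re) * g) ≤ g * 1 := by
        calc g * ((1 / u + a 0 ^ 2 / (V 0 0).re) * g)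
            = g * g * (1 / u + a 0 ^ 2 / (V 0 0).re) := by ring
          _ ≤ g * 1 := by linarith
      exact le_of_mul_le_mul_left d4 hg0
    -- assembly
    have hGdet := inv_det hGp
    have hUdet := inv_det hU
    rw [← hg] at hGdet
    rw [← hu] at hUdet
    have hUd := det_re_pos hU
    have hU'd := det_re_pos hU'p
    rw [Fin.prod_univ_succ]
    set P := ∏ k : Fin n, (1 + a k.succ ^ 2 / ((U k.succ k.succ).re * (V k.succ k.succ).re)) with hP
    have hP0 : 0 ≤ P := by
      refine Finset.prod_nonneg fun k _ => ?_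
      have h1 := diag_re_pos hU k.succ
      have h2 := diag_re_pos hV k.succ
      positivity
    have e1 : U'.det.re * P ≤ g * G.det.re := by
      rw [← hGdet]
      exact (mul_le_mul_of_nonneg_left hprod hU'd.le).trans ih1
    have e2 : G.det.re = (1 / g) * (g * G.det.re) := by field_simp
    rw [e2]
    have e3 : 0 ≤ U'.det.re * P := mul_nonneg hU'd.le hP0
    calc U.det.re * ((1 + a 0 ^ 2 / ((U 0 0).re * (V 0 0).re)) * P)
        ≤ U.det.re * ((u * (1 / u + a 0 ^ 2 / (V 0 0).re)) * P) := by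
          refine mul_le_mul_of_nonneg_left (mul_le_mul_of_nonneg_right ?_ hP0) hUd.le
          have e4 : u * (1 / u + a 0 ^ 2 / (V 0 0).re) = 1 + u * (a 0 ^ 2 / (V 0 0).re) := by
            field_simp
          rw [e4]
          have e5 : a 0 ^ 2 / ((U 0 0).re * (V 0 0).re) = (1 / (U 0 0).re) * (a 0 ^ 2 / (V 0 0).re) := by
            field_simp
          rw [e5]
          have e6 : 1 / (U 0 0).re ≤ u := by
            rw [div_le_iff₀ hU0]
            exact hone
          have e7 : 0 ≤ a 0 ^ 2 / (V 0 0).re := by positivity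
          have := mul_le_mul_of_nonneg_right e6 e7
          linarith
      _ = (1 / u + a 0 ^ 2 / (V 0 0).re) * (U'.det.re * P) := by
          rw [hUdet]; ring
      _ ≤ (1 / g) * (U'.det.re * P) := mul_le_mul_of_nonneg_right hkey e3
      _ ≤ (1 / g) * (g * G.det.re) := mul_le_mul_of_nonneg_left e1 (by positivity)

end PinAux

open Matrix PinAux
open scoped ComplexOrder

theorem pin {ι : Type*} [Fintype ι] [DecidableEq ι] (U V : Matrix ι ι ℂ) (hU : U.PosDef)
    (hV : V.PosDef) (a : ι → ℝ) :
    (U.det * V.det).re * ∏ k, ((U k k).re * (V k k).re + a k ^ 2) ≤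
      (fromBlocks U (diagonal fun k => (a k : ℂ)) (-(diagonal fun k => (a k : ℂ))) V).det.re *
        ∏ k, ((U k k).re * (V k k).re) := by
  classical
  -- reindex
  let e := Fintype.equivFin ι
  set n := Fintype.card ι
  have key : U.det.re * ∏ k, (1 + a k ^ 2 / ((U k k).re * (V k k).re)) ≤
      (U + diagonal (fun k => (a k : ℂ)) * V⁻¹ * diagonal (fun k => (a k : ℂ))).det.re := by
    have h := main_ineq n (U.submatrix e.symm e.symm) (V.submatrix e.symm e.symm)
      (hU.submatrix e.symm.injective) (hV.submatrix e.symm.injective) (fun k => a (e.symm k))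
    have e1 : (diagonal (fun k => (a (e.symm k) : ℂ)) : Matrix (Fin n) (Fin n) ℂ)
        = (diagonal (fun k => (a k : ℂ))).submatrix e.symm e.symm := by
      rw [submatrix_diagonal_equiv]; rfl
    have e2 : U.submatrix e.symm e.symm + diagonal (fun k => (a (e.symm k) : ℂ))
        * (V.submatrix e.symm e.symm)⁻¹ * diagonal (fun k => (a (e.symm k) : ℂ))
        = (U + diagonal (fun k => (a k : ℂ)) * V⁻¹ * diagonal (fun k => (a k : ℂ))).submatrix
            e.symm e.symm := by
      rw [e1, inv_submatrix_equiv, submatrix_mul_equiv, submatrix_mul_equiv]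
      rfl
    rw [e2, det_submatrix_equiv_self, det_submatrix_equiv_self] at h
    rw [← Equiv.prod_comp e.symm]
    exact h
  let _ := hV.isUnit.invertible
  have hdet : (fromBlocks U (diagonal fun k => (a k : ℂ)) (-(diagonal fun k => (a k : ℂ))) V).det
      = V.det * (U + diagonal (fun k => (a k : ℂ)) * V⁻¹ * diagonal (fun k => (a k : ℂ))).det := by
    rw [det_fromBlocks₂₂, invOf_eq_nonsing_inv]
    congr 2
    rw [mul_neg, sub_neg_eq_add]
  have hVr := det_real hV
  have hUr := det_real hU
  have hVp := det_re_pos hV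
  rw [hdet]
  have r1 : (U.det * V.det).re = U.det.re * V.det.re := by
    rw [hUr, hVr]; simp
  have r2 : (V.det * (U + diagonal (fun k => (a k : ℂ)) * V⁻¹ * diagonal (fun k => (a k : ℂ))).det).re
      = V.det.re * (U + diagonal (fun k => (a k : ℂ)) * V⁻¹ * diagonal (fun k => (a k : ℂ))).det.re := by
    rw [hVr]; simp
  rw [r1, r2]
  have hpp : 0 < ∏ k, ((U k k).re * (V k k).re) :=
    Finset.prod_pos fun k _ => mul_pos (diag_re_pos hU k) (diag_re_pos hV k)
  have r3 : ∏ k, ((U k k).re * (V k k).re + a k ^ 2)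
      = (∏ k, (1 + a k ^ 2 / ((U k k).re * (V k k).re))) * ∏ k, ((U k k).re * (V k k).re) := by
    rw [← Finset.prod_mul_distrib]
    refine Finset.prod_congr rfl fun k _ => ?_
    have h1 := diag_re_pos hU k
    have h2 := diag_re_pos hV k
    field_simp
  rw [r3]
  calc U.det.re * V.det.re * ((∏ k, (1 + a k ^ 2 / ((U k k).re * (V k k).re)))
        * ∏ k, ((U k k).re * (V k k).re))
      = V.det.re * (U.det.re * ∏ k, (1 + a k ^ 2 / ((U k k).re * (V k k).re)))
        * ∏ k, ((U k k).re * (V k k).re) := by ring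
    _ ≤ _ := by
      refine mul_le_mul_of_nonneg_right ?_ hpp.le
      exact mul_le_mul_of_nonneg_left key hVp.le

end Vale.Agent.P358
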