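import Mathlib

/-!
# P358: the scalar inequality behind the determinant pinching
-/

namespace Vale.Agent.P358

/-- `a = r - ρ`, `c = q - ζ`, `d1 = ρ - ξ`, `d2 = ζ - ζ'`, `x = ξ`, `z = ζ'`, `|η| = e`. -/
theorem pin_scalar {a c d1 d2 x z m e : ℝ} (ha : 0 < a) (hc : 0 < c) (hd1 : 0 ≤ d1)
    (hd2 : 0 ≤ d2) (hx : 0 ≤ x) (hz : 0 ≤ z) (he : e ^ 2 ≤ x * d2) :
    a * c * ((a + d1 + x) * (c + d2 + z) + m ^ 2) ≤
      (a + d1 + x) * (c + d2 + z) * ((a + d1) * (c + d2) + (m - e) ^ 2) := by
  obtain ⟨R, hR⟩ : ∃ R, R = (a + d1 + x) * (c + d2 + z) := ⟨_, rfl⟩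
  obtain ⟨S, hS⟩ : ∃ S, S = a * d2 + c * d1 + d1 * d2 := ⟨_, rfl⟩
  have hR0 : 0 < R := by rw [hR]; positivity
  have hS0 : 0 ≤ S := by rw [hS]; positivity
  have hA : a * d2 + c * x ≤ R - a * c := by
    rw [hR]
    have h : 0 ≤ a * z + d1 * (c + d2 + z) + x * (d2 + z) := by positivity
    nlinarith
  have hA0 : 0 ≤ R - a * c := by
    have : 0 ≤ a * d2 + c * x := by positivity
    linarith
  have key : a * c * e ^ 2 ≤ (R - a * c) * S := by
    have h1 : a * c * e ^ 2 ≤ a * c * (x * d2) := mul_le_mul_of_nonneg_left he (by positivity)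
    have h2 : (c * x) * (a * d2) ≤ (R - a * c) * S := by
      refine mul_le_mul ?_ ?_ (by positivity) hA0
      · have : 0 ≤ a * d2 := by positivity
        linarith
      · rw [hS]
        have : 0 ≤ c * d1 + d1 * d2 := by positivity
        linarith
    calc a * c * e ^ 2 ≤ a * c * (x * d2) := h1
      _ = (c * x) * (a * d2) := by ring
      _ ≤ _ := h2
  have goal : 0 ≤ (R - a * c) * m ^ 2 - 2 * R * e * m + R * (e ^ 2 + S) := by
    rcases hA0.eq_or_lt with h0 | h0
    · have h3 : a * c * e ^ 2 ≤ 0 := by rw [← h0, zero_mul] at key; exact key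
      have hac : 0 < a * c := by positivity
      have h4 : e ^ 2 ≤ 0 := by
        by_contra hcon
        push Not at hcon
        have := mul_pos hac hcon
        linarith
      have h5 : e = 0 := by
        have := le_antisymm h4 (sq_nonneg e)
        exact pow_eq_zero_iff (two_ne_zero) |>.1 this
      rw [← h0, h5]
      have : 0 ≤ R * S := by positivity
      linarith
    · have h6 : (R - a * c) * ((R - a * c) * m ^ 2 - 2 * R * e * m + R * (e ^ 2 + S)) =
          ((R - a * c) * m - R * e) ^ 2 + R * ((R - a * c) * S - a * c * e ^ 2) := by ring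
      have h7 : 0 ≤ (R - a * c) * ((R - a * c) * m ^ 2 - 2 * R * e * m + R * (e ^ 2 + S)) := by
        rw [h6]
        have : 0 ≤ R * ((R - a * c) * S - a * c * e ^ 2) :=
          mul_nonneg hR0.le (by linarith)
        have := sq_nonneg ((R - a * c) * m - R * e)
        linarith
      by_contra hcon
      push Not at hcon
      have := mul_neg_of_pos_of_neg h0 hcon
      linarith
  have e1 : (a + d1) * (c + d2) = a * c + S := by rw [hS]; ring
  rw [← hR, e1]
  nlinarith

end Vale.Agent.P358
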