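import Vale.Agent.P358.DefsG

/-!
P358, general `ν`: the two-operator channel has an output basis and an environment basis in which
one of the four entries vanishes.
-/

namespace Vale.Agent.P358

open Matrix
open scoped ComplexOrder

namespace ScalG

/-- a `2 × 2` unitary with second row proportional to `(1, z)` -/
noncomputable def U (z : ℂ) : Matrix (Fin 2) (Fin 2) ℂ :=
  (((Real.sqrt (1 + ‖z‖ ^ 2))⁻¹ : ℝ) : ℂ) • !![star z, -1; 1, z]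

theorem nsq (z : ℂ) : z * star z = ((‖z‖ ^ 2 : ℝ) : ℂ) := by
  rw [Complex.star_def, Complex.mul_conj']
  push_cast
  rfl

theorem sqr (z : ℂ) : (((Real.sqrt (1 + ‖z‖ ^ 2))⁻¹ : ℝ) : ℂ) *
    (((Real.sqrt (1 + ‖z‖ ^ 2))⁻¹ : ℝ) : ℂ) * (1 + z * star z) = 1 := by
  rw [nsq]
  have h : (0 : ℝ) < 1 + ‖z‖ ^ 2 := by positivity
  have h2 : Real.sqrt (1 + ‖z‖ ^ 2) * Real.sqrt (1 + ‖z‖ ^ 2) = 1 + ‖z‖ ^ 2 :=
    Real.mul_self_sqrt h.le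
  have h3 : Real.sqrt (1 + ‖z‖ ^ 2) ≠ 0 := (Real.sqrt_pos.2 h).ne'
  have : (Real.sqrt (1 + ‖z‖ ^ 2))⁻¹ * (Real.sqrt (1 + ‖z‖ ^ 2))⁻¹ * (1 + ‖z‖ ^ 2) = 1 := by
    calc (Real.sqrt (1 + ‖z‖ ^ 2))⁻¹ * (Real.sqrt (1 + ‖z‖ ^ 2))⁻¹ * (1 + ‖z‖ ^ 2)
        = (Real.sqrt (1 + ‖z‖ ^ 2))⁻¹ * (Real.sqrt (1 + ‖z‖ ^ 2))⁻¹ *
          (Real.sqrt (1 + ‖z‖ ^ 2) * Real.sqrt (1 + ‖z‖ ^ 2)) := by rw [h2]
      _ = 1 := by field_simp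
  exact_mod_cast this

theorem U_unitary (z : ℂ) : (U z)ᴴ * U z = 1 := by
  have h := sqr z
  have hc : star ((((Real.sqrt (1 + ‖z‖ ^ 2))⁻¹ : ℝ) : ℂ))
      = (((Real.sqrt (1 + ‖z‖ ^ 2))⁻¹ : ℝ) : ℂ) := by
    rw [Complex.star_def, Complex.conj_ofReal]
  unfold U
  generalize (((Real.sqrt (1 + ‖z‖ ^ 2))⁻¹ : ℝ) : ℂ) = c at h hc
  rw [Matrix.conjTranspose_smul, Matrix.smul_mul, Matrix.mul_smul, smul_smul, hc]
  ext i j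
  fin_cases i <;> fin_cases j
  · simp [Matrix.mul_apply, Fin.sum_univ_two]
    simp only [Complex.star_def] at h
    linear_combination h
  · simp [Matrix.mul_apply, Fin.sum_univ_two]
  · simp [Matrix.mul_apply, Fin.sum_univ_two]
  · simp [Matrix.mul_apply, Fin.sum_univ_two]
    simp only [Complex.star_def] at h
    linear_combination h

theorem U_unitary' (z : ℂ) : U z * (U z)ᴴ = 1 := mul_eq_one_comm.1 (U_unitary z)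

theorem UT_unitary (z : ℂ) : ((U z)ᵀ)ᴴ * (U z)ᵀ = 1 := by
  have : ((U z)ᵀ)ᴴ = ((U z)ᴴ)ᵀ := by
    ext i j
    rfl
  rw [this, ← Matrix.transpose_mul, U_unitary', Matrix.transpose_one]

theorem UT_unitary' (z : ℂ) : (U z)ᵀ * ((U z)ᵀ)ᴴ = 1 := mul_eq_one_comm.1 (UT_unitary z)

end ScalG

theorem tt_norm {γ ν : ℝ} (h0 : 0 < γ) (h1 : γ ≤ 1) (n0 : 0 < ν) (n1 : ν < 1) (s : ℝ)
    (hs : s = 1 ∨ s = -1) : tt γ ν s * star (tt γ ν s) = ((1 - γ * (1 - ν) : ℝ) : ℂ) := by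
  have ha : 0 < 1 - γ * ν := by nlinarith
  have hb : 0 ≤ (γ * (1 - ν)) * (γ * ν) := by
    have : 0 ≤ 1 - ν := by linarith
    positivity
  have hs2 : s ^ 2 = 1 := by rcases hs with h | h <;> rw [h] <;> norm_num
  have e1 : Real.sqrt (1 - γ) ^ 2 = 1 - γ := Real.sq_sqrt (by linarith)
  have e2 : Real.sqrt ((γ * (1 - ν)) * (γ * ν)) ^ 2 = (γ * (1 - ν)) * (γ * ν) := Real.sq_sqrt hb
  have e3 : Real.sqrt (1 - γ * ν) ^ 2 = 1 - γ * ν := Real.sq_sqrt ha.le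
  have e4 : Real.sqrt (1 - γ * ν) ≠ 0 := (Real.sqrt_pos.2 ha).ne'
  unfold tt
  generalize Real.sqrt (1 - γ) = k at e1
  generalize Real.sqrt ((γ * (1 - ν)) * (γ * ν)) = m at e2
  generalize Real.sqrt (1 - γ * ν) = u at e3 e4
  have key : (k ^ 2 + (s * m) ^ 2) / u ^ 2 = 1 - γ * (1 - ν) := by
    rw [mul_pow, hs2, e1, e2, e3, div_eq_iff ha.ne']
    ring
  rw [← key, Complex.star_def, map_div₀, map_sub, map_mul, Complex.conj_ofReal,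
    Complex.conj_ofReal, Complex.conj_ofReal, Complex.conj_I]
  have hu : ((u : ℝ) : ℂ) ≠ 0 := by exact_mod_cast e4
  push_cast
  field_simp
  ring_nf
  rw [Complex.I_sq]
  ring

theorem ww_norm {γ ν : ℝ} (h0 : 0 < γ) (n0 : 0 < ν) (s : ℝ)
    (hs : s = 1 ∨ s = -1) : ww γ ν s * star (ww γ ν s) = ((γ * ν : ℝ) : ℂ) := by
  have hs2 : s ^ 2 = 1 := by rcases hs with h | h <;> rw [h] <;> norm_num
  have e1 : Real.sqrt (γ * ν) ^ 2 = γ * ν := Real.sq_sqrt (by positivity)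
  unfold ww
  generalize Real.sqrt (γ * ν) = k at e1
  have key : (s * k) ^ 2 = γ * ν := by rw [mul_pow, hs2, e1, one_mul]
  rw [← key, Complex.star_def, map_mul, Complex.conj_ofReal, Complex.conj_I]
  push_cast
  ring_nf
  rw [Complex.I_sq]
  ring

theorem tt_avg {γ ν : ℝ} (h0 : 0 < γ) (h1 : γ ≤ 1) (n0 : 0 < ν) (n1 : ν < 1) :
    ((Real.sqrt (1 - γ * ν) : ℝ) : ℂ) * (tt γ ν 1 + tt γ ν (-1))
      = 2 * ((Real.sqrt (1 - γ) : ℝ) : ℂ) := by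
  have ha : 0 < 1 - γ * ν := by nlinarith
  have e4 : Real.sqrt (1 - γ * ν) ≠ 0 := (Real.sqrt_pos.2 ha).ne'
  unfold tt
  have hu : ((Real.sqrt (1 - γ * ν) : ℝ) : ℂ) ≠ 0 := by exact_mod_cast e4
  push_cast
  field_simp
  ring

namespace ScalG

theorem fin_ineq {a b a' b' m p2 X Y c2 κ : ℝ} (ha : 0 < a) (hb' : 0 < b')
    (hm : m ^ 2 * b' = a * b * a') (hp : 2 * p2 = m - b) (hp0 : 0 ≤ p2) (hc : c2 ≤ X * Y)
    (hκ : κ * a = b') :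
    a * b' * X ^ 2 + a' * b * Y ^ 2 + 2 * b * b' * (X * Y)
      ≤ κ * ((a * X + m * Y) ^ 2 - 4 * a * p2 * c2) := by
  have hκm : κ * m ^ 2 = a' * b := by
    have h1 : (κ * m ^ 2) * a = (a' * b) * a := by
      calc (κ * m ^ 2) * a = m ^ 2 * (κ * a) := by ring
        _ = m ^ 2 * b' := by rw [hκ]
        _ = (a' * b) * a := by rw [hm]; ring
    exact mul_right_cancel₀ ha.ne' h1
  have e : κ * ((a * X + m * Y) ^ 2 - 4 * a * p2 * c2)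
      = (κ * a) * a * X ^ 2 + 2 * (κ * a) * m * (X * Y) + (κ * m ^ 2) * Y ^ 2
        - 4 * (κ * a) * p2 * c2 := by ring
  rw [e, hκ, hκm]
  have h2 : 0 ≤ 4 * b' * p2 * (X * Y - c2) := by
    have : 0 ≤ X * Y - c2 := by linarith
    positivity
  have hm' : m = 2 * p2 + b := by linarith
  rw [hm']
  nlinarith

theorem norm_expand {ι : Type} [Fintype ι] (A : ℝ) (ρ : ℂ) (f g : ι → ℂ)
    (him : (∑ i, f i * star (g i)).im = 0) :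
    ∑ i, ‖(A : ℂ) * f i + ρ * g i‖ ^ 2
      = A ^ 2 * (∑ i, ‖f i‖ ^ 2) + ‖ρ‖ ^ 2 * (∑ i, ‖g i‖ ^ 2)
        + 2 * A * ρ.re * (∑ i, f i * star (g i)).re := by
  have h1 : ∀ i, ‖(A : ℂ) * f i + ρ * g i‖ ^ 2 = A ^ 2 * ‖f i‖ ^ 2 + ‖ρ‖ ^ 2 * ‖g i‖ ^ 2
      + 2 * A * (ρ.re * (f i * star (g i)).re + ρ.im * (f i * star (g i)).im) := by
    intro i
    rw [← Complex.normSq_eq_norm_sq, ← Complex.normSq_eq_norm_sq, ← Complex.normSq_eq_norm_sq,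
      ← Complex.normSq_eq_norm_sq, Complex.normSq_apply, Complex.normSq_apply,
      Complex.normSq_apply, Complex.normSq_apply]
    simp only [Complex.add_re, Complex.add_im, Complex.mul_re, Complex.mul_im, Complex.ofReal_re,
      Complex.ofReal_im, Complex.star_def, Complex.conj_re, Complex.conj_im]
    ring
  rw [Finset.sum_congr rfl (fun i _ => h1 i), Finset.sum_add_distrib, Finset.sum_add_distrib,
    ← Finset.mul_sum, ← Finset.mul_sum, ← Finset.mul_sum, Finset.sum_add_distrib,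
    ← Finset.mul_sum, ← Finset.mul_sum]
  have h2 : ∑ i, (f i * star (g i)).re = (∑ i, f i * star (g i)).re := by
    rw [Complex.re_sum]
  have h3 : ∑ i, (f i * star (g i)).im = 0 := by
    rw [← Complex.im_sum, him]
  rw [h2, h3]
  ring

theorem cs {ι : Type} [Fintype ι] (f g : ι → ℂ) :
    (∑ i, f i * star (g i)).re ^ 2 ≤ (∑ i, ‖f i‖ ^ 2) * (∑ i, ‖g i‖ ^ 2) := by
  have h1 : |(∑ i, f i * star (g i)).re| ≤ ∑ i, ‖f i‖ * ‖g i‖ := by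
    refine (Complex.abs_re_le_norm _).trans ((norm_sum_le _ _).trans (le_of_eq ?_))
    refine Finset.sum_congr rfl (fun i _ => ?_)
    rw [norm_mul, norm_star]
  have h2 : (∑ i, ‖f i‖ * ‖g i‖) ^ 2 ≤ (∑ i, ‖f i‖ ^ 2) * (∑ i, ‖g i‖ ^ 2) :=
    Finset.sum_mul_sq_le_sq_mul_sq _ _ _
  calc (∑ i, f i * star (g i)).re ^ 2 = |(∑ i, f i * star (g i)).re| ^ 2 := (sq_abs _).symm
    _ ≤ (∑ i, ‖f i‖ * ‖g i‖) ^ 2 := pow_le_pow_left₀ (abs_nonneg _) h1 2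
    _ ≤ _ := h2

end ScalG

open ScalG in
theorem exists_LR {γ ν : ℝ} (h0 : 0 < γ) (h1 : γ ≤ 1) (n0 : 0 < ν) (n1 : ν < 1) (s : ℝ)
    (hs : s = 1 ∨ s = -1) :
    ∃ L R : Matrix (Fin 2) (Fin 2) ℂ, Lᴴ * L = 1 ∧ L * Lᴴ = 1 ∧ Rᴴ * R = 1 ∧ R * Rᴴ = 1 ∧
      (∀ x y : ℂ, (L * arr γ ν s x y * R) 1 1 = 0) ∧
      ∀ (ι : Type) (_ : Fintype ι) (f g : ι → ℂ), (∑ i, f i * star (g i)).im = 0 →
        (1 - γ * ν) * (γ * ν) * (∑ i, ‖f i‖ ^ 2) ^ 2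
          + (1 - γ * (1 - ν)) * (γ * (1 - ν)) * (∑ i, ‖g i‖ ^ 2) ^ 2
          + 2 * (γ * (1 - ν)) * (γ * ν) * ((∑ i, ‖f i‖ ^ 2) * (∑ i, ‖g i‖ ^ 2)) ≤
        (∑ i, ‖(L * arr γ ν s (f i) (g i) * R) 0 1‖ ^ 2) *
          (∑ i, ‖(L * arr γ ν s (f i) (g i) * R) 1 0‖ ^ 2) := by
  have ha : 0 < 1 - γ * ν := by nlinarith
  have hb : 0 < γ * (1 - ν) := mul_pos h0 (by linarith)
  have ha' : 0 < 1 - γ * (1 - ν) := by nlinarith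
  have hb' : 0 < γ * ν := mul_pos h0 n0
  have hT := tt_norm h0 h1 n0 n1 s hs
  have hW := ww_norm h0 n0 s hs
  obtain ⟨t, ht⟩ : ∃ t : ℂ, t = tt γ ν s := ⟨_, rfl⟩
  obtain ⟨w, hw⟩ : ∃ w : ℂ, w = ww γ ν s := ⟨_, rfl⟩
  obtain ⟨A, hA⟩ : ∃ A : ℝ, A = Real.sqrt (1 - γ * ν) := ⟨_, rfl⟩
  obtain ⟨B, hB⟩ : ∃ B : ℝ, B = Real.sqrt (γ * (1 - ν)) := ⟨_, rfl⟩
  have hA2 : A ^ 2 = 1 - γ * ν := by rw [hA]; exact Real.sq_sqrt ha.le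
  have hB2 : B ^ 2 = γ * (1 - ν) := by rw [hB]; exact Real.sq_sqrt hb.le
  have hApos : 0 < A := by rw [hA]; exact Real.sqrt_pos.2 ha
  have hBpos : 0 < B := by rw [hB]; exact Real.sqrt_pos.2 hb
  have hAc : (A : ℂ) ≠ 0 := by exact_mod_cast hApos.ne'
  have hBc : (B : ℂ) ≠ 0 := by exact_mod_cast hBpos.ne'
  rw [← ht, nsq] at hT
  rw [← hw, nsq] at hW
  have hT2 : ‖t‖ ^ 2 = 1 - γ * (1 - ν) := by exact_mod_cast hT
  have hW2 : ‖w‖ ^ 2 = γ * ν := by exact_mod_cast hW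
  have ht0 : t ≠ 0 := by
    intro h
    rw [h, norm_zero] at hT2
    norm_num at hT2
    linarith
  have hw0 : w ≠ 0 := by
    intro h
    have h2 := hb'
    rw [← hW2, h, norm_zero] at h2
    norm_num at h2
  obtain ⟨r, hr⟩ := IsAlgClosed.exists_pow_nat_eq ((A : ℂ) * B / (t * w)) (n := 2) (by norm_num)
  have hr2 : r ^ 2 * (t * w) = A * B := by
    rw [hr]
    field_simp
  have hr0 : r ≠ 0 := by
    intro h
    rw [h] at hr2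
    have : (A : ℂ) * B ≠ 0 := mul_ne_zero hAc hBc
    apply this
    rw [← hr2]
    ring
  obtain ⟨ρ, hρ⟩ : ∃ ρ : ℂ, ρ = r * t := ⟨_, rfl⟩
  have hρ0 : ρ ≠ 0 := by rw [hρ]; exact mul_ne_zero hr0 ht0
  obtain ⟨e, he⟩ : ∃ e : ℂ, e = -ρ / B := ⟨_, rfl⟩
  have he0 : e ≠ 0 := by
    rw [he]
    exact div_ne_zero (neg_ne_zero.2 hρ0) hBc
  have hBe : (B : ℂ) * e = -ρ := by
    rw [he]
    field_simp
  have hrew : r * e * w = -A := by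
    have h1 : (B : ℂ) * (r * e * w) = B * (-A) := by
      calc (B : ℂ) * (r * e * w) = r * w * (B * e) := by ring
        _ = -(r ^ 2 * (t * w)) := by rw [hBe, hρ]; ring
        _ = B * (-A) := by rw [hr2]; ring
    exact mul_left_cancel₀ hBc h1
  -- the entries
  obtain ⟨cr, hcr⟩ : ∃ c : ℂ, c = (((Real.sqrt (1 + ‖r‖ ^ 2))⁻¹ : ℝ) : ℂ) := ⟨_, rfl⟩
  obtain ⟨ce, hce⟩ : ∃ c : ℂ, c = (((Real.sqrt (1 + ‖e‖ ^ 2))⁻¹ : ℝ) : ℂ) := ⟨_, rfl⟩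
  have hL : U r = cr • !![star r, -1; 1, r] := by rw [hcr]; rfl
  have hR : (U e)ᵀ = ce • !![star e, 1; -1, e] := by
    rw [hce]
    ext i j
    fin_cases i <;> fin_cases j <;> rfl
  have harr : ∀ x y : ℂ, arr γ ν s x y = !![(A : ℂ) * x, (B : ℂ) * y; t * y, w * x] := by
    intro x y
    rw [hA, hB, ht, hw]
    rfl
  have ent : ∀ x y : ℂ, U r * arr γ ν s x y * (U e)ᵀ = (cr * ce) •
      (!![star r, -1; 1, r] * !![(A : ℂ) * x, (B : ℂ) * y; t * y, w * x] *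
        !![star e, 1; -1, e]) := by
    intro x y
    rw [hL, hR, harr, Matrix.smul_mul, Matrix.smul_mul, Matrix.mul_smul, smul_smul]
  have ent11 : ∀ x y : ℂ, (U r * arr γ ν s x y * (U e)ᵀ) 1 1 = 0 := by
    intro x y
    rw [ent]
    simp
    right
    linear_combination y * hBe + x * hrew + y * (-hρ)
  have hρ' : r⁻¹ * ρ = t := by
    rw [hρ]
    field_simp
  have hA' : r⁻¹ * A = -(e * w) := by
    have h1 : (A : ℂ) = -(r * e * w) := by rw [hrew]; ring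
    rw [h1]
    field_simp
  have hB' : e⁻¹ * ρ = -B := by
    have h1 : ρ = -((B : ℂ) * e) := by rw [hBe]; ring
    rw [h1]
    field_simp
  have hA'' : e⁻¹ * A = -(r * w) := by
    have h1 : (A : ℂ) = -(r * e * w) := by rw [hrew]; ring
    rw [h1]
    field_simp
  have ent01 : ∀ x y : ℂ, (U r * arr γ ν s x y * (U e)ᵀ) 0 1
      = (cr * ce * (star r + r⁻¹)) * ((A : ℂ) * x + (-ρ) * y) := by
    intro x y
    rw [ent]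
    simp
    linear_combination cr * ce * ((starRingEnd ℂ) r * y * hBe + y * hρ' - x * hA')
  have ent10 : ∀ x y : ℂ, (U r * arr γ ν s x y * (U e)ᵀ) 1 0
      = (cr * ce * (star e + e⁻¹)) * ((A : ℂ) * x + ρ * y) := by
    intro x y
    rw [ent]
    simp
    linear_combination cr * ce * (-((starRingEnd ℂ) e) * y * hρ - y * hB' - x * hA'')
  refine ⟨U r, (U e)ᵀ, U_unitary r, U_unitary' r, UT_unitary e, UT_unitary' e, ent11, ?_⟩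
  intro ι _ f g him
  -- norms of the coefficients
  have hcr1 : ‖cr‖ ^ 2 * (1 + ‖r‖ ^ 2) = 1 := by
    have h1 : (0 : ℝ) < 1 + ‖r‖ ^ 2 := by positivity
    rw [hcr, Complex.norm_real, Real.norm_eq_abs, sq_abs, inv_pow, Real.sq_sqrt h1.le]
    exact inv_mul_cancel₀ h1.ne'
  have hce1 : ‖ce‖ ^ 2 * (1 + ‖e‖ ^ 2) = 1 := by
    have h1 : (0 : ℝ) < 1 + ‖e‖ ^ 2 := by positivity
    rw [hce, Complex.norm_real, Real.norm_eq_abs, sq_abs, inv_pow, Real.sq_sqrt h1.le]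
    exact inv_mul_cancel₀ h1.ne'
  have hnz : ∀ z : ℂ, z ≠ 0 → ‖star z + z⁻¹‖ * ‖z‖ = 1 + ‖z‖ ^ 2 := by
    intro z hz
    rw [← norm_mul, add_mul, inv_mul_cancel₀ hz, mul_comm (star z) z, nsq]
    have : (((‖z‖ ^ 2 : ℝ) : ℂ) + 1) = ((1 + ‖z‖ ^ 2 : ℝ) : ℂ) := by push_cast; ring
    rw [this, Complex.norm_real, Real.norm_eq_abs, abs_of_pos (by positivity)]
  have hrr := hnz r hr0
  have hee := hnz e he0
  have hr2n : (‖r‖ ^ 2) ^ 2 * (‖t‖ ^ 2 * ‖w‖ ^ 2) = A ^ 2 * B ^ 2 := by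
    have h1 := congrArg (fun z : ℂ => ‖z‖ ^ 2) hr2
    simp only [norm_mul, norm_pow, Complex.norm_real, Real.norm_eq_abs, mul_pow, sq_abs] at h1
    linarith
  have hρn : ‖ρ‖ ^ 2 = ‖r‖ ^ 2 * ‖t‖ ^ 2 := by rw [hρ, norm_mul, mul_pow]
  have hBen : B ^ 2 * ‖e‖ ^ 2 = ‖ρ‖ ^ 2 := by
    have h1 := congrArg (fun z : ℂ => ‖z‖ ^ 2) hBe
    simp only [norm_mul, norm_neg, Complex.norm_real, Real.norm_eq_abs, mul_pow, sq_abs] at h1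
    exact h1
  have hB0 : B ^ 2 ≠ 0 := by positivity
  have hRE : ‖r‖ ^ 2 * ‖e‖ ^ 2 * (γ * ν) = 1 - γ * ν := by
    rw [← hA2, ← hW2]
    have h1 : B ^ 2 * (‖r‖ ^ 2 * ‖e‖ ^ 2 * ‖w‖ ^ 2) = B ^ 2 * A ^ 2 := by
      calc B ^ 2 * (‖r‖ ^ 2 * ‖e‖ ^ 2 * ‖w‖ ^ 2) = ‖r‖ ^ 2 * (B ^ 2 * ‖e‖ ^ 2) * ‖w‖ ^ 2 := by ring
        _ = (‖r‖ ^ 2) ^ 2 * (‖t‖ ^ 2 * ‖w‖ ^ 2) := by rw [hBen, hρn]; ring
        _ = B ^ 2 * A ^ 2 := by rw [hr2n]; ring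
    exact mul_left_cancel₀ hB0 h1
  obtain ⟨κ1, hκ1⟩ : ∃ κ1 : ℝ, κ1 = ‖cr * ce * (star r + r⁻¹)‖ ^ 2 := ⟨_, rfl⟩
  obtain ⟨κ2, hκ2⟩ : ∃ κ2 : ℝ, κ2 = ‖cr * ce * (star e + e⁻¹)‖ ^ 2 := ⟨_, rfl⟩
  have hκκ : κ1 * κ2 * (‖r‖ ^ 2 * ‖e‖ ^ 2) = 1 := by
    rw [hκ1, hκ2]
    simp only [norm_mul, mul_pow]
    calc ‖cr‖ ^ 2 * ‖ce‖ ^ 2 * ‖star r + r⁻¹‖ ^ 2 * (‖cr‖ ^ 2 * ‖ce‖ ^ 2 * ‖star e + e⁻¹‖ ^ 2)
          * (‖r‖ ^ 2 * ‖e‖ ^ 2)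
        = (‖cr‖ ^ 2 * (‖star r + r⁻¹‖ * ‖r‖)) * (‖cr‖ ^ 2 * (‖star r + r⁻¹‖ * ‖r‖))
          * ((‖ce‖ ^ 2 * (‖star e + e⁻¹‖ * ‖e‖)) * (‖ce‖ ^ 2 * (‖star e + e⁻¹‖ * ‖e‖))) := by ring
      _ = 1 := by rw [hrr, hee, hcr1, hce1]; ring
  have hκ : (κ1 * κ2) * (1 - γ * ν) = γ * ν := by
    calc (κ1 * κ2) * (1 - γ * ν) = (κ1 * κ2) * (‖r‖ ^ 2 * ‖e‖ ^ 2 * (γ * ν)) := by rw [hRE]
      _ = (κ1 * κ2 * (‖r‖ ^ 2 * ‖e‖ ^ 2)) * (γ * ν) := by ring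
      _ = γ * ν := by rw [hκκ, one_mul]
  -- the real part of `ρ ^ 2`
  have hre : ρ.re ^ 2 - ρ.im ^ 2 = -(γ * (1 - ν)) := by
    obtain ⟨b2, hb2⟩ : ∃ b2 : ℝ, b2 = Real.sqrt (γ * ν) := ⟨_, rfl⟩
    have hb2pos : 0 < b2 := by rw [hb2]; exact Real.sqrt_pos.2 hb'
    have hBb : Real.sqrt ((γ * (1 - ν)) * (γ * ν)) = B * b2 := by
      rw [hB, hb2, Real.sqrt_mul hb.le]
    have e1 : (A : ℂ) * t = ((Real.sqrt (1 - γ) : ℝ) : ℂ) - ((s * (B * b2) : ℝ) : ℂ) * Complex.I := by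
      rw [ht]
      unfold tt
      rw [← hA, hBb]
      field_simp
    have e2 : w = ((s * b2 : ℝ) : ℂ) * Complex.I := by
      rw [hw, hb2]
      rfl
    have e3 : ρ ^ 2 * w = (B : ℂ) * ((A : ℂ) * t) := by
      calc ρ ^ 2 * w = (r ^ 2 * (t * w)) * t := by rw [hρ]; ring
        _ = (B : ℂ) * ((A : ℂ) * t) := by rw [hr2]; ring
    rw [e1, e2] at e3
    have e4 := congrArg Complex.im e3
    simp only [pow_two, Complex.mul_im, Complex.mul_re, Complex.sub_im, Complex.sub_re,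
      Complex.ofReal_re, Complex.ofReal_im, Complex.I_re, Complex.I_im] at e4
    have hs0 : s * b2 ≠ 0 := by
      rcases hs with h | h <;> rw [h] <;> simp [hb2pos.ne']
    have e5 : (s * b2) * (ρ.re ^ 2 - ρ.im ^ 2) = (s * b2) * (-(γ * (1 - ν))) := by
      rw [← hB2]
      linear_combination e4
    exact mul_left_cancel₀ hs0 e5
  have hm : ‖ρ‖ ^ 2 = ρ.re ^ 2 + ρ.im ^ 2 := by
    rw [← Complex.normSq_eq_norm_sq, Complex.normSq_apply]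
    ring
  have s01 : ∑ i, ‖(U r * arr γ ν s (f i) (g i) * (U e)ᵀ) 0 1‖ ^ 2
      = κ1 * ((1 - γ * ν) * (∑ i, ‖f i‖ ^ 2) + ‖ρ‖ ^ 2 * (∑ i, ‖g i‖ ^ 2)
        - 2 * A * ρ.re * (∑ i, f i * star (g i)).re) := by
    have h1 : ∀ i, ‖(U r * arr γ ν s (f i) (g i) * (U e)ᵀ) 0 1‖ ^ 2
        = κ1 * ‖(A : ℂ) * f i + (-ρ) * g i‖ ^ 2 := by
      intro i
      rw [ent01, norm_mul, mul_pow, hκ1]
    rw [Finset.sum_congr rfl (fun i _ => h1 i), ← Finset.mul_sum, norm_expand A (-ρ) f g him,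
      hA2, norm_neg, Complex.neg_re]
    ring
  have s10 : ∑ i, ‖(U r * arr γ ν s (f i) (g i) * (U e)ᵀ) 1 0‖ ^ 2
      = κ2 * ((1 - γ * ν) * (∑ i, ‖f i‖ ^ 2) + ‖ρ‖ ^ 2 * (∑ i, ‖g i‖ ^ 2)
        + 2 * A * ρ.re * (∑ i, f i * star (g i)).re) := by
    have h1 : ∀ i, ‖(U r * arr γ ν s (f i) (g i) * (U e)ᵀ) 1 0‖ ^ 2
        = κ2 * ‖(A : ℂ) * f i + ρ * g i‖ ^ 2 := by
      intro i
      rw [ent10, norm_mul, mul_pow, hκ2]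
    rw [Finset.sum_congr rfl (fun i _ => h1 i), ← Finset.mul_sum, norm_expand A ρ f g him, hA2]
  rw [s01, s10]
  have key := fin_ineq (a := 1 - γ * ν) (b := γ * (1 - ν)) (a' := 1 - γ * (1 - ν)) (b' := γ * ν)
    (m := ‖ρ‖ ^ 2) (p2 := ρ.re ^ 2) (X := ∑ i, ‖f i‖ ^ 2) (Y := ∑ i, ‖g i‖ ^ 2)
    (c2 := (∑ i, f i * star (g i)).re ^ 2) (κ := κ1 * κ2) ha hb'
    (by
      rw [hρn, ← hT2]
      calc (‖r‖ ^ 2 * ‖t‖ ^ 2) ^ 2 * (γ * ν)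
          = ((‖r‖ ^ 2) ^ 2 * (‖t‖ ^ 2 * ‖w‖ ^ 2)) * ‖t‖ ^ 2 := by rw [← hW2]; ring
        _ = (1 - γ * ν) * (γ * (1 - ν)) * ‖t‖ ^ 2 := by rw [hr2n, hA2, hB2])
    (by rw [hm]; linarith) (sq_nonneg _) (cs f g) hκ
  refine key.trans (le_of_eq ?_)
  have hA4 : 4 * (1 - γ * ν) * ρ.re ^ 2 * (∑ i, f i * star (g i)).re ^ 2
      = (2 * A * ρ.re * (∑ i, f i * star (g i)).re) ^ 2 := by
    rw [← hA2]
    ring
  rw [hA4]
  ring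

end Vale.Agent.P358
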