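import Vale.Agent.P358.DefsG

/-! Interface: the statement proved in UpperG. -/

namespace Vale.Agent.P358

open Matrix
open scoped ComplexOrder

variable {ι ε : Type} [Fintype ι] [DecidableEq ι] [Fintype ε] [DecidableEq ε]

theorem upper_g {γ ν : ℝ} (h0 : 0 < γ) (h1 : γ ≤ 1) (n0 : 0 < ν) (n1 : ν < 1)
    (K : ε → Matrix ι ι ℂ) (hK : ∑ e, (K e)ᴴ * K e = 1) (r : ℝ)
    (hr : r ∈ hol (dchanG γ ν (kr K))) :
    ∃ r1 ∈ hol (gadc γ ν), ∃ r2 ∈ hol (kr K), r ≤ r1 + r2 := by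
  sorry

end Vale.Agent.P358
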