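import Vale.Agent.P358.Ent

/-!
# P358: tensor product of a qubit state and a state
-/

namespace Vale.Agent.P358

open Matrix
open scoped ComplexOrder

variable {ι : Type*} [Fintype ι] [DecidableEq ι]

omit [DecidableEq ι] in
theorem tens_mul (ρ ρ' : Matrix (Fin 2) (Fin 2) ℂ) (σ σ' : Matrix ι ι ℂ) :
    tens ρ σ * tens ρ' σ' = tens (ρ * ρ') (σ * σ') := by
  unfold tens
  rw [fromBlocks_multiply]
  simp only [smul_mul_assoc, mul_smul_comm, smul_smul, ← add_smul, mul_apply,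
    Fin.sum_univ_two, Fin.isValue, mul_comm]

omit [Fintype ι] [DecidableEq ι] in
theorem tens_conj (ρ : Matrix (Fin 2) (Fin 2) ℂ) (σ : Matrix ι ι ℂ) :
    (tens ρ σ)ᴴ = tens ρᴴ σᴴ := by
  unfold tens
  rw [fromBlocks_conjTranspose]
  simp only [conjTranspose_smul, conjTranspose_apply]

omit [Fintype ι] in
theorem tens_one : tens (1 : Matrix (Fin 2) (Fin 2) ℂ) (1 : Matrix ι ι ℂ) = 1 := by
  unfold tens
  simp

omit [Fintype ι] in
theorem tens_diag (r : Fin 2 → ℝ) (s : ι → ℝ) :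
    tens (diagonal fun i => ((r i : ℝ) : ℂ)) (diagonal fun i => ((s i : ℝ) : ℂ)) =
      diagonal fun k : ι ⊕ ι =>
        ((Sum.elim (fun i => r 0 * s i) (fun i => r 1 * s i) k : ℝ) : ℂ) := by
  unfold tens
  ext (i | i) (j | j)
  · by_cases h : i = j
    · subst h; simp
    · simp [h]
  · simp
  · simp
  · by_cases h : i = j
    · subst h; simp
    · simp [h]

/-- simultaneous diagonalisation -/
theorem tens_spec {ρ : Matrix (Fin 2) (Fin 2) ℂ} {σ : Matrix ι ι ℂ} (h1 : ρ.IsHermitian)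
    (h2 : σ.IsHermitian) : ∃ W : Matrix (ι ⊕ ι) (ι ⊕ ι) ℂ, Wᴴ * W = 1 ∧
      tens ρ σ = W * (diagonal fun k : ι ⊕ ι =>
        ((Sum.elim (fun i => h1.eigenvalues 0 * h2.eigenvalues i)
          (fun i => h1.eigenvalues 1 * h2.eigenvalues i) k : ℝ) : ℂ)) * Wᴴ := by
  obtain ⟨U, hU, _, hρ⟩ := exists_diag h1
  obtain ⟨V, hV, _, hσ⟩ := exists_diag h2
  refine ⟨tens U V, ?_, ?_⟩
  · rw [tens_conj, tens_mul, hU, hV, tens_one]
  · rw [← tens_diag, tens_conj, tens_mul, tens_mul, ← hρ, ← hσ]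

omit [DecidableEq ι] in
theorem tens_trace (ρ : Matrix (Fin 2) (Fin 2) ℂ) (σ : Matrix ι ι ℂ) :
    (tens ρ σ).trace = ρ.trace * σ.trace := by
  have h : (tens ρ σ).trace = (ρ 0 0 • σ).trace + (ρ 1 1 • σ).trace := by
    unfold tens
    rw [trace, Fintype.sum_sum_type]
    rfl
  rw [h, trace_smul, trace_smul, trace_fin_two, smul_eq_mul, smul_eq_mul, add_mul]

theorem tens_isState {ρ : Matrix (Fin 2) (Fin 2) ℂ} {σ : Matrix ι ι ℂ} (h1 : IsState ρ)
    (h2 : IsState σ) : IsState (tens ρ σ) := by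
  refine ⟨?_, by rw [tens_trace, h1.2, h2.2, one_mul]⟩
  obtain ⟨W, _, hW⟩ := tens_spec h1.1.isHermitian h2.1.isHermitian
  rw [hW]
  refine PosSemidef.mul_mul_conjTranspose_same ?_ W
  rw [posSemidef_diagonal_iff]
  have a := h1.1.eigenvalues_nonneg
  have b := h2.1.eigenvalues_nonneg
  rintro (i | i)
  · have : (0 : ℝ) ≤ h1.1.isHermitian.eigenvalues 0 * h2.1.isHermitian.eigenvalues i :=
      mul_nonneg (a 0) (b i)
    simpa using (Complex.zero_le_real.2 this)
  · have : (0 : ℝ) ≤ h1.1.isHermitian.eigenvalues 1 * h2.1.isHermitian.eigenvalues i :=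
      mul_nonneg (a 1) (b i)
    simpa using (Complex.zero_le_real.2 this)

theorem ent_tens {ρ : Matrix (Fin 2) (Fin 2) ℂ} {σ : Matrix ι ι ℂ} (h1 : IsState ρ)
    (h2 : IsState σ) : ent (tens ρ σ) = ent ρ + ent σ := by
  obtain ⟨W, hW1, hW⟩ := tens_spec h1.1.isHermitian h2.1.isHermitian
  have s1 : h1.1.isHermitian.eigenvalues 0 + h1.1.isHermitian.eigenvalues 1 = 1 := by
    rw [← Fin.sum_univ_two (fun i => h1.1.isHermitian.eigenvalues i), eig_sum]
    simp [h1.2]
  have s2 : ∑ i, h2.1.isHermitian.eigenvalues i = 1 := by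
    rw [eig_sum]
    simp [h2.2]
  rw [hW, ent_unitary (diag_herm _) W hW1, ent_diagonal, ent_eq_eig h1.1.isHermitian,
    ent_eq_eig h2.1.isHermitian, Fintype.sum_sum_type, Fin.sum_univ_two]
  simp only [Sum.elim_inl, Sum.elim_inr]
  set r := h1.1.isHermitian.eigenvalues
  set s := h2.1.isHermitian.eigenvalues
  have key : ∀ x : ℝ, ∑ i, Real.negMulLog (x * s i) =
      Real.negMulLog x + x * ∑ i, Real.negMulLog (s i) := by
    intro x
    have : ∀ i, Real.negMulLog (x * s i) = s i * Real.negMulLog x + x * Real.negMulLog (s i) :=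
      fun i => Real.negMulLog_mul _ _
    rw [Finset.sum_congr rfl fun i _ => this i, Finset.sum_add_distrib, ← Finset.sum_mul, s2,
      one_mul, ← Finset.mul_sum]
  rw [key, key]
  have : r 0 * ∑ i, Real.negMulLog (s i) + r 1 * ∑ i, Real.negMulLog (s i) =
      ∑ i, Real.negMulLog (s i) := by rw [← add_mul, s1, one_mul]
  linarith

end Vale.Agent.P358
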