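import Vale.Agent.P358.DefsG
import Vale.Agent.P358.Kraus

namespace Vale.Agent.P358
namespace SG
open Matrix
open scoped ComplexOrder

theorem tt_norm {γ ν : ℝ} (h0 : 0 < γ) (h1 : γ ≤ 1) (n0 : 0 < ν) (n1 : ν < 1) (s : ℝ)
    (hs : s = 1 ∨ s = -1) : tt γ ν s * star (tt γ ν s) = ((1 - γ * (1 - ν) : ℝ) : ℂ) := by
  have ha : 0 < 1 - γ * ν := by nlinarith
  have hb : 0 ≤ (γ * (1 - ν)) * (γ * ν) := by
    have : 0 ≤ 1 - ν := by linarith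
    positivity
  have s2 : s * s = 1 := by rcases hs with h | h <;> rw [h] <;> norm_num
  have h3 := Real.mul_self_sqrt (show (0 : ℝ) ≤ 1 - γ by linarith)
  have h4 := Real.mul_self_sqrt hb
  have h5 := Real.mul_self_sqrt ha.le
  have h6 : Real.sqrt (1 - γ * ν) ≠ 0 := (Real.sqrt_pos.2 ha).ne'
  have h7 : (Real.sqrt (1 - γ * ν) : ℂ) ≠ 0 := by exact_mod_cast h6
  unfold tt
  rw [Complex.star_def, map_div₀, Complex.conj_ofReal, map_sub, map_mul, Complex.conj_ofReal,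
    Complex.conj_ofReal, Complex.conj_I, div_mul_div_comm, div_eq_iff (mul_ne_zero h7 h7)]
  have I2 : Complex.I * Complex.I = -1 := Complex.I_mul_I
  have h3c : ((Real.sqrt (1 - γ) : ℝ) : ℂ) * ((Real.sqrt (1 - γ) : ℝ) : ℂ) = 1 - γ := by
    rw [← Complex.ofReal_mul, h3]; push_cast; ring
  have h4c : ((Real.sqrt ((γ * (1 - ν)) * (γ * ν)) : ℝ) : ℂ)
      * ((Real.sqrt ((γ * (1 - ν)) * (γ * ν)) : ℝ) : ℂ) = (γ * (1 - ν)) * (γ * ν) := by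
    rw [← Complex.ofReal_mul, h4]; push_cast; ring
  have h5c : ((Real.sqrt (1 - γ * ν) : ℝ) : ℂ) * ((Real.sqrt (1 - γ * ν) : ℝ) : ℂ) = 1 - γ * ν := by
    rw [← Complex.ofReal_mul, h5]; push_cast; ring
  have s2c : (s : ℂ) * (s : ℂ) = 1 := by rw [← Complex.ofReal_mul, s2]; simp
  rw [h5c]
  push_cast
  linear_combination h3c - (s : ℂ) * s * ((Real.sqrt ((γ * (1 - ν)) * (γ * ν)) : ℝ) : ℂ)
      * ((Real.sqrt ((γ * (1 - ν)) * (γ * ν)) : ℝ) : ℂ) * I2 + (s : ℂ) * s * h4c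
      + (γ * (1 - ν)) * (γ * ν) * s2c

theorem ww_norm {γ ν : ℝ} (h0 : 0 < γ) (n0 : 0 < ν) (s : ℝ)
    (hs : s = 1 ∨ s = -1) : ww γ ν s * star (ww γ ν s) = ((γ * ν : ℝ) : ℂ) := by
  have s2 : s * s = 1 := by rcases hs with h | h <;> rw [h] <;> norm_num
  have h4 := Real.mul_self_sqrt (show (0 : ℝ) ≤ γ * ν by positivity)
  have h4c : ((Real.sqrt (γ * ν) : ℝ) : ℂ) * ((Real.sqrt (γ * ν) : ℝ) : ℂ) = γ * ν := by
    rw [← Complex.ofReal_mul, h4]; push_cast; ring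
  have s2c : (s : ℂ) * (s : ℂ) = 1 := by rw [← Complex.ofReal_mul, s2]; simp
  have I2 : Complex.I * Complex.I = -1 := Complex.I_mul_I
  unfold ww
  rw [Complex.star_def, map_mul, Complex.conj_ofReal, Complex.conj_I]
  push_cast
  linear_combination - (s : ℂ) * s * ((Real.sqrt (γ * ν) : ℝ) : ℂ)
      * ((Real.sqrt (γ * ν) : ℝ) : ℂ) * I2 + (s : ℂ) * s * h4c + (γ : ℂ) * ν * s2c

theorem tt_avg {γ ν : ℝ} (h0 : 0 < γ) (h1 : γ ≤ 1) (_n0 : 0 < ν) (n1 : ν < 1) :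
    ((Real.sqrt (1 - γ * ν) : ℝ) : ℂ) * (tt γ ν 1 + tt γ ν (-1))
      = 2 * ((Real.sqrt (1 - γ) : ℝ) : ℂ) := by
  have ha : 0 < 1 - γ * ν := by nlinarith
  have h6 : Real.sqrt (1 - γ * ν) ≠ 0 := (Real.sqrt_pos.2 ha).ne'
  have h7 : (Real.sqrt (1 - γ * ν) : ℂ) ≠ 0 := by exact_mod_cast h6
  unfold tt
  rw [← add_div, mul_div_cancel₀ _ h7]
  push_cast
  ring

end SG
end Vale.Agent.P358
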