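import Vale.Agent.P358.DefsG
import Vale.Agent.P358.Upper

/-!
P358, general `ν`: subadditivity of the Holevo quantity, from the bound for pure inputs.
-/

namespace Vale.Agent.P358

open Matrix
open scoped ComplexOrder

variable {ι ε : Type} [Fintype ι] [DecidableEq ι] [Fintype ε] [DecidableEq ε]

omit [Fintype ι] in
theorem one_fromBlocks : (fromBlocks 1 0 0 1 : Matrix (ι ⊕ ι) (ι ⊕ ι) ℂ) = 1 := fromBlocks_one

theorem dchanG_kr {γ ν : ℝ} (h0 : 0 ≤ γ) (h1 : γ ≤ 1) (n0 : 0 ≤ ν) (n1 : ν ≤ 1)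
    (K : ε → Matrix ι ι ℂ) : ∃ K' : (ε ⊕ ε) ⊕ (ε ⊕ ε) → Matrix (ι ⊕ ι) (ι ⊕ ι) ℂ,
      dchanG γ ν (kr K) = kr K' ∧
      (∑ e, (K e)ᴴ * K e = 1 → ∑ e, (K' e)ᴴ * K' e = 1) := by
  have g0 : (Real.sqrt γ : ℂ) * (Real.sqrt γ : ℂ) = (γ : ℂ) := csqrt_mul h0
  have g1 : (Real.sqrt (1 - γ) : ℂ) * (Real.sqrt (1 - γ) : ℂ) = 1 - (γ : ℂ) := by
    rw [csqrt_mul (sub_nonneg.2 h1)]; push_cast; ring
  have m0 : (Real.sqrt ν : ℂ) * (Real.sqrt ν : ℂ) = (ν : ℂ) := csqrt_mul n0
  have m1 : (Real.sqrt (1 - ν) : ℂ) * (Real.sqrt (1 - ν) : ℂ) = 1 - (ν : ℂ) := by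
    rw [csqrt_mul (sub_nonneg.2 n1)]; push_cast; ring
  have s0 : star (Real.sqrt γ : ℂ) = (Real.sqrt γ : ℂ) := Complex.conj_ofReal _
  have s1 : star (Real.sqrt (1 - γ) : ℂ) = (Real.sqrt (1 - γ) : ℂ) := Complex.conj_ofReal _
  have s2 : star (Real.sqrt ν : ℂ) = (Real.sqrt ν : ℂ) := Complex.conj_ofReal _
  have s3 : star (Real.sqrt (1 - ν) : ℂ) = (Real.sqrt (1 - ν) : ℂ) := Complex.conj_ofReal _
  generalize hsg : (Real.sqrt γ : ℂ) = sg at *
  generalize hsn : (Real.sqrt ν : ℂ) = sn at *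
  generalize hsm : (Real.sqrt (1 - ν) : ℂ) = sm at *
  refine ⟨Sum.elim
    (Sum.elim (fun e => fromBlocks (sm • K e) 0 0 ((sm * (Real.sqrt (1 - γ) : ℂ)) • K e))
      (fun e => fromBlocks 0 ((sm * sg) • K e) 0 0))
    (Sum.elim (fun e => fromBlocks ((sn * (Real.sqrt (1 - γ) : ℂ)) • K e) 0 0 (sn • K e))
      (fun e => fromBlocks 0 0 ((sn * sg) • K e) 0)), ?_, ?_⟩
  · funext R
    have hR : R = fromBlocks R.toBlocks₁₁ R.toBlocks₁₂ R.toBlocks₂₁ R.toBlocks₂₂ :=
      (fromBlocks_toBlocks R).symm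
    unfold dchanG
    generalize R.toBlocks₁₁ = R11 at *
    generalize R.toBlocks₁₂ = R12 at *
    generalize R.toBlocks₂₁ = R21 at *
    generalize R.toBlocks₂₂ = R22 at *
    generalize (Real.sqrt (1 - γ) : ℂ) = sk at *
    have f1 : ∀ e, fromBlocks (sm • K e) 0 0 ((sm * sk) • K e) * R *
        (fromBlocks (sm • K e) 0 0 ((sm * sk) • K e))ᴴ =
        fromBlocks ((sm * sm) • (K e * R11 * (K e)ᴴ)) ((sm * sm * sk) • (K e * R12 * (K e)ᴴ))
          ((sm * sm * sk) • (K e * R21 * (K e)ᴴ))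
          ((sm * sm * (sk * sk)) • (K e * R22 * (K e)ᴴ)) := by
      intro e
      rw [hR, fromBlocks_conjTranspose, fromBlocks_multiply, fromBlocks_multiply]
      simp only [conjTranspose_smul, conjTranspose_zero, star_mul', s1, s3, mul_zero, zero_mul,
        add_zero, zero_add, Matrix.smul_mul, Matrix.mul_smul, smul_smul]
      congr 2 <;> ring
    have f2 : ∀ e, fromBlocks 0 ((sm * sg) • K e) 0 0 * R *
        (fromBlocks 0 ((sm * sg) • K e) 0 0)ᴴ =
        fromBlocks ((sm * sm * (sg * sg)) • (K e * R22 * (K e)ᴴ)) 0 0 0 := by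
      intro e
      rw [hR, fromBlocks_conjTranspose, fromBlocks_multiply, fromBlocks_multiply]
      simp only [conjTranspose_smul, conjTranspose_zero, star_mul', s0, s3, mul_zero, zero_mul,
        add_zero, zero_add, Matrix.smul_mul, Matrix.mul_smul, smul_smul]
      congr 2
      ring
    have f3 : ∀ e, fromBlocks ((sn * sk) • K e) 0 0 (sn • K e) * R *
        (fromBlocks ((sn * sk) • K e) 0 0 (sn • K e))ᴴ =
        fromBlocks ((sn * sn * (sk * sk)) • (K e * R11 * (K e)ᴴ))
          ((sn * sn * sk) • (K e * R12 * (K e)ᴴ))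
          ((sn * sn * sk) • (K e * R21 * (K e)ᴴ))
          ((sn * sn) • (K e * R22 * (K e)ᴴ)) := by
      intro e
      rw [hR, fromBlocks_conjTranspose, fromBlocks_multiply, fromBlocks_multiply]
      simp only [conjTranspose_smul, conjTranspose_zero, star_mul', s1, s2, mul_zero, zero_mul,
        add_zero, zero_add, Matrix.smul_mul, Matrix.mul_smul, smul_smul]
      congr 2 <;> ring
    have f4 : ∀ e, fromBlocks 0 0 ((sn * sg) • K e) 0 * R *
        (fromBlocks 0 0 ((sn * sg) • K e) 0)ᴴ =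
        fromBlocks 0 0 0 ((sn * sn * (sg * sg)) • (K e * R11 * (K e)ᴴ)) := by
      intro e
      rw [hR, fromBlocks_conjTranspose, fromBlocks_multiply, fromBlocks_multiply]
      simp only [conjTranspose_smul, conjTranspose_zero, star_mul', s0, s2, mul_zero, zero_mul,
        add_zero, zero_add, Matrix.smul_mul, Matrix.mul_smul, smul_smul]
      congr 2
      ring
    unfold kr
    rw [Fintype.sum_sum_type, Fintype.sum_sum_type, Fintype.sum_sum_type]
    simp only [Sum.elim_inl, Sum.elim_inr]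
    rw [Finset.sum_congr rfl fun e _ => f1 e, Finset.sum_congr rfl fun e _ => f2 e,
      Finset.sum_congr rfl fun e _ => f3 e, Finset.sum_congr rfl fun e _ => f4 e,
      sum_fromBlocks, sum_fromBlocks, sum_fromBlocks, sum_fromBlocks, fromBlocks_add,
      fromBlocks_add, fromBlocks_add]
    simp only [Finset.sum_const_zero, add_zero, zero_add, ← Finset.smul_sum]
    generalize ∑ e, K e * R11 * (K e)ᴴ = S11
    generalize ∑ e, K e * R12 * (K e)ᴴ = S12
    generalize ∑ e, K e * R21 * (K e)ᴴ = S21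
    generalize ∑ e, K e * R22 * (K e)ᴴ = S22
    rw [m1, m0, g0, g1]
    congr 1
    · rw [add_assoc, add_comm _ (((ν : ℂ) * (1 - (γ : ℂ))) • S11), ← add_assoc, ← add_smul]
      congr 2 <;> (push_cast; ring)
    · rw [← add_smul]
      congr 1
      ring
    · rw [← add_smul]
      congr 1
      ring
    · rw [← add_assoc, ← add_smul, add_comm]
      congr 2 <;> (push_cast; ring)
  · intro hK
    generalize (Real.sqrt (1 - γ) : ℂ) = sk at *
    have f1 : ∀ e, (fromBlocks (sm • K e) 0 0 ((sm * sk) • K e))ᴴ *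
        fromBlocks (sm • K e) 0 0 ((sm * sk) • K e) =
        fromBlocks ((sm * sm) • ((K e)ᴴ * K e)) 0 0 ((sm * sm * (sk * sk)) • ((K e)ᴴ * K e)) := by
      intro e
      rw [fromBlocks_conjTranspose, fromBlocks_multiply]
      simp only [conjTranspose_smul, conjTranspose_zero, star_mul', s1, s3, mul_zero, zero_mul,
        add_zero, zero_add, Matrix.smul_mul, Matrix.mul_smul, smul_smul]
      congr 2
      ring
    have f2 : ∀ e, (fromBlocks 0 ((sm * sg) • K e) 0 0)ᴴ *
        fromBlocks 0 ((sm * sg) • K e) 0 0 =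
        fromBlocks 0 0 0 ((sm * sm * (sg * sg)) • ((K e)ᴴ * K e)) := by
      intro e
      rw [fromBlocks_conjTranspose, fromBlocks_multiply]
      simp only [conjTranspose_smul, conjTranspose_zero, star_mul', s0, s3, mul_zero, zero_mul,
        add_zero, zero_add, Matrix.smul_mul, Matrix.mul_smul, smul_smul]
      congr 2
      ring
    have f3 : ∀ e, (fromBlocks ((sn * sk) • K e) 0 0 (sn • K e))ᴴ *
        fromBlocks ((sn * sk) • K e) 0 0 (sn • K e) =
        fromBlocks ((sn * sn * (sk * sk)) • ((K e)ᴴ * K e)) 0 0 ((sn * sn) • ((K e)ᴴ * K e)) := by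
      intro e
      rw [fromBlocks_conjTranspose, fromBlocks_multiply]
      simp only [conjTranspose_smul, conjTranspose_zero, star_mul', s1, s2, mul_zero, zero_mul,
        add_zero, zero_add, Matrix.smul_mul, Matrix.mul_smul, smul_smul]
      congr 2
      ring
    have f4 : ∀ e, (fromBlocks 0 0 ((sn * sg) • K e) 0)ᴴ *
        fromBlocks 0 0 ((sn * sg) • K e) 0 =
        fromBlocks ((sn * sn * (sg * sg)) • ((K e)ᴴ * K e)) 0 0 0 := by
      intro e
      rw [fromBlocks_conjTranspose, fromBlocks_multiply]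
      simp only [conjTranspose_smul, conjTranspose_zero, star_mul', s0, s2, mul_zero, zero_mul,
        add_zero, zero_add, Matrix.smul_mul, Matrix.mul_smul, smul_smul]
      congr 2
      ring
    rw [Fintype.sum_sum_type, Fintype.sum_sum_type, Fintype.sum_sum_type]
    simp only [Sum.elim_inl, Sum.elim_inr]
    rw [Finset.sum_congr rfl fun e _ => f1 e, Finset.sum_congr rfl fun e _ => f2 e,
      Finset.sum_congr rfl fun e _ => f3 e, Finset.sum_congr rfl fun e _ => f4 e,
      sum_fromBlocks, sum_fromBlocks, sum_fromBlocks, sum_fromBlocks, fromBlocks_add,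
      fromBlocks_add, fromBlocks_add]
    simp only [Finset.sum_const_zero, add_zero, zero_add, ← Finset.smul_sum]
    rw [hK, m1, m0, g0, g1, ← add_smul, ← add_smul, ← add_smul, ← add_smul, ← fromBlocks_one]
    congr 1
    · conv_rhs => rw [← one_smul ℂ (1 : Matrix ι ι ℂ)]
      congr 1
      ring
    · conv_rhs => rw [← one_smul ℂ (1 : Matrix ι ι ℂ)]
      congr 1
      ring

end Vale.Agent.P358
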