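import Vale.Agent.P358.UpperG0

/-!
P358, general `ν`: the qubit channel on the states `(√(1-q), ±√q)`.
-/

namespace Vale.Agent.P358

open Matrix
open scoped ComplexOrder

namespace UpG

open Up

/-- occupation of the output -/
noncomputable def al (γ ν q : ℝ) : ℝ := (1 - γ * ν) * (1 - q) + γ * (1 - ν) * q
noncomputable def be (γ ν q : ℝ) : ℝ := γ * ν * (1 - q) + (1 - γ * (1 - ν)) * q

lemma al_add_be (γ ν q : ℝ) : al γ ν q + be γ ν q = 1 := by unfold al be; ring

lemma gadcG_qv {γ ν q s : ℝ} (h0 : 0 ≤ q) (h1 : q ≤ 1) (hs : s ^ 2 = 1) :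
    gadc γ ν (outer (qv q s) (qv q s)) =
      !![((al γ ν q : ℝ) : ℂ), ((s * (Real.sqrt (1 - γ) * Real.sqrt (1 - q) * Real.sqrt q) : ℝ) : ℂ);
        ((s * (Real.sqrt (1 - γ) * Real.sqrt (1 - q) * Real.sqrt q) : ℝ) : ℂ), ((be γ ν q : ℝ) : ℂ)] := by
  have e1 : Real.sqrt (1 - q) * Real.sqrt (1 - q) = 1 - q := Real.mul_self_sqrt (by linarith)
  have e2 : Real.sqrt q * Real.sqrt q = q := Real.mul_self_sqrt h0
  have e3 : s * Real.sqrt q * (s * Real.sqrt q) = q := by linear_combination s ^ 2 * e2 + q * hs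
  ext i j
  fin_cases i <;> fin_cases j <;>
  simp only [gadc, outer_apply, qv, Matrix.cons_val_zero, Matrix.cons_val_one, Complex.star_def,
    Complex.conj_ofReal, ← Complex.ofReal_mul, ← Complex.ofReal_add, ← Complex.ofReal_sub,
    Matrix.of_apply, Matrix.cons_val', Matrix.cons_val_fin_one, Fin.zero_eta, Fin.mk_one,
    Fin.isValue, e1, e3, al, be] <;>
  congr 1 <;> ring

lemma det_val {γ ν q s : ℝ} (g1 : γ ≤ 1) (h0 : 0 ≤ q) (h1 : q ≤ 1) (hs : s ^ 2 = 1) :
    al γ ν q * be γ ν q - (s * (Real.sqrt (1 - γ) * Real.sqrt (1 - q) * Real.sqrt q)) ^ 2 =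
      del γ ν q := by
  have e0 : Real.sqrt (1 - γ) ^ 2 = 1 - γ := Real.sq_sqrt (by linarith)
  have e1 : Real.sqrt (1 - q) ^ 2 = 1 - q := Real.sq_sqrt (by linarith)
  have e2 : Real.sqrt q ^ 2 = q := Real.sq_sqrt h0
  have e3 : (s * (Real.sqrt (1 - γ) * Real.sqrt (1 - q) * Real.sqrt q)) ^ 2 =
      (1 - γ) * (1 - q) * q := by
    calc (s * (Real.sqrt (1 - γ) * Real.sqrt (1 - q) * Real.sqrt q)) ^ 2
        = s ^ 2 * (Real.sqrt (1 - γ) ^ 2 * Real.sqrt (1 - q) ^ 2 * Real.sqrt q ^ 2) := by ring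
      _ = _ := by rw [hs, e0, e1, e2]; ring
  rw [e3]
  unfold al be del
  ring

lemma ent_gadcG_qv {γ ν q s : ℝ} (g1 : γ ≤ 1) (h0 : 0 ≤ q) (h1 : q ≤ 1)
    (hs : s ^ 2 = 1) :
    ent (gadc γ ν (outer (qv q s) (qv q s))) = eta2 (del γ ν q) := by
  have hd := det_val (ν := ν) g1 h0 h1 hs
  have h4 : 0 ≤ 1 - 4 * del γ ν q := by
    have hab := al_add_be γ ν q
    have h5 : (al γ ν q + be γ ν q) ^ 2 - 4 * (al γ ν q * be γ ν q) =
        (al γ ν q - be γ ν q) ^ 2 := by ring
    have h6 := sq_nonneg (al γ ν q - be γ ν q)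
    have h7 := sq_nonneg (s * (Real.sqrt (1 - γ) * Real.sqrt (1 - q) * Real.sqrt q))
    rw [hab] at h5
    nlinarith
  rw [gadcG_qv h0 h1 hs]
  unfold eta2
  apply ent_two
  · ext i j
    fin_cases i <;> fin_cases j <;> simp [Matrix.conjTranspose_apply]
  · rw [Matrix.trace_fin_two]
    simp only [Matrix.of_apply, Matrix.cons_val', Matrix.cons_val_zero, Matrix.cons_val_one,
      Matrix.cons_val_fin_one, ← Complex.ofReal_add]
    congr 1
    rw [al_add_be]
    ring
  · rw [Matrix.det_fin_two]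
    simp only [Matrix.of_apply, Matrix.cons_val', Matrix.cons_val_zero, Matrix.cons_val_one,
      Matrix.cons_val_fin_one, ← Complex.ofReal_mul, ← Complex.ofReal_sub]
    congr 1
    have h8 : Real.sqrt (1 - 4 * del γ ν q) ^ 2 = 1 - 4 * del γ ν q := Real.sq_sqrt h4
    have h9 : al γ ν q * be γ ν q -
        s * (Real.sqrt (1 - γ) * Real.sqrt (1 - q) * Real.sqrt q) *
          (s * (Real.sqrt (1 - γ) * Real.sqrt (1 - q) * Real.sqrt q)) = del γ ν q := by
      rw [← hd]; ring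
    rw [h9]
    linear_combination (1 / 4) * h8

lemma sum_gadcG {J : Type} [Fintype J] {γ ν : ℝ} (w q : J → ℝ) (hw : ∑ j, w j = 1)
    (h0 : ∀ j, 0 ≤ q j) (h1 : ∀ j, q j ≤ 1) :
    ∑ j : J ⊕ J, ((Sum.elim (fun j => w j / 2) (fun j => w j / 2) j : ℝ) : ℂ) •
      gadc γ ν (Sum.elim (fun j => outer (qv (q j) 1) (qv (q j) 1))
        (fun j => outer (qv (q j) (-1)) (qv (q j) (-1))) j) =
      !![((al γ ν (∑ j, w j * q j) : ℝ) : ℂ), 0;
        0, ((be γ ν (∑ j, w j * q j) : ℝ) : ℂ)] := by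
  rw [Fintype.sum_sum_type]
  simp only [Sum.elim_inl, Sum.elim_inr]
  have e1 : ∀ j, gadc γ ν (outer (qv (q j) 1) (qv (q j) 1)) =
      !![((al γ ν (q j) : ℝ) : ℂ), ((1 * (Real.sqrt (1 - γ) * Real.sqrt (1 - q j) * Real.sqrt (q j)) : ℝ) : ℂ);
        ((1 * (Real.sqrt (1 - γ) * Real.sqrt (1 - q j) * Real.sqrt (q j)) : ℝ) : ℂ), ((be γ ν (q j) : ℝ) : ℂ)] :=
    fun j => gadcG_qv (h0 j) (h1 j) (by norm_num)
  have e2 : ∀ j, gadc γ ν (outer (qv (q j) (-1)) (qv (q j) (-1))) =
      !![((al γ ν (q j) : ℝ) : ℂ), (((-1) * (Real.sqrt (1 - γ) * Real.sqrt (1 - q j) * Real.sqrt (q j)) : ℝ) : ℂ);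
        (((-1) * (Real.sqrt (1 - γ) * Real.sqrt (1 - q j) * Real.sqrt (q j)) : ℝ) : ℂ), ((be γ ν (q j) : ℝ) : ℂ)] :=
    fun j => gadcG_qv (h0 j) (h1 j) (by norm_num)
  simp only [e1, e2]
  rw [← Finset.sum_add_distrib]
  have hal : al γ ν (∑ j, w j * q j) = ∑ j, w j * al γ ν (q j) := by
    unfold al
    have : ∀ j, w j * ((1 - γ * ν) * (1 - q j) + γ * (1 - ν) * q j) =
        (1 - γ * ν) * w j + (γ * (1 - ν) - (1 - γ * ν)) * (w j * q j) := fun j => by ring
    rw [Finset.sum_congr rfl fun j _ => this j, Finset.sum_add_distrib, ← Finset.mul_sum,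
      ← Finset.mul_sum, hw]
    ring
  have hbe : be γ ν (∑ j, w j * q j) = ∑ j, w j * be γ ν (q j) := by
    unfold be
    have : ∀ j, w j * (γ * ν * (1 - q j) + (1 - γ * (1 - ν)) * q j) =
        (γ * ν) * w j + ((1 - γ * (1 - ν)) - γ * ν) * (w j * q j) := fun j => by ring
    rw [Finset.sum_congr rfl fun j _ => this j, Finset.sum_add_distrib, ← Finset.mul_sum,
      ← Finset.mul_sum, hw]
    ring
  rw [hal, hbe]
  ext i j
  rw [Matrix.sum_apply]
  fin_cases i <;> fin_cases j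
  · simp only [Matrix.add_apply, Matrix.smul_apply, Matrix.of_apply, Matrix.cons_val',
      Matrix.cons_val_zero, Matrix.cons_val_one, Matrix.cons_val_fin_one, Fin.zero_eta,
      Fin.mk_one, Fin.isValue, smul_eq_mul]
    push_cast
    apply Finset.sum_congr rfl
    intro j _
    ring
  · simp only [Matrix.add_apply, Matrix.smul_apply, Matrix.of_apply, Matrix.cons_val',
      Matrix.cons_val_zero, Matrix.cons_val_one, Matrix.cons_val_fin_one, Fin.zero_eta,
      Fin.mk_one, Fin.isValue, smul_eq_mul]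
    apply Finset.sum_eq_zero
    intro j _
    push_cast
    ring
  · simp only [Matrix.add_apply, Matrix.smul_apply, Matrix.of_apply, Matrix.cons_val',
      Matrix.cons_val_zero, Matrix.cons_val_one, Matrix.cons_val_fin_one, Fin.zero_eta,
      Fin.mk_one, Fin.isValue, smul_eq_mul]
    apply Finset.sum_eq_zero
    intro j _
    push_cast
    ring
  · simp only [Matrix.add_apply, Matrix.smul_apply, Matrix.of_apply, Matrix.cons_val',
      Matrix.cons_val_zero, Matrix.cons_val_one, Matrix.cons_val_fin_one, Fin.zero_eta,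
      Fin.mk_one, Fin.isValue, smul_eq_mul]
    push_cast
    apply Finset.sum_congr rfl
    intro j _
    ring

/-- The first term of the bound is a Holevo value of the qubit channel. -/
lemma first_memG {J : Type} [Fintype J] {γ ν : ℝ} (g1 : γ ≤ 1) (w q : J → ℝ)
    (hw0 : ∀ j, 0 ≤ w j) (hw : ∑ j, w j = 1) (h0 : ∀ j, 0 ≤ q j) (h1 : ∀ j, q j ≤ 1) :
    Real.negMulLog (al γ ν (∑ j, w j * q j)) + Real.negMulLog (be γ ν (∑ j, w j * q j)) -
      ∑ j, w j * eta2 (del γ ν (q j)) ∈ hol (gadc γ ν) := by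
  refine ⟨J ⊕ J, inferInstance, Sum.elim (fun j => w j / 2) (fun j => w j / 2),
    Sum.elim (fun j => outer (qv (q j) 1) (qv (q j) 1))
        (fun j => outer (qv (q j) (-1)) (qv (q j) (-1))), ?_, ?_, ?_, ?_⟩
  · rintro (j | j)
    · exact div_nonneg (hw0 j) (by norm_num)
    · exact div_nonneg (hw0 j) (by norm_num)
  · rw [Fintype.sum_sum_type]
    simp only [Sum.elim_inl, Sum.elim_inr]
    rw [← Finset.sum_add_distrib, ← hw]
    apply Finset.sum_congr rfl
    intro j _
    ring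
  · rintro (j | j)
    · exact qv_isState (h0 j) (h1 j) (by norm_num)
    · exact qv_isState (h0 j) (h1 j) (by norm_num)
  · rw [sum_gadcG w q hw h0 h1]
    have e1 : ent !![((al γ ν (∑ j, w j * q j) : ℝ) : ℂ), 0;
        0, ((be γ ν (∑ j, w j * q j) : ℝ) : ℂ)] =
        Real.negMulLog (al γ ν (∑ j, w j * q j)) +
          Real.negMulLog (be γ ν (∑ j, w j * q j)) := by
      apply ent_two
      · ext i j
        fin_cases i <;> fin_cases j <;> simp [Matrix.conjTranspose_apply]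
      · rw [Matrix.trace_fin_two]
        simp
      · rw [Matrix.det_fin_two]
        simp
    rw [e1, Fintype.sum_sum_type]
    simp only [Sum.elim_inl, Sum.elim_inr]
    have e2 : ∀ j, ent (gadc γ ν (outer (qv (q j) 1) (qv (q j) 1))) = eta2 (del γ ν (q j)) :=
      fun j => ent_gadcG_qv g1 (h0 j) (h1 j) (by norm_num)
    have e3 : ∀ j, ent (gadc γ ν (outer (qv (q j) (-1)) (qv (q j) (-1)))) =
        eta2 (del γ ν (q j)) :=
      fun j => ent_gadcG_qv g1 (h0 j) (h1 j) (by norm_num)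
    simp only [e2, e3]
    rw [← Finset.sum_add_distrib]
    congr 1
    apply Finset.sum_congr rfl
    intro j _
    ring

/-- The second term of the bound is a Holevo value of the other channel. -/
lemma second_memG {ι ε L : Type} [Fintype ι] [DecidableEq ι] [Fintype ε] [Fintype L] (i0 : ι)
    (K : ε → Matrix ι ι ℂ) (hK : ∑ e, (K e)ᴴ * K e = 1) (w : L → ℝ) (v : L → ι → ℂ)
    (hw0 : ∀ l, 0 ≤ w l) (hw : ∑ l, w l * (outer (v l) (v l)).trace.re = 1) :
    ent (kr K (∑ l, (w l : ℂ) • outer (v l) (v l))) -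
      ∑ l, w l * (ent (kr K (outer (v l) (v l))) -
        Real.negMulLog (outer (v l) (v l)).trace.re) ∈ hol (kr K) := by
  choose σ hσ hσf using fun l => exists_state i0 (v l)
  have key : ∀ (h : ι → ℂ) (s : Matrix ι ι ℂ), IsState s →
      outer h h = ((outer h h).trace.re : ℂ) • s →
      (outer h h).trace.re * ent (kr K s) =
        ent (kr K (outer h h)) - Real.negMulLog (outer h h).trace.re := by
    intro h s hs he
    have h1 : ent (kr K (outer h h)) = (outer h h).trace.re * ent (kr K s) +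
        Real.negMulLog (outer h h).trace.re := by
      have h2 := ent_smul (kr_psd K hs.1).isHermitian (outer h h).trace.re
      rw [← kr_smul, ← he, kr_trace K hK, hs.2, Complex.one_re, mul_one] at h2
      exact h2
    linarith
  refine ⟨L, inferInstance, fun l => w l * (outer (v l) (v l)).trace.re, σ, ?_, hw, hσ, ?_⟩
  · exact fun l => mul_nonneg (hw0 l) (outer_trace_nonneg _)
  · have e1 : ∀ l, ((w l * (outer (v l) (v l)).trace.re : ℝ) : ℂ) • kr K (σ l) =
        (w l : ℂ) • kr K (outer (v l) (v l)) := by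
      intro l
      rw [Complex.ofReal_mul, ← smul_smul, ← kr_smul K ((outer (v l) (v l)).trace.re : ℂ),
        ← hσf]
    have e3 : ∀ l, w l * (outer (v l) (v l)).trace.re * ent (kr K (σ l)) =
        w l * (ent (kr K (outer (v l) (v l))) - Real.negMulLog (outer (v l) (v l)).trace.re) := by
      intro l
      rw [mul_assoc, key (v l) (σ l) (hσ l) (hσf l)]
    simp only [e1, e3]
    rw [kr_sum]

end UpG

end Vale.Agent.P358
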