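import Vale.Agent.P358.UpperG1

/-!
P358, general `ν`: subadditivity of the Holevo quantity, from the bound for pure inputs.
-/

namespace Vale.Agent.P358

open Matrix
open scoped ComplexOrder

open Up UpG in
theorem upper_of {ι ε : Type} [Fintype ι] [DecidableEq ι] [Fintype ε] [DecidableEq ε]
    {γ ν : ℝ} (h0 : 0 ≤ γ) (h1 : γ ≤ 1) (n0 : 0 ≤ ν) (n1 : ν ≤ 1)
    (K : ε → Matrix ι ι ℂ) (hK : ∑ e, (K e)ᴴ * K e = 1)
    (hpure : ∀ f g : ι → ℂ, (outer f f).trace.re + (outer g g).trace.re = 1 →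
      ∃ h : Fin 2 × Fin 3 → ι → ℂ, ∑ m, outer (h m) (h m) = outer f f + outer g g ∧
      ∑ m, (ent (kr K (outer (h m) (h m))) - Real.negMulLog (outer (h m) (h m)).trace.re)
        + eta2 (del γ ν (outer g g).trace.re) ≤
      ent (dchanG γ ν (kr K) (outer (Sum.elim f g) (Sum.elim f g))))
    (r : ℝ) (hr : r ∈ hol (dchanG γ ν (kr K))) :
    ∃ r1 ∈ hol (gadc γ ν), ∃ r2 ∈ hol (kr K), r ≤ r1 + r2 := by
  obtain ⟨K', hfun, hK'⟩ := dchanG_kr h0 h1 n0 n1 K
  rw [hfun] at hr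
  obtain ⟨J, _, w, ψ, hw0, hw, hψ, hr⟩ := pure_ens _ r hr
  rw [← hfun] at hr
  -- the two halves of the vectors
  obtain ⟨f, hf⟩ : ∃ f : J → ι → ℂ, ∀ j i, f j i = ψ j (Sum.inl i) := ⟨_, fun _ _ => rfl⟩
  obtain ⟨g, hg⟩ : ∃ g : J → ι → ℂ, ∀ j i, g j i = ψ j (Sum.inr i) := ⟨_, fun _ _ => rfl⟩
  have hψe : ∀ j, ψ j = Sum.elim (f j) (g j) := by
    intro j
    ext (i | i)
    · rw [Sum.elim_inl, hf]
    · rw [Sum.elim_inr, hg]
  have hfg : ∀ j, (outer (f j) (f j)).trace.re + (outer (g j) (g j)).trace.re = 1 := by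
    intro j
    have h := hψ j
    rw [hψe j, outer_trace] at h
    have h' : ∑ i, ‖(Sum.elim (f j) (g j) : ι ⊕ ι → ℂ) i‖ ^ 2 = 1 := by exact_mod_cast h
    rw [Fintype.sum_sum_type] at h'
    simp only [Sum.elim_inl, Sum.elim_inr] at h'
    rw [outer_trace_re, outer_trace_re, h']
  have hi0 : Nonempty ι := by
    by_contra hne
    rw [not_nonempty_iff] at hne
    have hJ : Nonempty J := by
      by_contra hJ
      rw [not_nonempty_iff] at hJ
      simp at hw
    obtain ⟨j⟩ := hJ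
    have := hfg j
    rw [outer_trace_re, outer_trace_re] at this
    simp at this
  obtain ⟨i0⟩ := hi0
  have hq0 : ∀ j, 0 ≤ (outer (g j) (g j)).trace.re := fun j => outer_trace_nonneg _
  have hq1 : ∀ j, (outer (g j) (g j)).trace.re ≤ 1 := fun j => by
    have := outer_trace_nonneg (f j)
    linarith [hfg j]
  choose h hsum hent using fun j => hpure (f j) (g j) (hfg j)
  -- weights of the second ensemble
  have htr : ∀ j, ∑ m, (outer (h j m) (h j m)).trace.re = 1 := by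
    intro j
    have h2 := congrArg (fun M : Matrix ι ι ℂ => M.trace.re) (hsum j)
    simp only [Matrix.trace_sum, Matrix.trace_add, Complex.re_sum, Complex.add_re] at h2
    rw [h2, hfg j]
  have hwl : ∑ l : J × (Fin 2 × Fin 3), w l.1 * (outer (h l.1 l.2) (h l.1 l.2)).trace.re = 1 := by
    rw [Fintype.sum_prod_type]
    simp only [← Finset.mul_sum, htr, mul_one, hw]
  refine ⟨_, first_memG (ν := ν) h1 w (fun j => (outer (g j) (g j)).trace.re) hw0 hw hq0 hq1, _,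
    second_memG (L := J × (Fin 2 × Fin 3)) i0 K hK (fun l => w l.1) (fun l => h l.1 l.2)
      (fun l => hw0 l.1) hwl, le_trans hr ?_⟩
  -- the averaged output
  have hR : ∑ j, (w j : ℂ) • outer (ψ j) (ψ j) =
      fromBlocks (∑ j, (w j : ℂ) • outer (f j) (f j)) (∑ j, (w j : ℂ) • outer (f j) (g j))
        (∑ j, (w j : ℂ) • outer (g j) (f j)) (∑ j, (w j : ℂ) • outer (g j) (g j)) := by
    ext (a | a) (b | b)
    · rw [Matrix.fromBlocks_apply₁₁, Matrix.sum_apply, Matrix.sum_apply]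
      apply Finset.sum_congr rfl
      intro j _
      rw [Matrix.smul_apply, Matrix.smul_apply, outer_apply, outer_apply, hf, hf]
    · rw [Matrix.fromBlocks_apply₁₂, Matrix.sum_apply, Matrix.sum_apply]
      apply Finset.sum_congr rfl
      intro j _
      rw [Matrix.smul_apply, Matrix.smul_apply, outer_apply, outer_apply, hf, hg]
    · rw [Matrix.fromBlocks_apply₂₁, Matrix.sum_apply, Matrix.sum_apply]
      apply Finset.sum_congr rfl
      intro j _
      rw [Matrix.smul_apply, Matrix.smul_apply, outer_apply, outer_apply, hf, hg]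
    · rw [Matrix.fromBlocks_apply₂₂, Matrix.sum_apply, Matrix.sum_apply]
      apply Finset.sum_congr rfl
      intro j _
      rw [Matrix.smul_apply, Matrix.smul_apply, outer_apply, outer_apply, hg, hg]
  have hRpsd : (∑ j, (w j : ℂ) • outer (ψ j) (ψ j)).PosSemidef := by
    apply Matrix.posSemidef_sum
    intro j _
    have h0 : (0 : ℂ) ≤ (w j : ℂ) := by exact_mod_cast hw0 j
    exact (outer_psd (ψ j)).smul h0
  obtain ⟨qb, hqb⟩ : ∃ qb : ℝ, qb = ∑ j, w j * (outer (g j) (g j)).trace.re := ⟨_, rfl⟩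
  have htf : (∑ j, (w j : ℂ) • outer (f j) (f j)).trace = ((1 - qb : ℝ) : ℂ) := by
    have h3 : (1 - qb : ℝ) = ∑ j, w j * (1 - (outer (g j) (g j)).trace.re) := by
      simp only [mul_sub, mul_one, Finset.sum_sub_distrib, hw, hqb]
    rw [h3, Matrix.trace_sum]
    push_cast
    apply Finset.sum_congr rfl
    intro j _
    rw [Matrix.trace_smul, smul_eq_mul, outer_trace_eq]
    congr 1
    have : (outer (f j) (f j)).trace.re = 1 - (outer (g j) (g j)).trace.re := by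
      linarith [hfg j]
    rw [this]
    push_cast
    ring
  have htg : (∑ j, (w j : ℂ) • outer (g j) (g j)).trace = ((qb : ℝ) : ℂ) := by
    rw [hqb, Matrix.trace_sum]
    push_cast
    apply Finset.sum_congr rfl
    intro j _
    rw [Matrix.trace_smul, smul_eq_mul, outer_trace_eq]
    push_cast
    rfl
  obtain ⟨F, hF⟩ : ∃ F : Matrix ι ι ℂ, F = ∑ j, (w j : ℂ) • outer (f j) (f j) := ⟨_, rfl⟩
  obtain ⟨G, hG⟩ : ∃ G : Matrix ι ι ℂ, G = ∑ j, (w j : ℂ) • outer (g j) (g j) := ⟨_, rfl⟩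
  rw [← hF] at htf
  rw [← hG] at htg
  have hb1 : (dchanG γ ν (kr K) (∑ j, (w j : ℂ) • outer (ψ j) (ψ j))).toBlocks₁₁ =
      ((1 - γ * ν : ℝ) : ℂ) • kr K F + ((γ * (1 - ν) : ℝ) : ℂ) • kr K G := by
    rw [hR, dchanG, toBlocks_fromBlocks₁₁, toBlocks_fromBlocks₁₁, toBlocks_fromBlocks₂₂, hF, hG]
  have hb2 : (dchanG γ ν (kr K) (∑ j, (w j : ℂ) • outer (ψ j) (ψ j))).toBlocks₂₂ =
      ((γ * ν : ℝ) : ℂ) • kr K F + ((1 - γ * (1 - ν) : ℝ) : ℂ) • kr K G := by
    rw [hR, dchanG, toBlocks_fromBlocks₂₂, toBlocks_fromBlocks₁₁, toBlocks_fromBlocks₂₂, hF, hG]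
  have ht1 : (dchanG γ ν (kr K) (∑ j, (w j : ℂ) • outer (ψ j) (ψ j))).toBlocks₁₁.trace =
      ((al γ ν qb : ℝ) : ℂ) := by
    rw [hb1, Matrix.trace_add, Matrix.trace_smul, Matrix.trace_smul, kr_trace K hK,
      kr_trace K hK, htf, htg, smul_eq_mul, smul_eq_mul, ← Complex.ofReal_mul,
      ← Complex.ofReal_mul, ← Complex.ofReal_add]
    rfl
  have ht2 : (dchanG γ ν (kr K) (∑ j, (w j : ℂ) • outer (ψ j) (ψ j))).toBlocks₂₂.trace =
      ((be γ ν qb : ℝ) : ℂ) := by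
    rw [hb2, Matrix.trace_add, Matrix.trace_smul, Matrix.trace_smul, kr_trace K hK,
      kr_trace K hK, htf, htg, smul_eq_mul, smul_eq_mul, ← Complex.ofReal_mul,
      ← Complex.ofReal_mul, ← Complex.ofReal_add]
    rfl
  have hsub := ent_subadd (dchanG γ ν (kr K) (∑ j, (w j : ℂ) • outer (ψ j) (ψ j)))
    (by
      refine ⟨?_, ?_⟩
      · rw [hfun]; exact kr_psd _ hRpsd
      · have tb : ∀ M : Matrix (ι ⊕ ι) (ι ⊕ ι) ℂ,
            M.trace = M.toBlocks₁₁.trace + M.toBlocks₂₂.trace := by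
          intro M
          simp [Matrix.trace, Fintype.sum_sum_type, toBlocks₁₁, toBlocks₂₂]
        rw [tb, ht1, ht2, ← Complex.ofReal_add, al_add_be, Complex.ofReal_one])
  have hb3 : (dchanG γ ν (kr K) (∑ j, (w j : ℂ) • outer (ψ j) (ψ j))).toBlocks₁₁ +
      (dchanG γ ν (kr K) (∑ j, (w j : ℂ) • outer (ψ j) (ψ j))).toBlocks₂₂ =
      kr K (∑ l : J × (Fin 2 × Fin 3), ((w l.1 : ℝ) : ℂ) • outer (h l.1 l.2) (h l.1 l.2)) := by
    have h5 : ∑ l : J × (Fin 2 × Fin 3), ((w l.1 : ℝ) : ℂ) • outer (h l.1 l.2) (h l.1 l.2) =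
        F + G := by
      rw [Fintype.sum_prod_type, hF, hG, ← Finset.sum_add_distrib]
      refine Finset.sum_congr rfl fun j _ => ?_
      dsimp only
      rw [← Finset.smul_sum, hsum j, smul_add]
    rw [h5, kr_add, hb1, hb2]
    have c1 : ((1 - γ * ν : ℝ) : ℂ) + ((γ * ν : ℝ) : ℂ) = 1 := by push_cast; ring
    have c2 : ((γ * (1 - ν) : ℝ) : ℂ) + ((1 - γ * (1 - ν) : ℝ) : ℂ) = 1 := by push_cast; ring
    calc _ = (((1 - γ * ν : ℝ) : ℂ) + ((γ * ν : ℝ) : ℂ)) • kr K F +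
        (((γ * (1 - ν) : ℝ) : ℂ) + ((1 - γ * (1 - ν) : ℝ) : ℂ)) • kr K G := by
          rw [add_smul, add_smul]; abel
      _ = kr K F + kr K G := by rw [c1, c2, one_smul, one_smul]
  rw [hb3, ht1, ht2, Complex.ofReal_re, Complex.ofReal_re] at hsub
  -- the pure states
  have hpure' : ∑ l : J × (Fin 2 × Fin 3), w l.1 * (ent (kr K (outer (h l.1 l.2) (h l.1 l.2)))
      - Real.negMulLog (outer (h l.1 l.2) (h l.1 l.2)).trace.re) +
      ∑ j, w j * eta2 (del γ ν (outer (g j) (g j)).trace.re) ≤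
      ∑ j, w j * ent (dchanG γ ν (kr K) (outer (ψ j) (ψ j))) := by
    rw [Fintype.sum_prod_type, ← Finset.sum_add_distrib]
    apply Finset.sum_le_sum
    intro j _
    dsimp only
    rw [← Finset.mul_sum, ← mul_add]
    apply mul_le_mul_of_nonneg_left _ (hw0 j)
    have h6 := hent j
    rw [← hψe j] at h6
    exact h6
  rw [← hqb]
  linarith

end Vale.Agent.P358
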